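import Vale.Agent.Lib.P154.Tree

/-!
Domination of a family of messages by a finite law on the multiplicative lattice.
Messages are nonnegative vectors on three colours; the lattice vectors are
`(ρ ^ a, ρ ^ b, ρ ^ (-a - b)) / 3`, for which the merge is addition of the indices.
-/

namespace Vale.Agent.Lib.P154Anti

open Vale.Agent.Lib.P154

/-- The first unit vector. -/
def del0 : W3 := fun i => if i = 0 then 1 else 0

/-- Sublinear functionals on the cone of messages, invariant under the colours and vanishing at the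
extreme rays. -/
structure SubC (F : W3 → ℝ) : Prop where
  add : ∀ x y, NN x → NN y → F (x + y) ≤ F x + F y
  smul : ∀ (t : ℝ) (x : W3), 0 ≤ t → NN x → F (t • x) = t * F x
  inv : ∀ (σ : Equiv.Perm (Fin 3)) (x : W3), F (x ∘ σ) = F x
  van : F del0 = 0

lemma del0_nn : NN del0 := by
  intro i
  simp only [del0]
  split_ifs <;> norm_num

lemma nn_add {x y : W3} (hx : NN x) (hy : NN y) : NN (x + y) := fun i => by
  have := hx i
  have := hy i
  simp only [Pi.add_apply]
  linarith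

lemma nn_smul {x : W3} {t : ℝ} (ht : 0 ≤ t) (hx : NN x) : NN (t • x) := fun i => by
  have := hx i
  simp only [Pi.smul_apply, smul_eq_mul]
  positivity

lemma nn_comp {x : W3} (hx : NN x) (σ : Equiv.Perm (Fin 3)) : NN (x ∘ σ) := fun i => hx (σ i)

lemma SubC.nonpos {F : W3 → ℝ} (h : SubC F) {x : W3} (hx : NN x) : F x ≤ 0 := by
  have d1 : NN (del0 ∘ s2) := nn_comp del0_nn s2
  have d2 : NN (del0 ∘ s1) := nn_comp del0_nn s1
  have e : x = x 0 • del0 + (x 1 • (del0 ∘ s2) + x 2 • (del0 ∘ s1)) := by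
    funext i
    fin_cases i <;> simp [del0, s1, s2]
  have h0 := hx 0
  have h1 := hx 1
  have h2 := hx 2
  have a1 := h.add (x 0 • del0) (x 1 • (del0 ∘ s2) + x 2 • (del0 ∘ s1)) (nn_smul h0 del0_nn)
    (nn_add (nn_smul h1 d1) (nn_smul h2 d2))
  have a2 := h.add (x 1 • (del0 ∘ s2)) (x 2 • (del0 ∘ s1)) (nn_smul h1 d1) (nn_smul h2 d2)
  rw [h.smul _ _ h0 del0_nn, h.van] at a1
  rw [h.smul _ _ h1 d1, h.smul _ _ h2 d2, h.inv, h.inv, h.van] at a2
  rw [e]
  linarith

/-! ### Finite laws on the lattice -/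

/-- A finite law: a list of lattice points with integer masses. -/
abbrev Lw := List ((ℤ × ℤ) × ℕ)

/-- The integral of a function against a finite law. -/
noncomputable def Lsum (L : Lw) (f : ℤ × ℤ → ℝ) : ℝ := (L.map (fun p => (p.2 : ℝ) * f p.1)).sum

@[simp] lemma Lsum_nil (f : ℤ × ℤ → ℝ) : Lsum [] f = 0 := rfl

@[simp] lemma Lsum_cons (p : (ℤ × ℤ) × ℕ) (L : Lw) (f : ℤ × ℤ → ℝ) :
    Lsum (p :: L) f = (p.2 : ℝ) * f p.1 + Lsum L f := by
  simp [Lsum]

lemma Lsum_append (L L' : Lw) (f : ℤ × ℤ → ℝ) : Lsum (L ++ L') f = Lsum L f + Lsum L' f := by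
  simp [Lsum]

lemma Lsum_congr (L : Lw) {f g : ℤ × ℤ → ℝ} (h : ∀ x, f x = g x) : Lsum L f = Lsum L g := by
  have : f = g := funext h
  rw [this]

lemma Lsum_add (L : Lw) (f g : ℤ × ℤ → ℝ) :
    Lsum L (fun x => f x + g x) = Lsum L f + Lsum L g := by
  induction L with
  | nil => simp
  | cons p L ih =>
    simp only [Lsum_cons, ih]
    ring

lemma Lsum_sub (L : Lw) (f g : ℤ × ℤ → ℝ) :
    Lsum L (fun x => f x - g x) = Lsum L f - Lsum L g := by
  induction L with
  | nil => simp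
  | cons p L ih =>
    simp only [Lsum_cons, ih]
    ring

lemma Lsum_mul_left (L : Lw) (c : ℝ) (f : ℤ × ℤ → ℝ) :
    Lsum L (fun x => c * f x) = c * Lsum L f := by
  induction L with
  | nil => simp
  | cons p L ih =>
    simp only [Lsum_cons, ih]
    ring

lemma Lsum_mul_right (L : Lw) (c : ℝ) (f : ℤ × ℤ → ℝ) :
    Lsum L (fun x => f x * c) = Lsum L f * c := by
  induction L with
  | nil => simp
  | cons p L ih =>
    simp only [Lsum_cons, ih]
    ring

lemma Lsum_le (L : Lw) {f g : ℤ × ℤ → ℝ} (h : ∀ x, f x ≤ g x) : Lsum L f ≤ Lsum L g := by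
  induction L with
  | nil => simp
  | cons p L ih =>
    simp only [Lsum_cons]
    have := mul_le_mul_of_nonneg_left (h p.1) (Nat.cast_nonneg p.2)
    linarith

lemma Lsum_nonpos (L : Lw) {f : ℤ × ℤ → ℝ} (h : ∀ x, f x ≤ 0) : Lsum L f ≤ 0 := by
  have := Lsum_le L (f := f) (g := fun _ => 0) h
  have e : Lsum L (fun _ => (0 : ℝ)) = 0 := by
    have := Lsum_mul_left L 0 (fun _ => (0 : ℝ))
    simpa using this
  linarith

lemma Lsum_finset {Ω : Type} (s : Finset Ω) (L : Lw) (f : Ω → ℤ × ℤ → ℝ) :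
    Lsum L (fun x => ∑ ω ∈ s, f ω x) = ∑ ω ∈ s, Lsum L (f ω) := by
  induction L with
  | nil => simp
  | cons p L ih =>
    simp only [Lsum_cons, ih, Finset.sum_add_distrib, Finset.mul_sum]

lemma Lsum_swap (L L' : Lw) (f : ℤ × ℤ → ℤ × ℤ → ℝ) :
    Lsum L (fun x => Lsum L' (fun y => f x y)) = Lsum L' (fun y => Lsum L (fun x => f x y)) := by
  induction L with
  | nil =>
    simp only [Lsum_nil]
    have := Lsum_mul_left L' 0 (fun _ => (0 : ℝ))
    simpa using this.symm
  | cons p L ih =>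
    simp only [Lsum_cons, ih, Lsum_add, Lsum_mul_left]

/-- Product of two laws. -/
def Lprod (L L' : Lw) : Lw := L.flatMap (fun p => L'.map (fun q => (p.1 + q.1, p.2 * q.2)))

lemma Lsum_map_prod (g : ℤ × ℤ) (c : ℕ) (L' : Lw) (f : ℤ × ℤ → ℝ) :
    Lsum (L'.map (fun q => (g + q.1, c * q.2))) f = (c : ℝ) * Lsum L' (fun h => f (g + h)) := by
  induction L' with
  | nil => simp
  | cons q L' ih =>
    simp only [List.map_cons, Lsum_cons, mul_add, ih]
    push_cast
    ring

lemma Lsum_prod (L L' : Lw) (f : ℤ × ℤ → ℝ) :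
    Lsum (Lprod L L') f = Lsum L (fun g => Lsum L' (fun h => f (g + h))) := by
  induction L with
  | nil => simp [Lprod]
  | cons p L ih =>
    have e : Lprod (p :: L) L' = L'.map (fun q => (p.1 + q.1, p.2 * q.2)) ++ Lprod L L' := by
      simp [Lprod]
    rw [e, Lsum_append, ih, Lsum_cons, Lsum_map_prod]

/-- The powers of a law: `Lpow L k` has `k + 1` factors. -/
def Lpow (L : Lw) : ℕ → Lw
  | 0 => L
  | k + 1 => Lprod (Lpow L k) L

/-! ### The lattice vectors -/

/-- Exponents of a lattice point. -/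
def ee (g : ℤ × ℤ) : Fin 3 → ℤ := ![g.1, g.2, -g.1 - g.2]

lemma ee_sum (g : ℤ × ℤ) : ee g 0 + ee g 1 + ee g 2 = 0 := by
  simp [ee]

lemma ee_add (g h : ℤ × ℤ) (i : Fin 3) : ee (g + h) i = ee g i + ee h i := by
  fin_cases i <;> simp [ee] <;> ring

/-- Action of a permutation of the colours on the lattice. -/
def act (σ : Equiv.Perm (Fin 3)) (g : ℤ × ℤ) : ℤ × ℤ := (ee g (σ 0), ee g (σ 1))

lemma ee_act (σ : Equiv.Perm (Fin 3)) (g : ℤ × ℤ) (i : Fin 3) : ee (act σ g) i = ee g (σ i) := by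
  have hs : ∑ i, ee g (σ i) = ∑ i, ee g i := Equiv.sum_comp σ (ee g)
  simp only [Fin.sum_univ_three] at hs
  have h0 := ee_sum g
  fin_cases i
  · simp [ee, act]
  · simp [ee, act]
  · simp only [act, ee, Fin.reduceFinMk, Matrix.cons_val]
    simp only [ee] at hs h0
    simp at hs h0 ⊢
    linarith

lemma act_add (σ : Equiv.Perm (Fin 3)) (g h : ℤ × ℤ) : act σ (g + h) = act σ g + act σ h := by
  simp only [act, ee_add]
  rfl

lemma act_act (σ τ : Equiv.Perm (Fin 3)) (g : ℤ × ℤ) : act σ (act τ g) = act (τ * σ) g := by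
  show (ee (act τ g) (σ 0), ee (act τ g) (σ 1)) = _
  rw [ee_act, ee_act]
  rfl

lemma act_one (g : ℤ × ℤ) : act 1 g = g := by
  simp [act, ee]

/-- The lattice vectors. -/
noncomputable def lat (ρ : ℝ) (g : ℤ × ℤ) : W3 := fun i => (1 / 3) * ρ ^ ee g i

lemma lat_nn {ρ : ℝ} (hρ : 0 < ρ) (g : ℤ × ℤ) : NN (lat ρ g) := fun i => by
  simp only [lat]
  positivity

lemma lat_act (ρ : ℝ) (σ : Equiv.Perm (Fin 3)) (g : ℤ × ℤ) : lat ρ (act σ g) = lat ρ g ∘ σ := by
  funext i
  simp only [lat, ee_act, Function.comp_apply]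

lemma mrg_lat {ρ : ℝ} (hρ : 0 < ρ) (g h : ℤ × ℤ) : mrg (lat ρ g) (lat ρ h) = lat ρ (g + h) := by
  funext i
  simp only [mrg, lat, ee_add, zpow_add₀ hρ.ne']
  ring

/-! ### Domination -/

/-- The family `y` is dominated by the law `L` with denominators `s`. -/
def Dom (ρ : ℝ) {Ω : Type} [Fintype Ω] (y : Ω → W3) (L : Lw) (s : ℝ) : Prop :=
  ∀ F, SubC F → ∑ ω, F (y ω) ≤ Lsum L (fun g => F (lat ρ g)) / s

/-- Invariance of a law. -/
def SymL (L : Lw) : Prop := ∀ (σ : Equiv.Perm (Fin 3)) (f : ℤ × ℤ → ℝ), Lsum L (fun g => f (act σ g)) = Lsum L f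

lemma SymL.prod {L L' : Lw} (h : SymL L) (h' : SymL L') : SymL (Lprod L L') := by
  intro σ f
  rw [Lsum_prod, Lsum_prod]
  have e1 : ∀ g, Lsum L' (fun y => f (act σ (g + y))) = Lsum L' (fun y => f (act σ g + act σ y)) := by
    intro g
    simp only [act_add]
  simp only [e1]
  have e2 : ∀ g, Lsum L' (fun y => f (act σ g + act σ y)) = Lsum L' (fun y => f (act σ g + y)) := by
    intro g
    exact h' σ (fun y => f (act σ g + y))
  simp only [e2]
  exact h σ (fun g => Lsum L' (fun y => f (g + y)))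

lemma SymL.pow {L : Lw} (h : SymL L) : ∀ k, SymL (Lpow L k)
  | 0 => h
  | k + 1 => (SymL.pow h k).prod h

lemma mrg_add_left (x x' y : W3) : mrg (x + x') y = mrg x y + mrg x' y := by
  funext i
  simp only [mrg, Pi.add_apply]
  ring

lemma mrg_add_right (x y y' : W3) : mrg x (y + y') = mrg x y + mrg x y' := by
  funext i
  simp only [mrg, Pi.add_apply]
  ring

lemma mrg_smul_left (t : ℝ) (x y : W3) : mrg (t • x) y = t • mrg x y := by
  funext i
  simp only [mrg, Pi.smul_apply, smul_eq_mul]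
  ring

lemma mrg_smul_right (t : ℝ) (x y : W3) : mrg x (t • y) = t • mrg x y := by
  funext i
  simp only [mrg, Pi.smul_apply, smul_eq_mul]
  ring

lemma mrg_comp_left (x y : W3) (σ : Equiv.Perm (Fin 3)) : mrg (x ∘ σ) y = mrg x (y ∘ (σ⁻¹ : Equiv.Perm (Fin 3))) ∘ σ := by
  funext i
  simp [mrg]

lemma mrg_comp_right (x y : W3) (σ : Equiv.Perm (Fin 3)) : mrg x (y ∘ σ) = mrg (x ∘ (σ⁻¹ : Equiv.Perm (Fin 3))) y ∘ σ := by
  funext i
  simp [mrg]

lemma mrg_del0 (x : W3) : mrg x del0 = (3 * x 0) • del0 := by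
  funext i
  simp only [mrg, del0, Pi.smul_apply, smul_eq_mul]
  split_ifs with h
  · subst h; ring
  · ring

lemma mrg_del0' (y : W3) : mrg del0 y = (3 * y 0) • del0 := by
  funext i
  simp only [mrg, del0, Pi.smul_apply, smul_eq_mul]
  split_ifs with h
  · subst h; ring
  · ring

/-- Merging with a symmetric family keeps the class of functionals. -/
lemma subC_merge_family {Ω : Type} [Fintype Ω] {y : Ω → W3} (hy : Fam y) {F : W3 → ℝ} (hF : SubC F) :
    SubC (fun x => ∑ ω, F (mrg x (y ω))) where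
  add := by
    intro x x' hx hx'
    rw [← Finset.sum_add_distrib]
    apply Finset.sum_le_sum
    intro ω _
    rw [mrg_add_left]
    exact hF.add _ _ (mrg_nn hx (hy.nn ω)) (mrg_nn hx' (hy.nn ω))
  smul := by
    intro t x ht hx
    rw [Finset.mul_sum]
    apply Finset.sum_congr rfl
    intro ω _
    rw [mrg_smul_left]
    exact hF.smul _ _ ht (mrg_nn hx (hy.nn ω))
  inv := by
    intro σ x
    simp only [mrg_comp_left, hF.inv]
    exact hy.sym σ⁻¹ (fun v => F (mrg x v))
  van := by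
    simp only [mrg_del0']
    apply Finset.sum_eq_zero
    intro ω _
    rw [hF.smul _ _ (by have := hy.nn ω 0; positivity) del0_nn, hF.van, mul_zero]

/-- Merging with a symmetric law keeps the class of functionals. -/
lemma subC_merge_law {ρ : ℝ} (hρ : 0 < ρ) {L : Lw} (hL : SymL L) {F : W3 → ℝ} (hF : SubC F) :
    SubC (fun y => Lsum L (fun g => F (mrg (lat ρ g) y))) where
  add := by
    intro y y' hy hy'
    rw [← Lsum_add]
    apply Lsum_le
    intro g
    rw [mrg_add_right]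
    exact hF.add _ _ (mrg_nn (lat_nn hρ g) hy) (mrg_nn (lat_nn hρ g) hy')
  smul := by
    intro t y ht hy
    rw [← Lsum_mul_left]
    apply Lsum_congr
    intro g
    rw [mrg_smul_right]
    exact hF.smul _ _ ht (mrg_nn (lat_nn hρ g) hy)
  inv := by
    intro σ y
    have e : ∀ g, F (mrg (lat ρ g) (y ∘ σ)) = F (mrg (lat ρ (act σ⁻¹ g)) y) := by
      intro g
      rw [mrg_comp_right, hF.inv, lat_act]
    simp only [e]
    exact hL σ⁻¹ (fun g => F (mrg (lat ρ g) y))
  van := by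
    have e : ∀ g, F (mrg (lat ρ g) del0) = 0 := by
      intro g
      rw [mrg_del0, hF.smul _ _ (by have := lat_nn hρ g 0; positivity) del0_nn, hF.van, mul_zero]
    simp only [e]
    simpa using Lsum_mul_left L 0 (fun _ => (0 : ℝ))

/-- The merge of two dominated families is dominated by the product law. -/
theorem Dom.merge {ρ : ℝ} (hρ : 0 < ρ) {A Ω : Type} [Fintype A] [Fintype Ω] {x : A → W3} {y : Ω → W3}
    {L L' : Lw} {s s' : ℝ} (hs : 0 < s) (hs' : 0 < s') (hy : Fam y) (hL : SymL L)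
    (hx : Dom ρ x L s) (hy' : Dom ρ y L' s') :
    ∀ F, SubC F → ∑ η, ∑ ω, F (mrg (x η) (y ω)) ≤
      Lsum (Lprod L L') (fun g => F (lat ρ g)) / (s * s') := by
  intro F hF
  have h1 := hx _ (subC_merge_family hy hF)
  have h2 := hy' _ (subC_merge_law hρ hL hF)
  have e1 : Lsum L (fun g => ∑ ω, F (mrg (lat ρ g) (y ω))) =
      ∑ ω, Lsum L (fun g => F (mrg (lat ρ g) (y ω))) := by
    exact Lsum_finset Finset.univ L (fun ω g => F (mrg (lat ρ g) (y ω)))
  have e2 : Lsum L' (fun h => Lsum L (fun g => F (mrg (lat ρ g) (lat ρ h)))) =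
      Lsum (Lprod L L') (fun g => F (lat ρ g)) := by
    rw [Lsum_prod, Lsum_swap]
    apply Lsum_congr
    intro h
    apply Lsum_congr
    intro g
    rw [mrg_lat hρ]
  rw [e1] at h1
  rw [e2] at h2
  calc ∑ η, ∑ ω, F (mrg (x η) (y ω)) ≤ (∑ ω, Lsum L (fun g => F (mrg (lat ρ g) (y ω)))) / s := h1
    _ ≤ (Lsum (Lprod L L') (fun g => F (lat ρ g)) / s') / s := by
        exact div_le_div_of_nonneg_right h2 hs.le
    _ = _ := by
        field_simp

/-- Domination of the merges of many children. -/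
theorem Dom.xk {ρ : ℝ} (hρ : 0 < ρ) {Ω : Type} [Fintype Ω] {y : Ω → W3} {L : Lw} {s : ℝ} (hs : 0 < s)
    (hy : Fam y) (hL : SymL L) (hD : Dom ρ y L s) :
    ∀ k, Dom ρ (xk y k) (Lpow L k) (s ^ (k + 1)) := by
  intro k
  induction k with
  | zero =>
    intro F hF
    rw [sum_fin_one]
    simp only [xk_zero, Lpow, zero_add, pow_one]
    exact hD F hF
  | succ k ih =>
    intro F hF
    rw [sum_cons]
    simp only [xk_succ]
    have := Dom.merge hρ (pow_pos hs (k + 1)) hs hy (SymL.pow hL k) ih hD F hF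
    have e : s ^ (k + 1 + 1) = s ^ (k + 1) * s := pow_succ s (k + 1)
    rw [e]
    exact this

/-! ### The channel -/

/-- The channel acting on a message. -/
noncomputable def pmap (lam : ℝ) (x : W3) : W3 := fun i => lam * x i + (1 - lam) / 3 * M3 x

lemma pmap_nn {lam : ℝ} (h0 : -1 / 2 ≤ lam) (h1 : lam ≤ 1) {x : W3} (hx : NN x) : NN (pmap lam x) := by
  intro i
  have a0 := hx 0
  have a1 := hx 1
  have a2 := hx 2
  have hi := hx i
  have hle : x i ≤ M3 x := by
    simp only [M3]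
    fin_cases i <;> simp <;> linarith
  simp only [pmap]
  rcases le_total 0 lam with h | h
  · have h2 : 0 ≤ M3 x := by simp only [M3]; linarith
    have : 0 ≤ (1 - lam) / 3 * M3 x := by
      apply mul_nonneg _ h2
      linarith
    have : 0 ≤ lam * x i := mul_nonneg h hi
    linarith
  · nlinarith [mul_nonneg (by linarith : 0 ≤ 1 + 2 * lam) hi, mul_nonneg (by linarith : 0 ≤ 1 - lam)
      (sub_nonneg.mpr hle)]

lemma M3_add (x y : W3) : M3 (x + y) = M3 x + M3 y := by
  simp only [M3, Pi.add_apply]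
  ring

lemma M3_smul (t : ℝ) (x : W3) : M3 (t • x) = t * M3 x := by
  simp only [M3, Pi.smul_apply, smul_eq_mul]
  ring

lemma M3_comp (x : W3) (σ : Equiv.Perm (Fin 3)) : M3 (x ∘ σ) = M3 x := by
  have := Equiv.sum_comp σ x
  simp only [Fin.sum_univ_three] at this
  simpa [M3] using this

lemma pmap_add (lam : ℝ) (x y : W3) : pmap lam (x + y) = pmap lam x + pmap lam y := by
  funext i
  simp only [pmap, Pi.add_apply, M3_add]
  ring

lemma pmap_smul (lam t : ℝ) (x : W3) : pmap lam (t • x) = t • pmap lam x := by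
  funext i
  simp only [pmap, Pi.smul_apply, smul_eq_mul, M3_smul]
  ring

lemma pmap_comp (lam : ℝ) (x : W3) (σ : Equiv.Perm (Fin 3)) : pmap lam (x ∘ σ) = pmap lam x ∘ σ := by
  funext i
  simp only [pmap, Function.comp_apply, M3_comp]

lemma M3_pmap (lam : ℝ) (x : W3) : M3 (pmap lam x) = M3 x := by
  simp only [M3, pmap]
  ring

/-- Subtracting the value at the extreme ray. -/
lemma subC_chan {F : W3 → ℝ} (hF : SubC F) {lam : ℝ} (h0 : -1 / 2 ≤ lam) (h1 : lam ≤ 1) :
    SubC (fun x => F (pmap lam x) - M3 x * F (pmap lam del0)) where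
  add := by
    intro x y hx hy
    rw [pmap_add, M3_add]
    have := hF.add _ _ (pmap_nn h0 h1 hx) (pmap_nn h0 h1 hy)
    linarith
  smul := by
    intro t x ht hx
    rw [pmap_smul, M3_smul, hF.smul _ _ ht (pmap_nn h0 h1 hx)]
    ring
  inv := by
    intro σ x
    rw [pmap_comp, hF.inv, M3_comp]
  van := by
    have : M3 del0 = 1 := by simp [M3, del0]
    rw [this]
    ring

/-- A sublinear functional of the channel output is monotone in the scale of the channel. -/
lemma chan_mono {Ω : Type} [Fintype Ω] {x : Ω → W3} (hx : ∀ ξ, NN (x ξ))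
    (hc : ∀ i, ∑ ξ, x ξ i = 1 / 3) {F : W3 → ℝ}
    (hadd : ∀ a b, NN a → NN b → F (a + b) ≤ F a + F b)
    (hsmul : ∀ (t : ℝ) (a : W3), 0 ≤ t → NN a → F (t • a) = t * F a)
    {lb mu : ℝ} (hlb0 : -1 / 2 ≤ lb) (hlb1 : lb ≤ 1) (hmu0 : 0 ≤ mu) (hmu1 : mu ≤ 1) :
    ∑ ξ, F (pmap (mu * lb) (x ξ)) ≤ ∑ ξ, F (pmap lb (x ξ)) := by
  -- the sum of a family of vectors
  classical
  have hsumadd : ∀ (s : Finset Ω), F (∑ ξ ∈ s, pmap lb (x ξ)) ≤ ∑ ξ ∈ s, F (pmap lb (x ξ)) := by
    intro s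
    induction s using Finset.induction_on with
    | empty =>
      simp only [Finset.sum_empty]
      have := hsmul 0 0 le_rfl (fun _ => le_rfl)
      simp at this
      exact le_of_eq this
    | insert a s ha ih =>
      rw [Finset.sum_insert ha, Finset.sum_insert ha]
      have hn : NN (∑ ξ ∈ s, pmap lb (x ξ)) := by
        intro i
        rw [Finset.sum_apply]
        exact Finset.sum_nonneg (fun ξ _ => pmap_nn hlb0 hlb1 (hx ξ) i)
      have := hadd _ _ (pmap_nn hlb0 hlb1 (hx a)) hn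
      linarith
  have hM : ∀ ξ, 0 ≤ M3 (x ξ) := fun ξ => M3_nonneg (hx ξ)
  have hmass : ∑ ξ, M3 (x ξ) = 1 := by
    simp only [M3]
    rw [Finset.sum_add_distrib, Finset.sum_add_distrib, hc, hc, hc]
    norm_num
  have hone : ∑ ξ, pmap lb (x ξ) = fun _ => 1 / 3 := by
    funext i
    rw [Finset.sum_apply]
    simp only [pmap]
    rw [Finset.sum_add_distrib, ← Finset.mul_sum, ← Finset.mul_sum, hc, hmass]
    ring
  have hn1 : NN (fun _ : Fin 3 => (1 / 3 : ℝ)) := fun _ => by norm_num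
  have key : ∀ ξ, F (pmap (mu * lb) (x ξ)) ≤
      mu * F (pmap lb (x ξ)) + (1 - mu) * (M3 (x ξ) * ∑ ξ', F (pmap lb (x ξ'))) := by
    intro ξ
    have e : pmap (mu * lb) (x ξ) = mu • pmap lb (x ξ) +
        ((1 - mu) * M3 (x ξ)) • (∑ ξ', pmap lb (x ξ')) := by
      rw [hone]
      funext i
      simp only [pmap, Pi.add_apply, Pi.smul_apply, smul_eq_mul]
      ring
    rw [e]
    have hnn := pmap_nn hlb0 hlb1 (hx ξ)
    have hc1 : 0 ≤ (1 - mu) * M3 (x ξ) := mul_nonneg (by linarith) (hM ξ)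
    have hnn2 : NN (∑ ξ', pmap lb (x ξ')) := by
      rw [hone]
      exact hn1
    have h1 := hadd _ _ (nn_smul hmu0 hnn) (nn_smul hc1 hnn2)
    rw [hsmul _ _ hmu0 hnn, hsmul _ _ hc1 hnn2] at h1
    have h2 := hsumadd Finset.univ
    have h3 := mul_le_mul_of_nonneg_left h2 hc1
    nlinarith [h1, h3]
  calc ∑ ξ, F (pmap (mu * lb) (x ξ))
      ≤ ∑ ξ, (mu * F (pmap lb (x ξ)) + (1 - mu) * (M3 (x ξ) * ∑ ξ', F (pmap lb (x ξ')))) :=
        Finset.sum_le_sum (fun ξ _ => key ξ)
    _ = ∑ ξ, F (pmap lb (x ξ)) := by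
        rw [Finset.sum_add_distrib, ← Finset.mul_sum, ← Finset.mul_sum, ← Finset.sum_mul, hmass]
        ring

end Vale.Agent.Lib.P154Anti
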