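import Vale.Agent.Lib.P154Anti.Dom

/-!
Domination of a family of messages by a finite law on the lattice with zero coordinates.
-/

namespace Vale.Agent.Lib.P154Anti

open Vale.Agent.Lib.P154

/-- Lattice points with a set of vanishing coordinates. -/
abbrev GE := (ℤ × ℤ) × Finset (Fin 3)

/-- The merge of two points. -/
def addE (g h : GE) : GE := (g.1 + h.1, g.2 ∪ h.2)

/-- The action on sets of coordinates. -/
def actM (σ : Equiv.Perm (Fin 3)) (s : Finset (Fin 3)) : Finset (Fin 3) :=
  Finset.univ.filter (fun i => σ i ∈ s)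

lemma mem_actM (σ : Equiv.Perm (Fin 3)) (s : Finset (Fin 3)) (i : Fin 3) : i ∈ actM σ s ↔ σ i ∈ s := by
  simp [actM]

/-- The action on points. -/
def actE (σ : Equiv.Perm (Fin 3)) (g : GE) : GE := (act σ g.1, actM σ g.2)

lemma actE_add (σ : Equiv.Perm (Fin 3)) (g h : GE) : actE σ (addE g h) = addE (actE σ g) (actE σ h) := by
  simp only [actE, addE, act_add]
  congr 1
  ext i
  simp [mem_actM]

lemma actE_act (σ τ : Equiv.Perm (Fin 3)) (g : GE) : actE σ (actE τ g) = actE (τ * σ) g := by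
  simp only [actE, act_act]
  congr 1
  ext i
  simp [mem_actM]

/-- The vector of a point. -/
noncomputable def vecE (ρ : ℝ) (g : GE) : W3 := fun i => if i ∈ g.2 then 0 else (1 / 3) * ρ ^ ee g.1 i

lemma vecE_nn {ρ : ℝ} (hρ : 0 < ρ) (g : GE) : NN (vecE ρ g) := fun i => by
  simp only [vecE]
  split_ifs
  · exact le_rfl
  · positivity

lemma vecE_act (ρ : ℝ) (σ : Equiv.Perm (Fin 3)) (g : GE) : vecE ρ (actE σ g) = vecE ρ g ∘ σ := by
  funext i
  simp only [vecE, actE, mem_actM, ee_act, Function.comp_apply]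

lemma mrg_vecE {ρ : ℝ} (hρ : 0 < ρ) (g h : GE) : mrg (vecE ρ g) (vecE ρ h) = vecE ρ (addE g h) := by
  funext i
  simp only [mrg, vecE, addE, ee_add, Finset.mem_union, zpow_add₀ hρ.ne']
  by_cases h1 : i ∈ g.2 <;> by_cases h2 : i ∈ h.2 <;> simp [h1, h2]
  ring

lemma vecE_empty (ρ : ℝ) (g : ℤ × ℤ) : vecE ρ (g, ∅) = lat ρ g := by
  funext i
  simp [vecE, lat]

/-- A finite law on points. -/
abbrev LwE := List (GE × ℕ)

/-- The integral of a function against a finite law. -/
noncomputable def LsumE (L : LwE) (f : GE → ℝ) : ℝ := (L.map (fun p => (p.2 : ℝ) * f p.1)).sum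

@[simp] lemma LsumE_nil (f : GE → ℝ) : LsumE [] f = 0 := rfl

@[simp] lemma LsumE_cons (p : GE × ℕ) (L : LwE) (f : GE → ℝ) :
    LsumE (p :: L) f = (p.2 : ℝ) * f p.1 + LsumE L f := by
  simp [LsumE]

lemma LsumE_append (L L' : LwE) (f : GE → ℝ) : LsumE (L ++ L') f = LsumE L f + LsumE L' f := by
  simp [LsumE]

lemma LsumE_congr (L : LwE) {f g : GE → ℝ} (h : ∀ x, f x = g x) : LsumE L f = LsumE L g := by
  have : f = g := funext h
  rw [this]

lemma LsumE_add (L : LwE) (f g : GE → ℝ) :
    LsumE L (fun x => f x + g x) = LsumE L f + LsumE L g := by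
  induction L with
  | nil => simp
  | cons p L ih =>
    simp only [LsumE_cons, ih]
    ring

lemma LsumE_mul_left (L : LwE) (c : ℝ) (f : GE → ℝ) :
    LsumE L (fun x => c * f x) = c * LsumE L f := by
  induction L with
  | nil => simp
  | cons p L ih =>
    simp only [LsumE_cons, ih]
    ring

lemma LsumE_le (L : LwE) {f g : GE → ℝ} (h : ∀ x, f x ≤ g x) : LsumE L f ≤ LsumE L g := by
  induction L with
  | nil => simp
  | cons p L ih =>
    simp only [LsumE_cons]
    have := mul_le_mul_of_nonneg_left (h p.1) (Nat.cast_nonneg p.2)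
    linarith

lemma LsumE_finset {Ω : Type} (s : Finset Ω) (L : LwE) (f : Ω → GE → ℝ) :
    LsumE L (fun x => ∑ ω ∈ s, f ω x) = ∑ ω ∈ s, LsumE L (f ω) := by
  induction L with
  | nil => simp
  | cons p L ih =>
    simp only [LsumE_cons, ih, Finset.sum_add_distrib, Finset.mul_sum]

lemma LsumE_swap (L L' : LwE) (f : GE → GE → ℝ) :
    LsumE L (fun x => LsumE L' (fun y => f x y)) = LsumE L' (fun y => LsumE L (fun x => f x y)) := by
  induction L with
  | nil =>
    simp only [LsumE_nil]
    have := LsumE_mul_left L' 0 (fun _ => (0 : ℝ))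
    simpa using this.symm
  | cons p L ih =>
    simp only [LsumE_cons, ih, LsumE_add, LsumE_mul_left]

/-- Product of two laws. -/
def LprodE (L L' : LwE) : LwE := L.flatMap (fun p => L'.map (fun q => (addE p.1 q.1, p.2 * q.2)))

lemma LsumE_map_prod (g : GE) (c : ℕ) (L' : LwE) (f : GE → ℝ) :
    LsumE (L'.map (fun q => (addE g q.1, c * q.2))) f = (c : ℝ) * LsumE L' (fun h => f (addE g h)) := by
  induction L' with
  | nil => simp
  | cons q L' ih =>
    simp only [List.map_cons, LsumE_cons, mul_add, ih]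
    push_cast
    ring

lemma LsumE_prod (L L' : LwE) (f : GE → ℝ) :
    LsumE (LprodE L L') f = LsumE L (fun g => LsumE L' (fun h => f (addE g h))) := by
  induction L with
  | nil => simp [LprodE]
  | cons p L ih =>
    have e : LprodE (p :: L) L' = L'.map (fun q => (addE p.1 q.1, p.2 * q.2)) ++ LprodE L L' := by
      simp [LprodE]
    rw [e, LsumE_append, ih, LsumE_cons, LsumE_map_prod]

/-- The powers of a law: `LpowE L k` has `k + 1` factors. -/
def LpowE (L : LwE) : ℕ → LwE
  | 0 => L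
  | k + 1 => LprodE (LpowE L k) L

/-- The family `y` is dominated by the law `L` with denominators `s`. -/
def DomE (ρ : ℝ) {Ω : Type} [Fintype Ω] (y : Ω → W3) (L : LwE) (s : ℝ) : Prop :=
  ∀ F, SubC F → ∑ ω, F (y ω) ≤ LsumE L (fun g => F (vecE ρ g)) / s

/-- Invariance of a law. -/
def SymE (L : LwE) : Prop := ∀ (σ : Equiv.Perm (Fin 3)) (f : GE → ℝ), LsumE L (fun g => f (actE σ g)) = LsumE L f

lemma SymE.prod {L L' : LwE} (h : SymE L) (h' : SymE L') : SymE (LprodE L L') := by
  intro σ f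
  rw [LsumE_prod, LsumE_prod]
  have e1 : ∀ g, LsumE L' (fun y => f (actE σ (addE g y))) = LsumE L' (fun y => f (addE (actE σ g) (actE σ y))) := by
    intro g
    simp only [actE_add]
  simp only [e1]
  have e2 : ∀ g, LsumE L' (fun y => f (addE (actE σ g) (actE σ y))) = LsumE L' (fun y => f (addE (actE σ g) y)) := by
    intro g
    exact h' σ (fun y => f (addE (actE σ g) y))
  simp only [e2]
  exact h σ (fun g => LsumE L' (fun y => f (addE g y)))

lemma SymE.pow {L : LwE} (h : SymE L) : ∀ k, SymE (LpowE L k)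
  | 0 => h
  | k + 1 => (SymE.pow h k).prod h

/-- Merging with a symmetric law keeps the class of functionals. -/
lemma subC_merge_lawE {ρ : ℝ} (hρ : 0 < ρ) {L : LwE} (hL : SymE L) {F : W3 → ℝ} (hF : SubC F) :
    SubC (fun y => LsumE L (fun g => F (mrg (vecE ρ g) y))) where
  add := by
    intro y y' hy hy'
    rw [← LsumE_add]
    apply LsumE_le
    intro g
    rw [mrg_add_right]
    exact hF.add _ _ (mrg_nn (vecE_nn hρ g) hy) (mrg_nn (vecE_nn hρ g) hy')
  smul := by
    intro t y ht hy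
    rw [← LsumE_mul_left]
    apply LsumE_congr
    intro g
    rw [mrg_smul_right]
    exact hF.smul _ _ ht (mrg_nn (vecE_nn hρ g) hy)
  inv := by
    intro σ y
    have e : ∀ g, F (mrg (vecE ρ g) (y ∘ σ)) = F (mrg (vecE ρ (actE σ⁻¹ g)) y) := by
      intro g
      rw [mrg_comp_right, hF.inv, vecE_act]
    simp only [e]
    exact hL σ⁻¹ (fun g => F (mrg (vecE ρ g) y))
  van := by
    have e : ∀ g, F (mrg (vecE ρ g) del0) = 0 := by
      intro g
      rw [mrg_del0, hF.smul _ _ (by have := vecE_nn hρ g 0; positivity) del0_nn, hF.van, mul_zero]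
    simp only [e]
    simpa using LsumE_mul_left L 0 (fun _ => (0 : ℝ))

/-- The merge of two dominated families is dominated by the product law. -/
theorem DomE.merge {ρ : ℝ} (hρ : 0 < ρ) {A Ω : Type} [Fintype A] [Fintype Ω] {x : A → W3} {y : Ω → W3}
    {L L' : LwE} {s s' : ℝ} (hs : 0 < s) (hs' : 0 < s') (hy : Fam y) (hL : SymE L)
    (hx : DomE ρ x L s) (hy' : DomE ρ y L' s') :
    ∀ F, SubC F → ∑ η, ∑ ω, F (mrg (x η) (y ω)) ≤
      LsumE (LprodE L L') (fun g => F (vecE ρ g)) / (s * s') := by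
  intro F hF
  have h1 := hx _ (subC_merge_family hy hF)
  have h2 := hy' _ (subC_merge_lawE hρ hL hF)
  have e1 : LsumE L (fun g => ∑ ω, F (mrg (vecE ρ g) (y ω))) =
      ∑ ω, LsumE L (fun g => F (mrg (vecE ρ g) (y ω))) := by
    exact LsumE_finset Finset.univ L (fun ω g => F (mrg (vecE ρ g) (y ω)))
  have e2 : LsumE L' (fun h => LsumE L (fun g => F (mrg (vecE ρ g) (vecE ρ h)))) =
      LsumE (LprodE L L') (fun g => F (vecE ρ g)) := by
    rw [LsumE_prod, LsumE_swap]
    apply LsumE_congr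
    intro h
    apply LsumE_congr
    intro g
    rw [mrg_vecE hρ]
  rw [e1] at h1
  rw [e2] at h2
  calc ∑ η, ∑ ω, F (mrg (x η) (y ω)) ≤ (∑ ω, LsumE L (fun g => F (mrg (vecE ρ g) (y ω)))) / s := h1
    _ ≤ (LsumE (LprodE L L') (fun g => F (vecE ρ g)) / s') / s := by
        exact div_le_div_of_nonneg_right h2 hs.le
    _ = _ := by
        field_simp

/-- Domination of the merges of many children. -/
theorem DomE.xk {ρ : ℝ} (hρ : 0 < ρ) {Ω : Type} [Fintype Ω] {y : Ω → W3} {L : LwE} {s : ℝ} (hs : 0 < s)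
    (hy : Fam y) (hL : SymE L) (hD : DomE ρ y L s) :
    ∀ k, DomE ρ (Vale.Agent.Lib.P154.xk y k) (LpowE L k) (s ^ (k + 1)) := by
  intro k
  induction k with
  | zero =>
    intro F hF
    rw [sum_fin_one]
    simp only [xk_zero, LpowE, zero_add, pow_one]
    exact hD F hF
  | succ k ih =>
    intro F hF
    rw [sum_cons]
    simp only [xk_succ]
    have := DomE.merge hρ (pow_pos hs (k + 1)) hs hy (SymE.pow hL k) ih hD F hF
    have e : s ^ (k + 1 + 1) = s ^ (k + 1) * s := pow_succ s (k + 1)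
    rw [e]
    exact this

end Vale.Agent.Lib.P154Anti
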