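import Vale.Agent.Lib.P154Anti.Dom

/-!
Digit extraction and the link between finite laws and big naturals.
-/

namespace Vale.Agent.Lib.P154Anti

open Vale.Agent.Lib.P154

/-- Encoding of a list of (position, value) pairs in base `2 ^ W`. -/
def encP (W : ℕ) (l : List (ℕ × ℕ)) : ℕ := (l.map (fun p => p.2 * 2 ^ (W * p.1))).sum

/-- The total coefficient at a position. -/
def coefP (l : List (ℕ × ℕ)) (q : ℕ) : ℕ := (l.map (fun p => if p.1 = q then p.2 else 0)).sum

lemma sum_digit {X : ℕ} (hX : 0 < X) : ∀ (k : ℕ) (C : ℕ → ℕ) (N : ℕ), (∀ i, C i < X) → k < N →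
    (∑ i ∈ Finset.range N, C i * X ^ i) / X ^ k % X = C k := by
  intro k
  induction k with
  | zero =>
    intro C N hC hk
    obtain ⟨n, rfl⟩ : ∃ n, N = n + 1 := ⟨N - 1, by omega⟩
    rw [Finset.sum_range_succ']
    have e : ∑ i ∈ Finset.range n, C (i + 1) * X ^ (i + 1) =
        X * ∑ i ∈ Finset.range n, C (i + 1) * X ^ i := by
      rw [Finset.mul_sum]
      apply Finset.sum_congr rfl
      intro i _
      rw [pow_succ]
      ring
    rw [e]
    simp only [pow_zero, Nat.div_one, mul_one]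
    rw [add_comm, Nat.add_mul_mod_self_left, Nat.mod_eq_of_lt (hC 0)]
  | succ k ih =>
    intro C N hC hk
    obtain ⟨n, rfl⟩ : ∃ n, N = n + 1 := ⟨N - 1, by omega⟩
    rw [Finset.sum_range_succ']
    have e : ∑ i ∈ Finset.range n, C (i + 1) * X ^ (i + 1) =
        X * ∑ i ∈ Finset.range n, C (i + 1) * X ^ i := by
      rw [Finset.mul_sum]
      apply Finset.sum_congr rfl
      intro i _
      rw [pow_succ]
      ring
    rw [e, pow_succ', ← Nat.div_div_eq_div_mul]
    have e2 : (X * ∑ i ∈ Finset.range n, C (i + 1) * X ^ i + C 0 * X ^ 0) / X =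
        ∑ i ∈ Finset.range n, C (i + 1) * X ^ i := by
      simp only [pow_zero, mul_one]
      rw [add_comm, Nat.add_mul_div_left _ _ hX, Nat.div_eq_of_lt (hC 0), zero_add]
    rw [e2]
    exact ih (fun i => C (i + 1)) n (fun i => hC (i + 1)) (by omega)

lemma encP_eq_sum (W : ℕ) (l : List (ℕ × ℕ)) (N : ℕ) (hN : ∀ p ∈ l, p.1 < N) :
    encP W l = ∑ i ∈ Finset.range N, coefP l i * (2 ^ W) ^ i := by
  induction l with
  | nil => simp [encP, coefP]
  | cons a l ih =>
    have h1 := ih (fun p hp => hN p (by simp [hp]))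
    have ha : a.1 < N := hN a (by simp)
    have e1 : encP W (a :: l) = a.2 * 2 ^ (W * a.1) + encP W l := by simp [encP]
    have e2 : ∀ i, coefP (a :: l) i = (if a.1 = i then a.2 else 0) + coefP l i := by
      intro i
      simp [coefP]
    rw [e1, h1]
    simp only [e2, add_mul]
    rw [Finset.sum_add_distrib]
    congr 1
    rw [Finset.sum_eq_single a.1]
    · simp [pow_mul]
    · intro b _ hb
      simp [Ne.symm hb]
    · intro h
      exact absurd (Finset.mem_range.mpr ha) h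

/-- Reading a digit of an encoded list. -/
lemma digit_encP (W : ℕ) (l : List (ℕ × ℕ)) (hc : ∀ q, coefP l q < 2 ^ W) (q : ℕ) :
    encP W l / 2 ^ (W * q) % 2 ^ W = coefP l q := by
  have hbd : ∃ N, q < N ∧ ∀ p ∈ l, p.1 < N := by
    refine ⟨q + 1 + (l.map Prod.fst).sum, by omega, ?_⟩
    intro p hp
    have : p.1 ≤ (l.map Prod.fst).sum := List.single_le_sum (by simp) _ (List.mem_map_of_mem hp)
    omega
  obtain ⟨N, hq, hN⟩ := hbd
  rw [encP_eq_sum W l N hN, pow_mul]
  exact sum_digit (by positivity) q _ N hc hq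

/-- The total of a list of pairs. -/
def totP (l : List (ℕ × ℕ)) : ℕ := (l.map (fun p => p.2)).sum

lemma coefP_le_tot (l : List (ℕ × ℕ)) (q : ℕ) : coefP l q ≤ totP l := by
  induction l with
  | nil => simp [coefP, totP]
  | cons a l ih =>
    have e1 : coefP (a :: l) q = (if a.1 = q then a.2 else 0) + coefP l q := by simp [coefP]
    have e2 : totP (a :: l) = a.2 + totP l := by simp [totP]
    rw [e1, e2]
    split_ifs <;> omega

/-! ### Digits and pieces -/

/-- The digit of `Z` at position `p`. -/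
def digAt (W Z p : ℕ) : ℕ := Z / 2 ^ (W * p) % 2 ^ W

lemma piece_digit (W Z st n k : ℕ) (hk : k < n) :
    (Z >>> (W * st) &&& ((1 <<< (W * n)) - 1)) / 2 ^ (W * k) % 2 ^ W = digAt W Z (st + k) := by
  have e0 : (1 <<< (W * n)) - 1 = 2 ^ (W * n) - 1 := by
    rw [Nat.shiftLeft_eq, one_mul]
  rw [e0, Nat.and_two_pow_sub_one_eq_mod, Nat.shiftRight_eq_div_pow]
  have hn : W * n = W * k + W * (n - k) := by
    rw [← mul_add]
    congr 1
    omega
  rw [hn, pow_add, Nat.mod_mul_right_div_self]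
  have hd : 2 ^ W ∣ 2 ^ (W * (n - k)) := pow_dvd_pow 2 (by
    have : 1 ≤ n - k := by omega
    nlinarith)
  rw [Nat.mod_mod_of_dvd _ hd, Nat.div_div_eq_div_mul, ← pow_add, ← mul_add]
  rfl

lemma rdDig_le (W sh R k : ℕ) (hsh : sh ≤ W) :
    ((R >>> (W * k + sh)) &&& ((1 <<< (W - sh)) - 1)) * 2 ^ sh ≤ R / 2 ^ (W * k) % 2 ^ W := by
  have e0 : (1 <<< (W - sh)) - 1 = 2 ^ (W - sh) - 1 := by
    rw [Nat.shiftLeft_eq, one_mul]
  rw [e0, Nat.and_two_pow_sub_one_eq_mod, Nat.shiftRight_eq_div_pow, pow_add,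
    ← Nat.div_div_eq_div_mul]
  set r := R / 2 ^ (W * k) with hr
  have hW : 2 ^ W = 2 ^ sh * 2 ^ (W - sh) := by
    rw [← pow_add]
    congr 1
    omega
  have e1 : r % 2 ^ W / 2 ^ sh = r / 2 ^ sh % 2 ^ (W - sh) := by
    rw [hW, Nat.mod_mul_right_div_self]
  rw [← e1]
  exact Nat.div_mul_le_self _ _

end Vale.Agent.Lib.P154Anti
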