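/-!
Kernel computations for the lattice majorant of the broadcast process on three colours.
Nothing here imports Mathlib, so that certificate files stay light.
-/

namespace Vale.Agent.Lib.P154Anti

/-- Parameters of a lattice computation. -/
structure LatCfg where
  /-- number of children -/
  d : Nat
  /-- the lattice ratio is `rn / rd` -/
  rn : Nat
  rd : Nat
  /-- the channel eigenvalue is `- ln / ld` -/
  ln : Nat
  ld : Nat
  /-- offset of the coordinates of a child law -/
  o : Nat
  /-- bound of the offset coordinates of a child law -/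
  R : Nat
  /-- row length of the tensor of the merged law -/
  Wd : Nat
  /-- bits of the masses of a child law -/
  f : Nat
  /-- digit width of the merged law -/
  W : Nat
  /-- bits of the coefficients of the channel table -/
  fS : Nat
  /-- width of the slots of the accumulator -/
  wa : Nat
  /-- bits of the power tables -/
  fp : Nat
  /-- width of the entries of the power tables -/
  wp : Nat
  /-- exponent offset of the power tables -/
  E0 : Nat
  /-- upper power table -/
  PU : Nat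
  /-- lower power table -/
  PL : Nat
  /-- width of the packed masses of a level -/
  fq : Nat
  /-- number of classes of the child lattice -/
  J : Nat
  /-- width of the packed coordinates of the child lattice -/
  wc : Nat
  /-- packed first coordinates of the representatives of the child lattice -/
  DA : Nat
  /-- packed second coordinates of the representatives of the child lattice -/
  DB : Nat

/-- One row of the channel table: a representative of the merged lattice at position `p`, its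
multiplicity `m`, the sum `mu` of the upper powers of its coordinates and three targets:
class `j`, rearrangement `s`, coefficient `c`. -/
structure Ent where
  p : Nat
  m : Nat
  mu : Nat
  j1 : Nat
  s1 : Nat
  c1 : Nat
  j2 : Nat
  s2 : Nat
  c2 : Nat
  j3 : Nat
  s3 : Nat
  c3 : Nat

/-- Entries of one segment of the tensor: start position, length, entries. -/
structure Seg where
  st : Nat
  ln : Nat
  es : List Ent

/-- A block of segments. -/
structure Blk where
  st : Nat
  ln : Nat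
  ss : List Seg

/-- The digit number `j` of width `w` of `Q`. -/
def dig (w Q j : Nat) : Nat :=
  Nat.land (Nat.shiftRight Q (Nat.mul w j)) (Nat.sub (Nat.shiftLeft 1 w) 1)

/-- The piece of `n` digits of `Z` from position `st`. -/
def piece (W Z st n : Nat) : Nat :=
  Nat.land (Nat.shiftRight Z (Nat.mul W st)) (Nat.sub (Nat.shiftLeft 1 (Nat.mul W n)) 1)

/-- The contribution of a value `v` to the slots of the accumulator. -/
def slotAdd (wa J v : Nat) (e : Ent) : Nat :=
  let x := Nat.mul v e.m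
  Nat.add (Nat.shiftLeft (Nat.mul x e.c1) (Nat.mul wa e.j1))
    (Nat.add (Nat.shiftLeft (Nat.mul x e.c2) (Nat.mul wa e.j2))
      (Nat.add (Nat.shiftLeft (Nat.mul x e.c3) (Nat.mul wa e.j3))
        (Nat.add (Nat.shiftLeft (Nat.mul x e.mu) (Nat.mul wa J))
          (Nat.shiftLeft (Nat.mul x (Nat.add e.c1 (Nat.add e.c2 (Nat.add e.c3 e.mu))))
            (Nat.mul wa (Nat.succ J))))))

/-- Sum over the entries of a segment. -/
def sumEnts (W M wa J R st : Nat) : List Ent → Nat
  | [] => 0
  | e :: es =>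
    Nat.add (slotAdd wa J (Nat.land (Nat.shiftRight R (Nat.mul W (Nat.sub e.p st))) M) e)
      (sumEnts W M wa J R st es)

/-- Sum over the segments of a block. -/
def sumSegs (W M wa J B st : Nat) : List Seg → Nat
  | [] => 0
  | s :: ss =>
    Nat.add (sumEnts W M wa J (piece W B (Nat.sub s.st st) s.ln) s.st s.es)
      (sumSegs W M wa J B st ss)

/-- Sum over the blocks. -/
def sumBlks (W M wa J Z : Nat) : List Blk → Nat
  | [] => 0
  | b :: bs =>
    Nat.add (sumSegs W M wa J (piece W Z b.st b.ln) b.st b.ss) (sumBlks W M wa J Z bs)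

/-- Position of a point in the tensor. -/
def ps (Wd a b : Nat) : Nat := Nat.add a (Nat.mul Wd b)

/-- The orbit polynomial of a child lattice point. -/
def orbP (W Wd a b c : Nat) : Nat :=
  Nat.add (Nat.shiftLeft 1 (Nat.mul W (ps Wd a b)))
    (Nat.add (Nat.shiftLeft 1 (Nat.mul W (ps Wd b c)))
      (Nat.add (Nat.shiftLeft 1 (Nat.mul W (ps Wd c a)))
        (Nat.add (Nat.shiftLeft 1 (Nat.mul W (ps Wd a c)))
          (Nat.add (Nat.shiftLeft 1 (Nat.mul W (ps Wd b a)))
            (Nat.shiftLeft 1 (Nat.mul W (ps Wd c b)))))))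

/-- First coordinate of a class. -/
def dA (C : LatCfg) (j : Nat) : Nat := dig C.wc C.DA j
/-- Second coordinate of a class. -/
def dB (C : LatCfg) (j : Nat) : Nat := dig C.wc C.DB j
/-- Third coordinate of a class. -/
def dC (C : LatCfg) (j : Nat) : Nat := Nat.sub (Nat.mul 3 C.o) (Nat.add (dA C j) (dB C j))

/-- The tensor of a child law. -/
def encB (C : LatCfg) (Q : Nat) : Nat → Nat
  | 0 => 0
  | j + 1 =>
    Nat.add (Nat.mul (dig C.fq Q j) (orbP C.W C.Wd (dA C j) (dB C j) (dC C j))) (encB C Q j)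

/-- The total of the packed masses. -/
def totQ (C : LatCfg) (Q : Nat) : Nat → Nat
  | 0 => 0
  | j + 1 => Nat.add (dig C.fq Q j) (totQ C Q j)

/-- The contribution of the missing mass. -/
def vtxAdd (wa J dv : Nat) (v : Ent) : Nat :=
  Nat.add (Nat.shiftLeft (Nat.mul dv v.c1) (Nat.mul wa v.j1))
    (Nat.add (Nat.shiftLeft (Nat.mul dv v.c2) (Nat.mul wa v.j2))
      (Nat.add (Nat.shiftLeft (Nat.mul dv v.c3) (Nat.mul wa v.j3))
        (Nat.shiftLeft (Nat.mul dv (Nat.add v.c1 (Nat.add v.c2 v.c3)))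
          (Nat.mul wa (Nat.succ J)))))

/-- Comparison of the new masses with the slots of the accumulator. -/
def chkQ (C : LatCfg) (S0 Acc Q' : Nat) : Nat → Bool
  | 0 => true
  | j + 1 =>
    Nat.ble (Nat.mul (dig C.fq Q' j) S0) (dig C.wa Acc j) && chkQ C S0 Acc Q' j

/-- One level of the computation: from the masses `Q` of the children to the masses `Q'` of their
parents seen from above; `U` is an upper bound of the mass of the product law. -/
def lvlOK (C : LatCfg) (T : List Blk) (v : Ent) (Q U Q' : Nat) : Bool :=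
  let fd := Nat.mul C.f C.d
  let one := Nat.shiftLeft 1 fd
  let Z := Nat.pow (encB C Q C.J) C.d
  let M := Nat.sub (Nat.shiftLeft 1 C.W) 1
  let Acc := Nat.add (vtxAdd C.wa C.J (Nat.sub one U) v) (sumBlks C.W M C.wa C.J Z T)
  Nat.ble (Nat.mul 6 (totQ C Q C.J)) (Nat.shiftLeft 1 C.f) &&
    (Nat.ble U one &&
      (Nat.blt (Nat.shiftRight Acc (Nat.mul C.wa (Nat.succ C.J))) (Nat.shiftLeft 1 C.wa) &&
        (Nat.ble (dig C.wa Acc C.J) (Nat.mul (Nat.mul U 3) (Nat.shiftLeft 1 C.fp)) &&
          chkQ C (Nat.mul 6 (Nat.shiftLeft 1 (Nat.sub (Nat.add fd C.fS) C.f))) Acc Q' C.J)))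

/-! ### Checks of the table -/

/-- Entry of a power table. -/
def pw (wp T i : Nat) : Nat := dig wp T i

/-- The tables of powers are valid upwards from index `i`, for `n` steps. -/
def pwUp (C : LatCfg) : Nat → Nat → Bool
  | 0, _ => true
  | n + 1, i =>
    Nat.ble (Nat.mul C.rn (pw C.wp C.PU i)) (Nat.mul C.rd (pw C.wp C.PU (Nat.succ i))) &&
      (Nat.ble (Nat.mul C.rd (pw C.wp C.PL (Nat.succ i))) (Nat.mul C.rn (pw C.wp C.PL i)) &&
        pwUp C n (Nat.succ i))

/-- The tables of powers are valid downwards to index `0`, from index `i + 1`. -/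
def pwDn (C : LatCfg) : Nat → Bool
  | 0 => true
  | i + 1 =>
    Nat.ble (Nat.mul C.rd (pw C.wp C.PU (Nat.succ i))) (Nat.mul C.rn (pw C.wp C.PU i)) &&
      (Nat.ble (Nat.mul C.rn (pw C.wp C.PL i)) (Nat.mul C.rd (pw C.wp C.PL (Nat.succ i))) &&
        pwDn C i)

/-- The rearrangements of three coordinates. -/
def pick (s a b c : Nat) : Nat × Nat × Nat :=
  match s with
  | 0 => (a, b, c)
  | 1 => (b, c, a)
  | 2 => (c, a, b)
  | 3 => (a, c, b)
  | 4 => (b, a, c)
  | _ => (c, b, a)

/-- Upper power of a target coordinate. -/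
def upT (C : LatCfg) (x : Nat) : Nat := pw C.wp C.PU (Nat.add x (Nat.sub C.E0 C.o))

/-- The three upper powers of a target. -/
def upTg (C : LatCfg) (j s : Nat) : Nat × Nat × Nat :=
  let t := pick s (dA C j) (dB C j) (dC C j)
  (upT C t.1, upT C t.2.1, upT C t.2.2)

/-- The values at the three coordinates of the sum of the targets of an entry. -/
def tgSum (C : LatCfg) (e : Ent) : Nat × Nat × Nat :=
  let t1 := upTg C e.j1 e.s1
  let t2 := upTg C e.j2 e.s2
  let t3 := upTg C e.j3 e.s3
  (Nat.add (Nat.mul e.c1 t1.1) (Nat.add (Nat.mul e.c2 t2.1) (Nat.mul e.c3 t3.1)),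
   Nat.add (Nat.mul e.c1 t1.2.1) (Nat.add (Nat.mul e.c2 t2.2.1) (Nat.mul e.c3 t3.2.1)),
   Nat.add (Nat.mul e.c1 t1.2.2) (Nat.add (Nat.mul e.c2 t2.2.2) (Nat.mul e.c3 t3.2.2)))

/-- The multiplicity of a sorted triple. -/
def mulOf (a b c : Nat) : Nat :=
  if Nat.blt b a then (if Nat.blt c b then 6 else 3) else (if Nat.blt c b then 3 else 1)

/-- Validity of one entry of the table. -/
def entOK (C : LatCfg) (e : Ent) : Bool :=
  let a := Nat.mod e.p C.Wd
  let b := Nat.div e.p C.Wd
  let s3 := Nat.mul (Nat.mul 3 C.d) C.o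
  let c := Nat.sub s3 (Nat.add a b)
  let sh := Nat.sub C.E0 (Nat.mul C.d C.o)
  let la := pw C.wp C.PL (Nat.add a sh)
  let lb := pw C.wp C.PL (Nat.add b sh)
  let lc := pw C.wp C.PL (Nat.add c sh)
  let t := tgSum C e
  let K := Nat.shiftLeft 1 C.fS
  let p1 := Nat.add C.ld C.ln
  let p2 := Nat.sub C.ld (Nat.mul 2 C.ln)
  let u := Nat.mul 3 C.ld
  Nat.ble (Nat.add a b) s3 && (Nat.ble b a && (Nat.ble c b &&
  (Nat.beq e.m (mulOf a b c) &&
  (Nat.ble (Nat.add (pw C.wp C.PU (Nat.add a sh)) (Nat.add (pw C.wp C.PU (Nat.add b sh))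
      (pw C.wp C.PU (Nat.add c sh)))) e.mu &&
  (Nat.blt e.j1 C.J && (Nat.blt e.j2 C.J && (Nat.blt e.j3 C.J &&
  (Nat.ble (Nat.mul u t.1) (Nat.mul K (Nat.add (Nat.mul p1 (Nat.add lb lc)) (Nat.mul p2 la))) &&
  (Nat.ble (Nat.mul u t.2.1) (Nat.mul K (Nat.add (Nat.mul p1 (Nat.add la lc)) (Nat.mul p2 lb))) &&
  (Nat.ble (Nat.mul u t.2.2) (Nat.mul K (Nat.add (Nat.mul p1 (Nat.add la lb)) (Nat.mul p2 lc)))))))))))))

/-- Validity of the entry for the extreme ray. -/
def vtxOK (C : LatCfg) (v : Ent) : Bool :=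
  let t := tgSum C v
  let K := Nat.shiftLeft 1 (Nat.add C.fS C.fp)
  let p1 := Nat.add C.ld C.ln
  let p2 := Nat.sub C.ld (Nat.mul 2 C.ln)
  Nat.blt v.j1 C.J && (Nat.blt v.j2 C.J && (Nat.blt v.j3 C.J &&
  (Nat.ble (Nat.mul C.ld t.1) (Nat.mul K p2) &&
  (Nat.ble (Nat.mul C.ld t.2.1) (Nat.mul K p1) &&
  (Nat.ble (Nat.mul C.ld t.2.2) (Nat.mul K p1))))))

/-- All the entries of a table. -/
def flatT (T : List Blk) : List Ent := T.flatMap (fun b => b.ss.flatMap (fun s => s.es))

/-- The entries are valid and strictly increasing, from position `lo`. -/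
def incrOK (C : LatCfg) : Nat → List Ent → Bool
  | _, [] => true
  | lo, e :: es => Nat.ble lo e.p && (entOK C e && incrOK C (Nat.succ e.p) es)

/-- The positions of the entries lie in their segments and the segments in their blocks. -/
def rangeOK (T : List Blk) : Bool :=
  T.all (fun b => b.ss.all (fun s =>
    Nat.ble b.st s.st && (Nat.ble (Nat.add s.st s.ln) (Nat.add b.st b.ln) &&
      s.es.all (fun e => Nat.ble s.st e.p && Nat.blt e.p (Nat.add s.st s.ln)))))

/-- The coordinates of the classes of the child lattice are in range. -/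
def dstOK (C : LatCfg) : Nat → Bool
  | 0 => true
  | j + 1 =>
    Nat.ble (dA C j) C.R && (Nat.ble (dB C j) C.R && (Nat.ble (Nat.add (dA C j) (dB C j)) (Nat.mul 3 C.o) &&
      (Nat.ble (dC C j) C.R && dstOK C j)))

/-- The parameters are consistent. -/
def cfgOK (C : LatCfg) : Bool :=
  Nat.blt 0 C.rd && (Nat.blt 0 C.rn && (Nat.blt 0 C.ln && (Nat.blt 0 C.wc && (Nat.blt 0 C.wp &&
  (Nat.ble (Nat.mul 2 C.ln) C.ld && (Nat.ble 2 C.d &&
  (Nat.blt (Nat.mul C.d C.R) C.Wd &&
  (Nat.blt (Nat.mul C.f C.d) C.W &&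
  (Nat.ble C.f (Nat.add (Nat.mul C.f C.d) C.fS) &&
  (Nat.ble (Nat.mul C.d C.o) C.E0 &&
  (Nat.ble C.Wd (Nat.succ (Nat.add C.E0 (Nat.mul C.d C.o))) &&
  (Nat.ble C.R (Nat.add C.E0 C.o) &&
  (Nat.ble (pw C.wp C.PL C.E0) (Nat.shiftLeft 1 C.fp) &&
  (Nat.ble (Nat.shiftLeft 1 C.fp) (pw C.wp C.PU C.E0) &&
  (pwUp C C.E0 C.E0 && (pwDn C C.E0 && dstOK C C.J))))))))))))))))

/-- Validity of a whole table. -/
def tableOK (C : LatCfg) (T : List Blk) (v : Ent) : Bool :=
  cfgOK C && (vtxOK C v && (rangeOK T && incrOK C 0 (flatT T)))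

/-! ### Final bounds -/

/-- Sum over the entries of a segment of digits times weights. -/
def gEnts (W M R st : Nat) (g : Ent → Nat) : List Ent → Nat
  | [] => 0
  | e :: es =>
    Nat.add (Nat.mul (Nat.land (Nat.shiftRight R (Nat.mul W (Nat.sub e.p st))) M) (g e))
      (gEnts W M R st g es)

/-- Sum over the segments of a block of digits times weights. -/
def gSegs (W M B st : Nat) (g : Ent → Nat) : List Seg → Nat
  | [] => 0
  | s :: ss =>
    Nat.add (gEnts W M (piece W B (Nat.sub s.st st) s.ln) s.st g s.es) (gSegs W M B st g ss)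

/-- Sum over the blocks of digits times weights. -/
def gBlks (W M Z : Nat) (g : Ent → Nat) : List Blk → Nat
  | [] => 0
  | b :: bs => Nat.add (gSegs W M (piece W Z b.st b.ln) b.st g b.ss) (gBlks W M Z g bs)

/-- Sum of the lower powers at the opposite exponents. -/
def negL (C : LatCfg) (e : Ent) : Nat :=
  let a := Nat.mod e.p C.Wd
  let b := Nat.div e.p C.Wd
  let c := Nat.sub (Nat.mul (Nat.mul 3 C.d) C.o) (Nat.add a b)
  let s := Nat.add C.E0 (Nat.mul C.d C.o)
  Nat.add (pw C.wp C.PL (Nat.sub s a)) (Nat.add (pw C.wp C.PL (Nat.sub s b)) (pw C.wp C.PL (Nat.sub s c)))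

/-- Sum of the upper powers at the opposite exponents. -/
def negU (C : LatCfg) (e : Ent) : Nat :=
  let a := Nat.mod e.p C.Wd
  let b := Nat.div e.p C.Wd
  let c := Nat.sub (Nat.mul (Nat.mul 3 C.d) C.o) (Nat.add a b)
  let s := Nat.add C.E0 (Nat.mul C.d C.o)
  Nat.add (pw C.wp C.PU (Nat.sub s a)) (Nat.add (pw C.wp C.PU (Nat.sub s b)) (pw C.wp C.PU (Nat.sub s c)))

/-- Sum of the lower powers at the exponents. -/
def posL3 (C : LatCfg) (e : Ent) : Nat :=
  let a := Nat.mod e.p C.Wd
  let b := Nat.div e.p C.Wd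
  let c := Nat.sub (Nat.mul (Nat.mul 3 C.d) C.o) (Nat.add a b)
  let sh := Nat.sub C.E0 (Nat.mul C.d C.o)
  Nat.add (pw C.wp C.PL (Nat.add a sh)) (Nat.add (pw C.wp C.PL (Nat.add b sh)) (pw C.wp C.PL (Nat.add c sh)))

/-- A lower bound of the weight of an entry for the second moment, with `fw` bits. -/
def wXe (C : LatCfg) (fw : Nat) (e : Ent) : Nat :=
  Nat.div (Nat.mul (Nat.shiftLeft 2 fw) (negL C e)) (Nat.mul 3 e.mu)

/-- A lower bound of the weight of an entry for the fourth moment, with `fw` bits. -/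
def wMe (C : LatCfg) (fw : Nat) (e : Ent) : Nat :=
  let sl := posL3 C e
  let tt := Nat.succ (Nat.div (Nat.mul (Nat.mul (Nat.shiftLeft 2 fw) (negU C e)) (Nat.shiftLeft 1 C.fp))
    (Nat.mul sl sl))
  let v2 := Nat.sub (Nat.div (Nat.shiftLeft 4 fw) 3) tt
  if Nat.blt 0 sl then Nat.div (Nat.mul (wXe C fw e) v2) (Nat.shiftLeft 1 fw) else 0

/-- The final bounds: `Yn / 2 ^ fw` for the second moment and `Mn / 2 ^ fw` for the fourth one. -/
def finalOK (C : LatCfg) (T : List Blk) (Q fw Yn Mn : Nat) : Bool :=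
  let fd := Nat.mul C.f C.d
  let Z := Nat.pow (encB C Q C.J) C.d
  let M := Nat.sub (Nat.shiftLeft 1 C.W) 1
  let A1 := gBlks C.W M Z (fun e => Nat.mul e.m (wXe C fw e)) T
  let A2 := gBlks C.W M Z (fun e => Nat.mul e.m (wMe C fw e)) T
  Nat.ble (Nat.mul 6 (totQ C Q C.J)) (Nat.shiftLeft 1 C.f) &&
    (Nat.ble (Nat.shiftLeft 2 (Nat.add fd fw)) (Nat.mul 3 (Nat.add A1 (Nat.shiftLeft Yn fd))) &&
      Nat.ble (Nat.shiftLeft 4 (Nat.add fd fw)) (Nat.mul 9 (Nat.add A2 (Nat.shiftLeft Mn fd))))

end Vale.Agent.Lib.P154Anti
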