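import Vale.Agent.Lib.P154Anti.LatChkE

/-!
The lattice computation with small intermediate numbers: the child tensor is built row by row, the product
tensor is cut hierarchically, digits are read with reduced precision, and the accumulator has no top slot.
-/

namespace Vale.Agent.Lib.P154Anti

/-- A row of the child law: pairs of a first coordinate and a class. -/
abbrev Row := List (Nat × Nat)

/-- The value of a row. -/
def rowEnc (C : LatCfg) (Q : Nat) : Row → Nat
  | [] => 0
  | p :: r => Nat.add (Nat.shiftLeft (dig C.fq Q p.2) (Nat.mul C.W p.1)) (rowEnc C Q r)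

/-- The value of consecutive rows. -/
def chunkEnc (C : LatCfg) (Q : Nat) : List Row → Nat
  | [] => 0
  | r :: rs => Nat.add (rowEnc C Q r) (Nat.shiftLeft (chunkEnc C Q rs) (Nat.mul C.W C.Wd))

/-- The value of consecutive chunks of `L` rows. -/
def allEnc (C : LatCfg) (Q L : Nat) : List (List Row) → Nat
  | [] => 0
  | c :: cs =>
    Nat.add (chunkEnc C Q c) (Nat.shiftLeft (allEnc C Q L cs) (Nat.mul (Nat.mul C.W C.Wd) L))

/-- The triples of a row. -/
def rowTrip (b : Nat) (r : Row) : List (Nat × Nat × Nat) := r.map (fun p => (p.1, b, p.2))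

/-- The triples of consecutive rows. -/
def chunkTrip : Nat → List Row → List (Nat × Nat × Nat)
  | _, [] => []
  | b, r :: rs => rowTrip b r ++ chunkTrip (Nat.succ b) rs

/-- The triples of consecutive chunks. -/
def allTrip (L : Nat) : Nat → List (List Row) → List (Nat × Nat × Nat)
  | _, [] => []
  | b, c :: cs => chunkTrip b c ++ allTrip L (Nat.add b L) cs

/-- The triples of the orbits of the classes. -/
def orbTrip (C : LatCfg) : Nat → List (Nat × Nat × Nat)
  | 0 => []
  | j + 1 =>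
    [(dA C j, dB C j, j), (dB C j, dC C j, j), (dC C j, dA C j, j), (dA C j, dC C j, j),
      (dB C j, dA C j, j), (dC C j, dB C j, j)] ++ orbTrip C j

/-- Parameters of the computation with small numbers. -/
structure Par2 where
  /-- bits dropped when reading a digit -/
  sh : Nat
  /-- bits of the total count of a child law -/
  fc : Nat
  /-- bound of the coefficients of an entry -/
  Cm : Nat
  /-- number of rows of a chunk -/
  L : Nat
  /-- the rows of the child law -/
  rows : List (List Row)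

/-- A piece of the product tensor holding blocks. -/
structure Top where
  st : Nat
  ln : Nat
  bs : List Blk

/-- The contribution of a value `v` to the slots of the accumulator: slot zero for the mass. -/
def slotAdd2 (wa v : Nat) (e : Ent) : Nat :=
  let x := Nat.mul v e.m
  Nat.add (Nat.shiftLeft (Nat.mul x e.c1) (Nat.mul wa (Nat.succ e.j1)))
    (Nat.add (Nat.shiftLeft (Nat.mul x e.c2) (Nat.mul wa (Nat.succ e.j2)))
      (Nat.add (Nat.shiftLeft (Nat.mul x e.c3) (Nat.mul wa (Nat.succ e.j3)))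
        (Nat.mul x e.mu)))

/-- Sum over the entries of a segment. -/
def sumEnts2 (W sh M wa R st : Nat) : List Ent → Nat
  | [] => 0
  | e :: es =>
    Nat.add (slotAdd2 wa (Nat.land (Nat.shiftRight R (Nat.add (Nat.mul W (Nat.sub e.p st)) sh)) M) e)
      (sumEnts2 W sh M wa R st es)

/-- Sum over the segments of a block. -/
def sumSegs2 (W sh M wa B st : Nat) : List Seg → Nat
  | [] => 0
  | s :: ss =>
    Nat.add (sumEnts2 W sh M wa (piece W B (Nat.sub s.st st) s.ln) s.st s.es)
      (sumSegs2 W sh M wa B st ss)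

/-- Sum over the blocks of a top piece. -/
def sumBlks2 (W sh M wa Z st : Nat) : List Blk → Nat
  | [] => 0
  | b :: bs =>
    Nat.add (sumSegs2 W sh M wa (piece W Z (Nat.sub b.st st) b.ln) b.st b.ss)
      (sumBlks2 W sh M wa Z st bs)

/-- Sum over the top pieces. -/
def sumTops2 (W sh M wa Z : Nat) : List Top → Nat
  | [] => 0
  | t :: ts =>
    Nat.add (sumBlks2 W sh M wa (piece W Z t.st t.ln) t.st t.bs) (sumTops2 W sh M wa Z ts)

/-- The contribution of the missing mass. -/
def vtxAdd2 (wa J dv : Nat) (v : Ent) (vc : Nat) : Nat :=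
  Nat.add (Nat.shiftLeft (Nat.mul dv v.c1) (Nat.mul wa (Nat.succ v.j1)))
    (Nat.add (Nat.shiftLeft (Nat.mul dv v.c2) (Nat.mul wa (Nat.succ v.j2)))
      (Nat.add (Nat.shiftLeft (Nat.mul dv v.c3) (Nat.mul wa (Nat.succ v.j3)))
        (Nat.shiftLeft (Nat.mul dv vc) (Nat.mul wa (Nat.succ J)))))

/-- Comparison of the new masses with the slots of the accumulator. -/
def chkQ2 (C : LatCfg) (S0 Acc Q' : Nat) : Nat → Bool
  | 0 => true
  | j + 1 =>
    Nat.ble (Nat.mul (dig C.fq Q' j) S0) (dig C.wa Acc (Nat.succ j)) && chkQ2 C S0 Acc Q' j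

/-- The tensor of the children that may have a zero at the first coordinate, from the interior tensor. -/
def encS2 (C : LatCfg) (Q eI : Nat) : Nat :=
  Nat.add eI
    (Nat.shiftLeft (Nat.mul 2 (dig C.fq Q C.J)) (Nat.mul C.W (ps C.Wd C.o C.o)))

/-- One level of the computation. -/
def lvlOK2 (C : LatCfg) (P : Par2) (TI TE : List Top) (v : Ent) (vc Q U Q' : Nat) : Bool :=
  let fd1 := Nat.sub (Nat.mul C.f C.d) P.sh
  let one := Nat.shiftLeft 1 fd1
  let eI := allEnc C Q P.L P.rows
  let ZI := Nat.pow eI C.d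
  let ZE := Nat.sub (Nat.pow (encS2 C Q eI) C.d) ZI
  let M := Nat.sub (Nat.shiftLeft 1 (Nat.sub C.W P.sh)) 1
  let Acc := Nat.add (vtxAdd2 C.wa C.J (Nat.sub one U) v vc)
    (Nat.add (sumTops2 C.W P.sh M C.wa ZI TI) (sumTops2 C.W P.sh M C.wa ZE TE))
  Nat.ble (Nat.mul 6 (totE C Q)) (Nat.shiftLeft 1 P.fc) &&
    (Nat.ble U one &&
      (Nat.ble (dig C.wa Acc 0) (Nat.mul (Nat.mul U 3) (Nat.shiftLeft 1 C.fp)) &&
        chkQ2 C (Nat.mul 6 (Nat.shiftLeft 1 (Nat.sub (Nat.add fd1 C.fS) C.f))) Acc Q' (Nat.succ C.J)))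

/-- The blocks of a table of top pieces. -/
def topsBlk (T : List Top) : List Blk := T.flatMap (fun t => t.bs)

/-- The blocks lie in their top pieces. -/
def rangeOK2 (T : List Top) : Bool :=
  T.all (fun t => t.bs.all (fun b =>
    Nat.ble t.st b.st && Nat.ble (Nat.add b.st b.ln) (Nat.add t.st t.ln)) && rangeOK t.bs)

/-- The coefficients of the entries are bounded. -/
def cmOK (Cm : Nat) (E : List Ent) : Bool :=
  E.all (fun e => Nat.ble (Nat.mul e.m (Nat.add e.c1 (Nat.add e.c2 (Nat.add e.c3 e.mu)))) Cm)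

/-- Validity of the entry of the extreme ray. -/
def vtxOK2 (C : LatCfg) (Cm : Nat) (v : Ent) (vc : Nat) : Bool :=
  let t := tgSum C v
  let K := Nat.shiftLeft 1 (Nat.add C.fS C.fp)
  let p1 := Nat.add C.ld C.ln
  let p2 := Nat.sub C.ld (Nat.mul 2 C.ln)
  let r := Nat.shiftLeft vc C.fp
  Nat.blt v.j1 C.J && (Nat.blt v.j2 C.J && (Nat.blt v.j3 C.J &&
  (Nat.ble (Nat.mul C.ld t.1) (Nat.mul K p2) &&
  (Nat.ble (Nat.mul C.ld (Nat.add t.2.1 r)) (Nat.mul K p1) &&
  (Nat.ble (Nat.mul C.ld (Nat.add t.2.2 r)) (Nat.mul K p1) &&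
  Nat.ble (Nat.add v.c1 (Nat.add v.c2 (Nat.add v.c3 vc))) Cm)))))

/-- The parameters are consistent. -/
def parOK (C : LatCfg) (P : Par2) : Bool :=
  Nat.ble P.sh (Nat.mul C.f C.d) && (Nat.ble P.sh C.W &&
  (Nat.ble C.f (Nat.add (Nat.sub (Nat.mul C.f C.d) P.sh) C.fS) &&
  (Nat.ble P.fc (Nat.succ C.f) &&
  (Nat.blt (Nat.shiftLeft P.Cm (Nat.succ (Nat.sub (Nat.mul P.fc C.d) P.sh))) (Nat.shiftLeft 1 C.wa) &&
  List.isPerm (allTrip P.L 0 P.rows) (orbTrip C C.J)))))

/-- Validity of the tables of a tier. -/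
def tableOK2 (C : LatCfg) (Cm : Nat) (TI TE : List Top) (v : Ent) (vc : Nat) : Bool :=
  vtxOK2 C Cm v vc && (rangeOK2 TI && (rangeOK2 TE &&
  (rangeOK (topsBlk TI) && (incrOK C 0 (flatT (topsBlk TI)) && (cmOK Cm (flatT (topsBlk TI)) &&
  (rangeOK (topsBlk TE) && (incrOKE C 0 (flatT (topsBlk TE)) && cmOK Cm (flatT (topsBlk TE)))))))))

/-- Sum over the blocks of a top piece of digits times weights. -/
def gBlks2 (W M Z st : Nat) (g : Ent → Nat) : List Blk → Nat
  | [] => 0
  | b :: bs => Nat.add (gSegs W M (piece W Z (Nat.sub b.st st) b.ln) b.st g b.ss) (gBlks2 W M Z st g bs)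

/-- Sum over the top pieces of digits times weights. -/
def gTops (W M Z : Nat) (g : Ent → Nat) : List Top → Nat
  | [] => 0
  | t :: ts => Nat.add (gBlks2 W M (piece W Z t.st t.ln) t.st g t.bs) (gTops W M Z g ts)

/-- The final bounds: `Yn / 2 ^ fw` for the second moment and `Mn / 2 ^ fw` for the fourth one. -/
def finalOK2 (C : LatCfg) (P : Par2) (TI TE : List Top) (Q fw Yn Mn : Nat) : Bool :=
  let fd := Nat.mul C.f C.d
  let eI := allEnc C Q P.L P.rows
  let ZI := Nat.pow eI C.d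
  let ZE := Nat.sub (Nat.pow (encS2 C Q eI) C.d) ZI
  let M := Nat.sub (Nat.shiftLeft 1 C.W) 1
  let A1 := Nat.add (gTops C.W M ZI (fun e => Nat.mul e.m (wXe C fw e)) TI)
    (gTops C.W M ZE (fun e => Nat.mul e.m (wXeE C fw e)) TE)
  let A2 := Nat.add (gTops C.W M ZI (fun e => Nat.mul e.m (wMe C fw e)) TI)
    (gTops C.W M ZE (fun e => Nat.mul e.m (wMeE C fw e)) TE)
  Nat.ble (Nat.mul 6 (totE C Q)) (Nat.shiftLeft 1 (Nat.succ C.f)) &&
    (Nat.ble (Nat.shiftLeft 2 (Nat.add fd fw)) (Nat.mul 3 (Nat.add A1 (Nat.shiftLeft Yn fd))) &&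
      Nat.ble (Nat.shiftLeft 4 (Nat.add fd fw)) (Nat.mul 9 (Nat.add A2 (Nat.shiftLeft Mn fd))))

end Vale.Agent.Lib.P154Anti
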