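import Vale.Agent.Lib.P154Anti.LatChk2

/-!
The lattice computation organised for small big-number footprints: the child tensor is built from short
windows of rows, digits of the packed masses are read through chunks, entries of the table are summed in
cells whose targets are close in the numbering of classes, and the mass is summed separately.
-/

namespace Vale.Agent.Lib.P154Anti

/-! ### A merge sort -/

/-- Merge of two lists with fuel. -/
def mergeL {α : Type} (le : α → α → Bool) : Nat → List α → List α → List α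
  | 0, xs, ys => xs ++ ys
  | _ + 1, [], ys => ys
  | _ + 1, x :: xs, [] => x :: xs
  | n + 1, x :: xs, y :: ys =>
    bif le x y then x :: mergeL le n xs (y :: ys) else y :: mergeL le n (x :: xs) ys

/-- Merge consecutive lists. -/
def mergePass {α : Type} (le : α → α → Bool) (fuel : Nat) : List (List α) → List (List α)
  | a :: b :: r => mergeL le fuel a b :: mergePass le fuel r
  | [a] => [a]
  | [] => []

/-- Repeated merging. -/
def msortN {α : Type} (le : α → α → Bool) (fuel : Nat) : Nat → List (List α) → List (List α)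
  | 0, l => l
  | n + 1, l => msortN le fuel n (mergePass le fuel l)

/-- Merge sort. -/
def msort {α : Type} (le : α → α → Bool) (l : List α) : List α :=
  (msortN le 1073741824 24 (l.map (fun a => [a]))).flatten

/-! ### The child tensor -/

/-- An item of a window of a row: offset in the window, start of a chunk of classes, index in the chunk. -/
structure Itm where
  a : Nat
  ci : Nat
  k : Nat

/-- A window of a row. -/
structure Win where
  a0 : Nat
  it : List Itm

/-- A row of the child law. -/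
abbrev Row3 := List Win

/-- The value of a window. -/
def winEnc (C : LatCfg) (Lq Q : Nat) : List Itm → Nat
  | [] => 0
  | ⟨a, ci, k⟩ :: r =>
    Nat.add (Nat.shiftLeft (dig C.fq (piece C.fq Q ci Lq) k) (Nat.mul C.W a)) (winEnc C Lq Q r)

/-- The value of a row. -/
def rowEnc3 (C : LatCfg) (Lq Q : Nat) : List Win → Nat
  | [] => 0
  | w :: ws => Nat.add (Nat.shiftLeft (winEnc C Lq Q w.it) (Nat.mul C.W w.a0)) (rowEnc3 C Lq Q ws)

/-- The value of consecutive rows. -/
def chunkEnc3 (C : LatCfg) (Lq Q : Nat) : List Row3 → Nat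
  | [] => 0
  | r :: rs => Nat.add (rowEnc3 C Lq Q r) (Nat.shiftLeft (chunkEnc3 C Lq Q rs) (Nat.mul C.W C.Wd))

/-- The value of consecutive chunks of `L` rows. -/
def allEnc3 (C : LatCfg) (Lq Q L : Nat) : List (List Row3) → Nat
  | [] => 0
  | c :: cs =>
    Nat.add (chunkEnc3 C Lq Q c) (Nat.shiftLeft (allEnc3 C Lq Q L cs) (Nat.mul (Nat.mul C.W C.Wd) L))

/-- The triples of a window. -/
def winTrip (b a0 : Nat) (it : List Itm) : List (Nat × Nat × Nat) :=
  it.map (fun i => (Nat.add a0 i.a, b, Nat.add i.ci i.k))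

/-- The triples of a row. -/
def rowTrip3 (b : Nat) (r : Row3) : List (Nat × Nat × Nat) := r.flatMap (fun w => winTrip b w.a0 w.it)

/-- The triples of consecutive rows. -/
def chunkTrip3 : Nat → List Row3 → List (Nat × Nat × Nat)
  | _, [] => []
  | b, r :: rs => rowTrip3 b r ++ chunkTrip3 (Nat.succ b) rs

/-- The triples of consecutive chunks. -/
def allTrip3 (L : Nat) : Nat → List (List Row3) → List (Nat × Nat × Nat)
  | _, [] => []
  | b, c :: cs => chunkTrip3 b c ++ allTrip3 L (Nat.add b L) cs

/-- The order of the triples by position. -/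
def trLe (Wd : Nat) (t u : Nat × Nat × Nat) : Bool := Nat.ble (ps Wd t.1 t.2.1) (ps Wd u.1 u.2.1)

/-- The indices of the items are small. -/
def rowsOK (Lq : Nat) (rows : List (List Row3)) : Bool :=
  rows.all (fun c => c.all (fun r => r.all (fun w => w.it.all (fun i => Nat.blt i.k Lq))))

/-! ### Chunks of the packed masses -/

/-- The total of a chunk. -/
def totChunk (C : LatCfg) (Qc : Nat) : Nat → Nat
  | 0 => 0
  | k + 1 => Nat.add (dig C.fq Qc k) (totChunk C Qc k)

/-- The total of the chunks. -/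
def totCh (C : LatCfg) (Lq Q : Nat) : Nat → Nat
  | 0 => 0
  | i + 1 => Nat.add (totChunk C (piece C.fq Q (Nat.mul i Lq) Lq) Lq) (totCh C Lq Q i)

/-- Comparison of a chunk of new masses with a piece of the accumulator. -/
def chkChunk (C : LatCfg) (S0 Ac Qc : Nat) : Nat → Bool
  | 0 => true
  | k + 1 => Nat.ble (Nat.mul (dig C.fq Qc k) S0) (dig C.wa Ac k) && chkChunk C S0 Ac Qc k

/-- Comparison of the new masses with the accumulator by chunks. -/
def chkCh (C : LatCfg) (Lq S0 Acc Q' : Nat) : Nat → Bool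
  | 0 => true
  | i + 1 =>
    chkChunk C S0 (piece C.wa Acc (Nat.succ (Nat.mul i Lq)) Lq) (piece C.fq Q' (Nat.mul i Lq) Lq) Lq &&
      chkCh C Lq S0 Acc Q' i

/-! ### Tables -/

/-- A segment: start and length of a row piece inside its top piece, start and length, entries. -/
structure Seg3 where
  rs : Nat
  rl : Nat
  st : Nat
  ln : Nat
  es : List Ent

/-- A cell: the targets of the entries have classes at least `off`. -/
structure Cell where
  off : Nat
  ss : List Seg3

/-- A piece of the product tensor holding cells. -/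
structure Top3 where
  st : Nat
  ln : Nat
  cs : List Cell

/-- A larger piece. -/
structure Mid3 where
  st : Nat
  ln : Nat
  ts : List Top3

/-- A table. -/
structure Tab3 where
  st : Nat
  ln : Nat
  ms : List Mid3

/-- A digit read from a piece, dropping `sh` bits. -/
def rdD (W sh M R k : Nat) : Nat := Nat.land (Nat.shiftRight R (Nat.add (Nat.mul W k) sh)) M

/-- The contribution of a value to the slots of a cell. -/
def relAdd (wa off v : Nat) (e : Ent) : Nat :=
  let x := Nat.mul v e.m
  Nat.add (Nat.shiftLeft (Nat.mul x e.c1) (Nat.mul wa (Nat.sub e.j1 off)))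
    (Nat.add (Nat.shiftLeft (Nat.mul x e.c2) (Nat.mul wa (Nat.sub e.j2 off)))
      (Nat.shiftLeft (Nat.mul x e.c3) (Nat.mul wa (Nat.sub e.j3 off))))

/-- Sum over the entries of a segment for the slots of a cell. -/
def relEnts (W sh M wa off R st : Nat) : List Ent → Nat
  | [] => 0
  | e :: es => Nat.add (relAdd wa off (rdD W sh M R (Nat.sub e.p st)) e) (relEnts W sh M wa off R st es)

/-- Sum over the entries of a segment of digits times weights. -/
def gEnts3 (W sh M R st : Nat) (g : Ent → Nat) : List Ent → Nat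
  | [] => 0
  | e :: es => Nat.add (Nat.mul (rdD W sh M R (Nat.sub e.p st)) (g e)) (gEnts3 W sh M R st g es)

/-- The piece of a segment. -/
def segP (W Tp tst : Nat) : Seg3 → Nat
  | ⟨rs, rl, st, ln, _⟩ => piece W (piece W Tp rs rl) (Nat.sub st (Nat.add tst rs)) ln

/-- Sum over segments for the slots of a cell. -/
def relSegs (W sh M wa off Tp tst : Nat) : List Seg3 → Nat
  | [] => 0
  | s :: ss => Nat.add (relEnts W sh M wa off (segP W Tp tst s) s.st s.es) (relSegs W sh M wa off Tp tst ss)

/-- Sum over cells. -/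
def clsCells (W sh M wa Tp tst : Nat) : List Cell → Nat
  | [] => 0
  | c :: cs =>
    Nat.add (Nat.shiftLeft (relSegs W sh M wa c.off Tp tst c.ss) (Nat.mul wa (Nat.succ c.off)))
      (clsCells W sh M wa Tp tst cs)

/-- Sum over top pieces. -/
def clsTops (W sh M wa Mp mst : Nat) : List Top3 → Nat
  | [] => 0
  | t :: ts => Nat.add (clsCells W sh M wa (piece W Mp (Nat.sub t.st mst) t.ln) t.st t.cs) (clsTops W sh M wa Mp mst ts)

/-- Sum over larger pieces. -/
def clsMids (W sh M wa Xp xst : Nat) : List Mid3 → Nat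
  | [] => 0
  | m :: ms => Nat.add (clsTops W sh M wa (piece W Xp (Nat.sub m.st xst) m.ln) m.st m.ts) (clsMids W sh M wa Xp xst ms)

/-- The slots of the classes of a table. -/
def clsTab3 (W sh M wa Z : Nat) (T : Tab3) : Nat := clsMids W sh M wa (piece W Z T.st T.ln) T.st T.ms

/-- Sum over segments of digits times weights. -/
def gSegs3 (W sh M Tp tst : Nat) (g : Ent → Nat) : List Seg3 → Nat
  | [] => 0
  | s :: ss => Nat.add (gEnts3 W sh M (segP W Tp tst s) s.st g s.es) (gSegs3 W sh M Tp tst g ss)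

/-- Sum over cells of digits times weights. -/
def gCells3 (W sh M Tp tst : Nat) (g : Ent → Nat) : List Cell → Nat
  | [] => 0
  | c :: cs => Nat.add (gSegs3 W sh M Tp tst g c.ss) (gCells3 W sh M Tp tst g cs)

/-- Sum over top pieces of digits times weights. -/
def gTops3 (W sh M Mp mst : Nat) (g : Ent → Nat) : List Top3 → Nat
  | [] => 0
  | t :: ts => Nat.add (gCells3 W sh M (piece W Mp (Nat.sub t.st mst) t.ln) t.st g t.cs) (gTops3 W sh M Mp mst g ts)

/-- Sum over larger pieces of digits times weights. -/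
def gMids3 (W sh M Xp xst : Nat) (g : Ent → Nat) : List Mid3 → Nat
  | [] => 0
  | m :: ms => Nat.add (gTops3 W sh M (piece W Xp (Nat.sub m.st xst) m.ln) m.st g m.ts) (gMids3 W sh M Xp xst g ms)

/-- Digits times weights over a table. -/
def gTab3 (W sh M Z : Nat) (g : Ent → Nat) (T : Tab3) : Nat := gMids3 W sh M (piece W Z T.st T.ln) T.st g T.ms

/-- All the segments of a table. -/
def tabSegs (T : Tab3) : List Seg3 :=
  T.ms.flatMap (fun m => m.ts.flatMap (fun t => t.cs.flatMap (fun c => c.ss)))

/-- All the entries of a table. -/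
def tabEnts (T : Tab3) : List Ent := (tabSegs T).flatMap (fun s => s.es)

/-- All the entries of a table in the order of the segments. -/
def sortedE (T : Tab3) : List Ent :=
  (msort (fun s s' : Seg3 => Nat.ble s.st s'.st) (tabSegs T)).flatMap (fun s => s.es)

/-- The pieces of a table are nested, and the entries lie in their segments and above the offsets. -/
def rangeOK3 (T : Tab3) : Bool :=
  T.ms.all (fun m => Nat.ble T.st m.st && (Nat.ble (Nat.add m.st m.ln) (Nat.add T.st T.ln) &&
    m.ts.all (fun t => Nat.ble m.st t.st && (Nat.ble (Nat.add t.st t.ln) (Nat.add m.st m.ln) &&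
      t.cs.all (fun c => c.ss.all (fun s =>
        Nat.ble (Nat.add s.rs s.rl) t.ln && (Nat.ble (Nat.add t.st s.rs) s.st &&
        (Nat.ble (Nat.add s.st s.ln) (Nat.add (Nat.add t.st s.rs) s.rl) &&
        s.es.all (fun e => Nat.ble s.st e.p && (Nat.blt e.p (Nat.add s.st s.ln) &&
          (Nat.ble c.off e.j1 && (Nat.ble c.off e.j2 && Nat.ble c.off e.j3))))))))))))

/-- The coefficients of the targets of the entries are bounded. -/
def cmOK3 (Cm : Nat) (E : List Ent) : Bool :=
  E.all (fun e => Nat.ble (Nat.mul e.m (Nat.add e.c1 (Nat.add e.c2 e.c3))) Cm)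

/-- Parameters of the computation. -/
structure Par3 where
  /-- bits dropped when reading a digit -/
  sh : Nat
  /-- bits of the total count of a child law -/
  fc : Nat
  /-- bound of the coefficients of an entry -/
  Cm : Nat
  /-- number of classes of a chunk of the packed masses -/
  Lq : Nat
  /-- number of chunks of the packed masses -/
  nc : Nat
  /-- number of rows of a chunk of rows -/
  L : Nat
  /-- the rows of the child law -/
  rows : List (List Row3)

/-- The parameters are consistent. -/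
def parOK3 (C : LatCfg) (P : Par3) : Bool :=
  Nat.ble P.sh (Nat.mul C.f C.d) && (Nat.ble P.sh C.W &&
  (Nat.ble C.f (Nat.add (Nat.sub (Nat.mul C.f C.d) P.sh) C.fS) &&
  (Nat.ble C.f P.fc && (Nat.ble P.fc (Nat.succ C.f) &&
  (Nat.blt (Nat.shiftLeft P.Cm (Nat.succ (Nat.sub (Nat.mul P.fc C.d) P.sh))) (Nat.shiftLeft 1 C.wa) &&
  (Nat.blt 0 P.Lq && (Nat.ble (Nat.succ C.J) (Nat.mul P.nc P.Lq) &&
  (rowsOK P.Lq P.rows &&
  List.isPerm (allTrip3 P.L 0 P.rows) (msort (trLe C.Wd) (orbTrip C C.J))))))))))

/-- Validity of the tables of a tier. -/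
def tableOK3 (C : LatCfg) (Cm : Nat) (TI TE : Tab3) (v : Ent) (vc : Nat) : Bool :=
  vtxOK2 C Cm v vc && (rangeOK3 TI && (rangeOK3 TE &&
  (incrOK C 0 (sortedE TI) && (cmOK3 Cm (tabEnts TI) &&
  (incrOKE C 0 (sortedE TE) && cmOK3 Cm (tabEnts TE))))))

/-- One level of the computation. -/
def lvlOK3 (C : LatCfg) (P : Par3) (TI TE : Tab3) (v : Ent) (vc Q U Q' : Nat) : Bool :=
  let fd1 := Nat.sub (Nat.mul C.f C.d) P.sh
  let one := Nat.shiftLeft 1 fd1
  let eI := allEnc3 C P.Lq Q P.L P.rows
  let ZI := Nat.pow eI C.d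
  let ZE := Nat.sub (Nat.pow (encS2 C Q eI) C.d) ZI
  let M := Nat.sub (Nat.shiftLeft 1 (Nat.sub C.W P.sh)) 1
  let g := fun e : Ent => Nat.mul e.m e.mu
  let Acc := Nat.add (vtxAdd2 C.wa C.J (Nat.sub one U) v vc)
    (Nat.add (clsTab3 C.W P.sh M C.wa ZI TI) (clsTab3 C.W P.sh M C.wa ZE TE))
  let Mass := Nat.add (gTab3 C.W P.sh M ZI g TI) (gTab3 C.W P.sh M ZE g TE)
  Nat.ble (Nat.mul 6 (totCh C P.Lq Q P.nc)) (Nat.shiftLeft 1 P.fc) &&
    (Nat.ble U one &&
      (Nat.ble Mass (Nat.mul (Nat.mul U 3) (Nat.shiftLeft 1 C.fp)) &&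
        chkCh C P.Lq (Nat.mul 6 (Nat.shiftLeft 1 (Nat.sub (Nat.add fd1 C.fS) C.f))) Acc Q' P.nc))

/-- The final bounds: `Yn / 2 ^ fw` for the second moment and `Mn / 2 ^ fw` for the fourth one. -/
def finalOK3 (C : LatCfg) (P : Par3) (TI TE : Tab3) (Q fw Yn Mn : Nat) : Bool :=
  let fd := Nat.mul C.f C.d
  let eI := allEnc3 C P.Lq Q P.L P.rows
  let ZI := Nat.pow eI C.d
  let ZE := Nat.sub (Nat.pow (encS2 C Q eI) C.d) ZI
  let M := Nat.sub (Nat.shiftLeft 1 C.W) 1
  let A1 := Nat.add (gTab3 C.W 0 M ZI (fun e => Nat.mul e.m (wXe C fw e)) TI)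
    (gTab3 C.W 0 M ZE (fun e => Nat.mul e.m (wXeE C fw e)) TE)
  let A2 := Nat.add (gTab3 C.W 0 M ZI (fun e => Nat.mul e.m (wMe C fw e)) TI)
    (gTab3 C.W 0 M ZE (fun e => Nat.mul e.m (wMeE C fw e)) TE)
  Nat.ble (Nat.mul 6 (totCh C P.Lq Q P.nc)) (Nat.shiftLeft 1 (Nat.succ C.f)) &&
    (Nat.ble (Nat.shiftLeft 2 (Nat.add fd fw)) (Nat.mul 3 (Nat.add A1 (Nat.shiftLeft Yn fd))) &&
      Nat.ble (Nat.shiftLeft 4 (Nat.add fd fw)) (Nat.mul 9 (Nat.add A2 (Nat.shiftLeft Mn fd))))

end Vale.Agent.Lib.P154Anti
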