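import Vale.Agent.Lib.P154Anti.LatChk

/-!
Kernel computations for the lattice majorant with rays: messages may have zero coordinates.
The child law has, besides the classes of lattice points, one more class `C.J`: the vector with a zero
coordinate and two equal coordinates.  Merged messages with one zero coordinate are read from a second
tensor.
-/

namespace Vale.Agent.Lib.P154Anti

/-- The tensor of the interior children. -/
def encI (C : LatCfg) (Q : Nat) : Nat := encB C Q C.J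

/-- The tensor of the children that may have a zero at the first coordinate. -/
def encS (C : LatCfg) (Q : Nat) : Nat :=
  Nat.add (encI C Q)
    (Nat.mul (Nat.mul 2 (dig C.fq Q C.J)) (Nat.shiftLeft 1 (Nat.mul C.W (ps C.Wd C.o C.o))))

/-- The validity of an entry for a message with zero first coordinate. -/
def entOKE (C : LatCfg) (e : Ent) : Bool :=
  let a := Nat.mod e.p C.Wd
  let b := Nat.div e.p C.Wd
  let s3 := Nat.mul (Nat.mul 3 C.d) C.o
  let c := Nat.sub s3 (Nat.add a b)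
  let sh := Nat.sub C.E0 (Nat.mul C.d C.o)
  let lb := pw C.wp C.PL (Nat.add b sh)
  let lc := pw C.wp C.PL (Nat.add c sh)
  let t := tgSum C e
  let K := Nat.shiftLeft 1 C.fS
  let p1 := Nat.add C.ld C.ln
  let p2 := Nat.sub C.ld (Nat.mul 2 C.ln)
  let u := Nat.mul 3 C.ld
  Nat.ble (Nat.add a b) s3 && (Nat.blt b C.Wd && (Nat.ble c b &&
  (Nat.beq e.m (if Nat.blt c b then 6 else 3) &&
  (Nat.ble (Nat.add (pw C.wp C.PU (Nat.add b sh)) (pw C.wp C.PU (Nat.add c sh))) e.mu &&
  (Nat.blt e.j1 C.J && (Nat.blt e.j2 C.J && (Nat.blt e.j3 C.J &&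
  (Nat.ble (Nat.mul u t.1) (Nat.mul K (Nat.mul p1 (Nat.add lb lc))) &&
  (Nat.ble (Nat.mul u t.2.1) (Nat.mul K (Nat.add (Nat.mul p1 lc) (Nat.mul p2 lb))) &&
  Nat.ble (Nat.mul u t.2.2) (Nat.mul K (Nat.add (Nat.mul p1 lb) (Nat.mul p2 lc))))))))))))

/-- The entries are valid and strictly increasing, from position `lo`. -/
def incrOKE (C : LatCfg) : Nat → List Ent → Bool
  | _, [] => true
  | lo, e :: es => Nat.ble lo e.p && (entOKE C e && incrOKE C (Nat.succ e.p) es)

/-- The parameters are consistent. -/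
def cfgOKE (C : LatCfg) : Bool :=
  cfgOK C && (Nat.blt (Nat.mul (Nat.add C.f 1) C.d) C.W && Nat.ble C.o C.R)

/-- Validity of the tables, `TI` for the interior and `TE` for the rays; the coefficient of the
extreme ray on the class of rays is `vc`. -/
def tableOKE (C : LatCfg) (TI TE : List Blk) (vc : Nat) : Bool :=
  cfgOKE C && (Nat.ble (Nat.mul C.ld vc) (Nat.mul (Nat.shiftLeft 1 C.fS) (Nat.add C.ld C.ln)) &&
    (rangeOK TI && (incrOK C 0 (flatT TI) && (rangeOK TE && incrOKE C 0 (flatT TE)))))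

/-- The total of the packed masses, including the class of rays. -/
def totE (C : LatCfg) (Q : Nat) : Nat := totQ C Q (Nat.succ C.J)

/-- One level of the computation. The tables may change from level to level. -/
def lvlOKE (C : LatCfg) (TI TE : List Blk) (vc Q U Q' : Nat) : Bool :=
  let fd := Nat.mul C.f C.d
  let one := Nat.shiftLeft 1 fd
  let ZI := Nat.pow (encI C Q) C.d
  let ZE := Nat.sub (Nat.pow (encS C Q) C.d) ZI
  let M := Nat.sub (Nat.shiftLeft 1 C.W) 1
  let J1 := Nat.succ C.J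
  let dv := Nat.sub one U
  let Acc := Nat.add (Nat.add (Nat.shiftLeft (Nat.mul dv vc) (Nat.mul C.wa C.J))
      (Nat.shiftLeft (Nat.mul dv vc) (Nat.mul C.wa (Nat.succ J1))))
    (Nat.add (sumBlks C.W M C.wa J1 ZI TI) (sumBlks C.W M C.wa J1 ZE TE))
  Nat.ble (Nat.mul 6 (totE C Q)) (Nat.shiftLeft 1 (Nat.succ C.f)) &&
    (Nat.ble U one &&
      (Nat.blt (Nat.shiftRight Acc (Nat.mul C.wa (Nat.succ J1))) (Nat.shiftLeft 1 C.wa) &&
        (Nat.ble (dig C.wa Acc J1) (Nat.mul (Nat.mul U 3) (Nat.shiftLeft 1 C.fp)) &&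
          chkQ C (Nat.mul 6 (Nat.shiftLeft 1 (Nat.sub (Nat.add fd C.fS) C.f))) Acc Q' J1)))

/-! ### Final bounds -/

/-- The lower power at the opposite exponent of the first coordinate. -/
def negLE (C : LatCfg) (e : Ent) : Nat :=
  pw C.wp C.PL (Nat.sub (Nat.add C.E0 (Nat.mul C.d C.o)) (Nat.mod e.p C.Wd))

/-- The upper power at the opposite exponent of the first coordinate. -/
def negUE (C : LatCfg) (e : Ent) : Nat :=
  pw C.wp C.PU (Nat.sub (Nat.add C.E0 (Nat.mul C.d C.o)) (Nat.mod e.p C.Wd))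

/-- Sum of the lower powers at the two other exponents. -/
def posL2 (C : LatCfg) (e : Ent) : Nat :=
  let a := Nat.mod e.p C.Wd
  let b := Nat.div e.p C.Wd
  let c := Nat.sub (Nat.mul (Nat.mul 3 C.d) C.o) (Nat.add a b)
  let sh := Nat.sub C.E0 (Nat.mul C.d C.o)
  Nat.add (pw C.wp C.PL (Nat.add b sh)) (pw C.wp C.PL (Nat.add c sh))

/-- A lower bound of the weight of an entry for the second moment, with `fw` bits. -/
def wXeE (C : LatCfg) (fw : Nat) (e : Ent) : Nat :=
  Nat.div (Nat.mul (Nat.shiftLeft 2 fw) (negLE C e)) (Nat.mul 3 e.mu)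

/-- A lower bound of the weight of an entry for the fourth moment, with `fw` bits. -/
def wMeE (C : LatCfg) (fw : Nat) (e : Ent) : Nat :=
  let sl := posL2 C e
  let tt := Nat.succ (Nat.div (Nat.mul (Nat.mul (Nat.shiftLeft 2 fw) (negUE C e)) (Nat.shiftLeft 1 C.fp))
    (Nat.mul sl sl))
  let v2 := Nat.sub (Nat.div (Nat.shiftLeft 4 fw) 3) tt
  if Nat.blt 0 sl then Nat.div (Nat.mul (wXeE C fw e) v2) (Nat.shiftLeft 1 fw) else 0

/-- The final bounds: `Yn / 2 ^ fw` for the second moment and `Mn / 2 ^ fw` for the fourth one. -/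
def finalOKE (C : LatCfg) (TI TE : List Blk) (Q fw Yn Mn : Nat) : Bool :=
  let fd := Nat.mul C.f C.d
  let ZI := Nat.pow (encI C Q) C.d
  let ZE := Nat.sub (Nat.pow (encS C Q) C.d) ZI
  let M := Nat.sub (Nat.shiftLeft 1 C.W) 1
  let A1 := Nat.add (gBlks C.W M ZI (fun e => Nat.mul e.m (wXe C fw e)) TI)
    (gBlks C.W M ZE (fun e => Nat.mul e.m (wXeE C fw e)) TE)
  let A2 := Nat.add (gBlks C.W M ZI (fun e => Nat.mul e.m (wMe C fw e)) TI)
    (gBlks C.W M ZE (fun e => Nat.mul e.m (wMeE C fw e)) TE)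
  Nat.ble (Nat.mul 6 (totE C Q)) (Nat.shiftLeft 1 (Nat.succ C.f)) &&
    (Nat.ble (Nat.shiftLeft 2 (Nat.add fd fw)) (Nat.mul 3 (Nat.add A1 (Nat.shiftLeft Yn fd))) &&
      Nat.ble (Nat.shiftLeft 4 (Nat.add fd fw)) (Nat.mul 9 (Nat.add A2 (Nat.shiftLeft Mn fd))))

end Vale.Agent.Lib.P154Anti
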