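import Vale.Agent.Lib.P154Anti.LatTree

/-!
Moment bounds at the last level of the lattice computation.
-/

namespace Vale.Agent.Lib.P154Anti

open Vale.Agent.Lib.P154 Tp

/-! ### Perspective functions -/

/-- A convex combination of two triples. -/
noncomputable def mixT (t : ℝ) (a b : Tp) : Tp :=
  ⟨t * a.x + (1 - t) * b.x, t * a.y + (1 - t) * b.y, t * a.z + (1 - t) * b.z⟩

lemma p2T_mix (t : ℝ) (h0 : 0 ≤ t) (h1 : t ≤ 1) (a b : Tp) :
    p2T (mixT t a b) ≤ t * p2T a + (1 - t) * p2T b := by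
  simp only [p2T, mixT]
  have h2 : 0 ≤ t * (1 - t) := mul_nonneg h0 (by linarith)
  nlinarith [mul_nonneg h2 (sq_nonneg (a.x - b.x)), mul_nonneg h2 (sq_nonneg (a.y - b.y)),
    mul_nonneg h2 (sq_nonneg (a.z - b.z))]

lemma p2T_sq_mix (t : ℝ) (h0 : 0 ≤ t) (h1 : t ≤ 1) (a b : Tp) :
    p2T (mixT t a b) ^ 2 ≤ t * p2T a ^ 2 + (1 - t) * p2T b ^ 2 := by
  have h := p2T_mix t h0 h1 a b
  have ha := p2T_nonneg a
  have hb := p2T_nonneg b
  have hm := p2T_nonneg (mixT t a b)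
  have h2 : 0 ≤ t * (1 - t) := mul_nonneg h0 (by linarith)
  have h3 : p2T (mixT t a b) ^ 2 ≤ (t * p2T a + (1 - t) * p2T b) ^ 2 := by
    apply pow_le_pow_left₀ hm h
  have h4 : (t * p2T a + (1 - t) * p2T b) ^ 2 ≤ t * p2T a ^ 2 + (1 - t) * p2T b ^ 2 := by
    nlinarith [mul_nonneg h2 (sq_nonneg (p2T a - p2T b))]
  linarith

/-- The three coordinates of `cen` in a sum over colours. -/
lemma p2T_cen (x : W3) : p2T (cen x) = ∑ i, (x i / M3 x - 1 / 3) ^ 2 := by
  simp only [p2T, cen, Fin.sum_univ_three]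

lemma p2T_cen_comp (x : W3) (σ : Equiv.Perm (Fin 3)) : p2T (cen (x ∘ σ)) = p2T (cen x) := by
  rw [p2T_cen, p2T_cen, M3_comp]
  exact Equiv.sum_comp σ (fun i => (x i / M3 x - 1 / 3) ^ 2)

lemma cen_add {x y : W3} (hx : 0 < M3 x) (hy : 0 < M3 y) :
    cen (x + y) = mixT (M3 x / (M3 x + M3 y)) (cen x) (cen y) := by
  have hs : M3 x + M3 y ≠ 0 := by positivity
  have e : 1 - M3 x / (M3 x + M3 y) = M3 y / (M3 x + M3 y) := by
    field_simp
    ring
  have hxne := hx.ne'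
  have hyne := hy.ne'
  apply Tp.ext <;> simp only [cen, mixT, e, M3_add, Pi.add_apply] <;> field_simp <;> ring

/-- The perspective of a convex function of the triple, normalized at the extreme ray. -/
lemma subC_GG {ψ : Tp → ℝ} (hc : ∀ t a b, 0 ≤ t → t ≤ 1 → ψ (mixT t a b) ≤ t * ψ a + (1 - t) * ψ b)
    (hi : ∀ (x : W3) (σ : Equiv.Perm (Fin 3)), ψ (cen (x ∘ σ)) = ψ (cen x)) :
    SubC (fun x => GG ψ x - M3 x * ψ (cen del0)) where
  add := by
    intro x y hx hy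
    have key : GG ψ (x + y) ≤ GG ψ x + GG ψ y := by
      rcases (M3_nonneg hx).eq_or_lt with h0 | hxp
      · have e : x = 0 := by
          funext i
          exact M3_zero hx h0.symm i
        subst e
        simp [GG, M3]
      rcases (M3_nonneg hy).eq_or_lt with h0 | hyp
      · have e : y = 0 := by
          funext i
          exact M3_zero hy h0.symm i
        subst e
        simp [GG, M3]
      simp only [GG]
      rw [M3_add, cen_add hxp hyp]
      have hs : 0 < M3 x + M3 y := by positivity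
      have ht0 : 0 ≤ M3 x / (M3 x + M3 y) := by positivity
      have ht1 : M3 x / (M3 x + M3 y) ≤ 1 := by
        rw [div_le_one hs]
        linarith
      have := hc _ (cen x) (cen y) ht0 ht1
      have h2 := mul_le_mul_of_nonneg_left this hs.le
      refine h2.trans (le_of_eq ?_)
      field_simp
      ring
    rw [M3_add]
    linarith
  smul := by
    intro t x ht hx
    rcases ht.eq_or_lt with rfl | htp
    · simp [GG, M3]
    rcases (M3_nonneg hx).eq_or_lt with h0 | hxp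
    · have e : x = 0 := by
        funext i
        exact M3_zero hx h0.symm i
      subst e
      simp [GG, M3]
    have e : cen (t • x) = cen x := by
      apply Tp.ext <;> simp only [cen, M3_smul, Pi.smul_apply, smul_eq_mul] <;> field_simp
    simp only [GG, e, M3_smul]
    ring
  inv := by
    intro σ x
    simp only [GG, M3_comp, hi]
  van := by
    have : M3 del0 = 1 := by simp [M3, del0]
    simp [GG, this]

/-- The functional of the second moment. -/
lemma subC_p2 : SubC (fun x => GG p2T x - M3 x * p2T (cen del0)) :=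
  subC_GG (fun t a b h0 h1 => p2T_mix t h0 h1 a b) p2T_cen_comp

/-- The functional of the fourth moment. -/
lemma subC_p2sq : SubC (fun x => GG (fun c => p2T c ^ 2) x - M3 x * (p2T (cen del0)) ^ 2) :=
  subC_GG (ψ := fun c => p2T c ^ 2) (fun t a b h0 h1 => p2T_sq_mix t h0 h1 a b)
    (fun x σ => by simp only [p2T_cen_comp])

lemma p2T_del0 : p2T (cen del0) = 2 / 3 := by
  have h : M3 del0 = 1 := by simp [M3, del0]
  have h0 : del0 0 = 1 := rfl
  have h1 : del0 1 = 0 := rfl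
  have h2 : del0 2 = 0 := rfl
  simp only [p2T, cen, h, h0, h1, h2]
  norm_num

/-! ### The values on the lattice -/

/-- The value of the functionals at a lattice vector, in terms of three positive numbers with
product one. -/
lemma lat_values {ρ : ℝ} (hρ : 0 < ρ) (g : ℤ × ℤ) {r0 r1 r2 : ℝ} (h0 : ρ ^ ee g 0 = r0)
    (h1 : ρ ^ ee g 1 = r1) (h2 : ρ ^ ee g 2 = r2) :
    0 < r0 + r1 + r2 ∧
    GG p2T (lat ρ g) - M3 (lat ρ g) * p2T (cen del0) =
      -(2 / 3 * ((r1 * r2 + r0 * r2 + r0 * r1) / (r0 + r1 + r2))) ∧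
    GG (fun c => p2T c ^ 2) (lat ρ g) - M3 (lat ρ g) * p2T (cen del0) ^ 2 =
      -(2 / 3 * ((r1 * r2 + r0 * r2 + r0 * r1) / (r0 + r1 + r2)) *
        (4 / 3 - 2 * ((r1 * r2 + r0 * r2 + r0 * r1) / (r0 + r1 + r2) ^ 2))) := by
  have p0 : 0 < r0 := by rw [← h0]; exact zpow_pos hρ _
  have p1 : 0 < r1 := by rw [← h1]; exact zpow_pos hρ _
  have p2 : 0 < r2 := by rw [← h2]; exact zpow_pos hρ _
  set S := r0 + r1 + r2 with hS
  have hSp : 0 < S := by positivity
  have hM : M3 (lat ρ g) = S / 3 := by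
    simp only [M3, lat, h0, h1, h2, hS]
    ring
  have hc : p2T (cen (lat ρ g)) = 2 / 3 - 2 * ((r1 * r2 + r0 * r2 + r0 * r1) / S ^ 2) := by
    simp only [p2T, cen, hM, lat, h0, h1, h2]
    have hne := hSp.ne'
    field_simp
    rw [hS]
    ring
  refine ⟨hSp, ?_, ?_⟩
  · simp only [GG, hM, hc, p2T_del0]
    have hne := hSp.ne'
    field_simp
    ring
  · simp only [GG, hM, hc, p2T_del0]
    have hne := hSp.ne'
    field_simp
    ring

/-! ### The weights of the entries -/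

section weights

variable {C : LatCfg} (hC : CfgGood C) {e : Ent} (he : EntGood C e)

include hC in
/-- The table entries at the opposite exponents. -/
lemma neg_bounds {x : ℕ} (hx : x < C.Wd) :
    (pw C.wp C.PL (C.E0 + C.d * C.o - x) : ℝ) ≤ 2 ^ C.fp * rhoOf C ^ (-((x : ℤ) - ((C.d * C.o : ℕ) : ℤ))) ∧
    2 ^ C.fp * rhoOf C ^ (-((x : ℤ) - ((C.d * C.o : ℕ) : ℤ))) ≤ (pw C.wp C.PU (C.E0 + C.d * C.o - x) : ℝ) := by
  have h1 := hC.E1
  have h2 := hC.E2
  have hi : C.E0 + C.d * C.o - x ≤ 2 * C.E0 := by omega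
  have h := pw_at hC hi
  have e : (((C.E0 + C.d * C.o - x : ℕ) : ℤ) - C.E0) = -((x : ℤ) - ((C.d * C.o : ℕ) : ℤ)) := by
    have hle : x ≤ C.E0 + C.d * C.o := by omega
    rw [Nat.cast_sub hle]
    push_cast
    ring
  simp only [PwAt, e] at h
  exact h

include hC he in
/-- The numbers of an entry. -/
lemma ent_numbers : ∃ r0 r1 r2 : ℝ, 0 < r0 ∧ 0 < r1 ∧ 0 < r2 ∧
    rhoOf C ^ ee (gOf C.Wd (C.d * C.o) e.p) 0 = r0 ∧
    rhoOf C ^ ee (gOf C.Wd (C.d * C.o) e.p) 1 = r1 ∧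
    rhoOf C ^ ee (gOf C.Wd (C.d * C.o) e.p) 2 = r2 ∧
    (posL3 C e : ℝ) ≤ 2 ^ C.fp * (r0 + r1 + r2) ∧ 2 ^ C.fp * (r0 + r1 + r2) ≤ e.mu ∧
    (negL C e : ℝ) ≤ 2 ^ C.fp * (r1 * r2 + r0 * r2 + r0 * r1) ∧
    2 ^ C.fp * (r1 * r2 + r0 * r2 + r0 * r1) ≤ (negU C e : ℝ) := by
  have hr := rho_pos hC
  obtain ⟨e0, e1, e2⟩ := ee_gOf he
  have lt_a := eA_lt hC e
  have lt_b : eB C e < C.Wd := by have := he.ba; omega
  have lt_c : eC C e < C.Wd := by have := he.cb; have := he.ba; omega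
  obtain ⟨la, ua⟩ := pow_bounds hC lt_a
  obtain ⟨lb, ub⟩ := pow_bounds hC lt_b
  obtain ⟨lc, uc⟩ := pow_bounds hC lt_c
  obtain ⟨na, nua⟩ := neg_bounds hC lt_a
  obtain ⟨nb, nub⟩ := neg_bounds hC lt_b
  obtain ⟨nc, nuc⟩ := neg_bounds hC lt_c
  rw [← e0] at la ua na nua
  rw [← e1] at lb ub nb nub
  rw [← e2] at lc uc nc nuc
  set g := gOf C.Wd (C.d * C.o) e.p with hg
  have hsum := ee_sum g
  have z0 : rhoOf C ^ (-ee g 0) = rhoOf C ^ ee g 1 * rhoOf C ^ ee g 2 := by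
    rw [← zpow_add₀ hr.ne']
    congr 1
    linarith
  have z1 : rhoOf C ^ (-ee g 1) = rhoOf C ^ ee g 0 * rhoOf C ^ ee g 2 := by
    rw [← zpow_add₀ hr.ne']
    congr 1
    linarith
  have z2 : rhoOf C ^ (-ee g 2) = rhoOf C ^ ee g 0 * rhoOf C ^ ee g 1 := by
    rw [← zpow_add₀ hr.ne']
    congr 1
    linarith
  rw [z0] at na nua
  rw [z1] at nb nub
  rw [z2] at nc nuc
  have hmu : ((pw C.wp C.PU (eA C e + (C.E0 - C.d * C.o)) : ℕ) : ℝ) +
      (pw C.wp C.PU (eB C e + (C.E0 - C.d * C.o)) + pw C.wp C.PU (eC C e + (C.E0 - C.d * C.o))) ≤ e.mu := by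
    exact_mod_cast he.mu
  refine ⟨rhoOf C ^ ee g 0, rhoOf C ^ ee g 1, rhoOf C ^ ee g 2, zpow_pos hr _, zpow_pos hr _, zpow_pos hr _,
    rfl, rfl, rfl, ?_, ?_, ?_, ?_⟩
  · have : (posL3 C e : ℝ) = (pw C.wp C.PL (eA C e + (C.E0 - C.d * C.o)) : ℝ) +
        (pw C.wp C.PL (eB C e + (C.E0 - C.d * C.o)) + pw C.wp C.PL (eC C e + (C.E0 - C.d * C.o))) := by
      show ((Nat.add _ (Nat.add _ _) : ℕ) : ℝ) = _
      simp only [Nat.add_eq]
      push_cast
      rfl
    rw [this]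
    linarith
  · linarith
  · have : (negL C e : ℝ) = (pw C.wp C.PL (C.E0 + C.d * C.o - eA C e) : ℝ) +
        (pw C.wp C.PL (C.E0 + C.d * C.o - eB C e) + pw C.wp C.PL (C.E0 + C.d * C.o - eC C e)) := by
      show ((Nat.add _ (Nat.add _ _) : ℕ) : ℝ) = _
      simp only [Nat.add_eq]
      push_cast
      rfl
    rw [this]
    linarith
  · have : (negU C e : ℝ) = (pw C.wp C.PU (C.E0 + C.d * C.o - eA C e) : ℝ) +
        (pw C.wp C.PU (C.E0 + C.d * C.o - eB C e) + pw C.wp C.PU (C.E0 + C.d * C.o - eC C e)) := by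
      show ((Nat.add _ (Nat.add _ _) : ℕ) : ℝ) = _
      simp only [Nat.add_eq]
      push_cast
      rfl
    rw [this]
    linarith

end weights

lemma cast_div_le' (a b : ℕ) : ((a / b : ℕ) : ℝ) ≤ (a : ℝ) / b := Nat.cast_div_le

/-- The real bound for the weights. -/
lemma wXe_le {C : LatCfg} {e : Ent} (fw : ℕ) {S N : ℝ} (hS : 0 < S) (hN : 0 ≤ N)
    (h1 : 2 ^ C.fp * S ≤ e.mu) (h2 : (negL C e : ℝ) ≤ 2 ^ C.fp * N) :
    (wXe C fw e : ℝ) ≤ 2 ^ fw * (2 / 3 * (N / S)) := by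
  have e1 : wXe C fw e = (2 * 2 ^ fw * negL C e) / (3 * e.mu) := by
    simp only [wXe, shl_eq, Nat.mul_eq]
    rfl
  have hP : (0 : ℝ) < 2 ^ C.fp := by positivity
  have hmu : (0 : ℝ) < e.mu := lt_of_lt_of_le (by positivity) h1
  rw [e1]
  refine (cast_div_le' _ _).trans ?_
  push_cast
  rw [div_le_iff₀ (by positivity)]
  have h3 : (negL C e : ℝ) * S ≤ N * e.mu := by
    have a1 := mul_le_mul_of_nonneg_right h2 hS.le
    have a2 := mul_le_mul_of_nonneg_left h1 hN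
    have a3 : (2 : ℝ) ^ C.fp * N * S = N * (2 ^ C.fp * S) := by ring
    linarith
  have h4 : (2 : ℝ) ^ fw * (2 / 3 * (N / S)) * (3 * e.mu) = 2 * 2 ^ fw * (N * e.mu) / S := by
    field_simp
  rw [h4, le_div_iff₀ hS]
  have h5 : (0 : ℝ) ≤ 2 * 2 ^ fw := by positivity
  have := mul_le_mul_of_nonneg_left h3 h5
  linarith

lemma wMe_le {C : LatCfg} {e : Ent} (fw : ℕ) {S N : ℝ} (hS : 0 < S) (hN : 0 ≤ N)
    (hT : 2 * N ≤ S ^ 2)
    (h1 : 2 ^ C.fp * S ≤ e.mu) (h2 : (negL C e : ℝ) ≤ 2 ^ C.fp * N)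
    (h3 : (posL3 C e : ℝ) ≤ 2 ^ C.fp * S) (h4 : 2 ^ C.fp * N ≤ (negU C e : ℝ)) :
    (wMe C fw e : ℝ) ≤ 2 ^ fw * (2 / 3 * (N / S) * (4 / 3 - 2 * (N / S ^ 2))) := by
  have hw := wXe_le fw hS hN h1 h2
  have hF : (0 : ℝ) < 2 ^ fw := by positivity
  have hP : (0 : ℝ) < 2 ^ C.fp := by positivity
  have hR : 0 ≤ 2 / 3 * (N / S) := by positivity
  have hfrac : N / S ^ 2 ≤ 1 / 2 := by
    rw [div_le_iff₀ (by positivity)]
    linarith
  have hTT : 0 ≤ 4 / 3 - 2 * (N / S ^ 2) := by linarith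
  set sl := posL3 C e with hsl
  rcases Nat.eq_zero_or_pos sl with h0 | hslp
  · have : wMe C fw e = 0 := by
      unfold wMe
      simp only [← hsl, h0]
      rfl
    rw [this]
    push_cast
    positivity
  have e1 : wMe C fw e = (wXe C fw e * ((4 * 2 ^ fw) / 3 - ((2 * 2 ^ fw * negU C e * 2 ^ C.fp) / (sl * sl) + 1))) / 2 ^ fw := by
    unfold wMe
    simp only [← hsl]
    have : Nat.blt 0 sl = true := by simpa using hslp
    rw [if_pos this]
    simp only [shl_eq, Nat.mul_eq, Nat.sub_eq, one_mul]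
    rfl
  rw [e1]
  set tt := (2 * 2 ^ fw * negU C e * 2 ^ C.fp) / (sl * sl) + 1 with htt
  set v2 := (4 * 2 ^ fw) / 3 - tt with hv2
  have hv : (v2 : ℝ) ≤ 2 ^ fw * (4 / 3 - 2 * (N / S ^ 2)) := by
    by_cases hc : tt ≤ (4 * 2 ^ fw) / 3
    · have c1 : (v2 : ℝ) = (((4 * 2 ^ fw) / 3 : ℕ) : ℝ) - tt := by
        rw [hv2, Nat.cast_sub hc]
      have c2 : (((4 * 2 ^ fw) / 3 : ℕ) : ℝ) ≤ 4 * 2 ^ fw / 3 := by
        have := cast_div_le' (4 * 2 ^ fw) 3
        push_cast at this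
        exact this
      have c3 : (2 * 2 ^ fw * negU C e * 2 ^ C.fp : ℕ) < (sl * sl) * tt := by
        exact Nat.lt_mul_div_succ _ (by positivity)
      have c4 : (2 : ℝ) * 2 ^ fw * (negU C e : ℝ) * 2 ^ C.fp ≤ ((sl : ℝ) * sl) * tt := by
        exact_mod_cast c3.le
      have htn : (0 : ℝ) ≤ tt := by positivity
      have c5 : ((sl : ℝ) * sl) ≤ (2 ^ C.fp * S) * (2 ^ C.fp * S) := by
        have hsl0 : (0 : ℝ) ≤ sl := by positivity
        exact mul_self_le_mul_self hsl0 h3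
      have c6 : (2 : ℝ) * 2 ^ fw * (2 ^ C.fp * N) * 2 ^ C.fp ≤ (2 ^ C.fp * S) * (2 ^ C.fp * S) * tt := by
        have a1 : (2 : ℝ) * 2 ^ fw * (2 ^ C.fp * N) * 2 ^ C.fp ≤ (2 : ℝ) * 2 ^ fw * (negU C e : ℝ) * 2 ^ C.fp := by
          have : (0 : ℝ) ≤ (2 : ℝ) * 2 ^ fw := by positivity
          have b := mul_le_mul_of_nonneg_left h4 this
          exact mul_le_mul_of_nonneg_right b hP.le
        have a2 := mul_le_mul_of_nonneg_right c5 htn
        linarith
      have c7 : (2 : ℝ) * 2 ^ fw * N ≤ S ^ 2 * tt := by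
        have hPP : (0 : ℝ) < 2 ^ C.fp * 2 ^ C.fp := by positivity
        have : (2 ^ C.fp * 2 ^ C.fp : ℝ) * ((2 : ℝ) * 2 ^ fw * N) ≤ (2 ^ C.fp * 2 ^ C.fp : ℝ) * (S ^ 2 * tt) := by
          calc _ = (2 : ℝ) * 2 ^ fw * (2 ^ C.fp * N) * 2 ^ C.fp := by ring
            _ ≤ _ := c6
            _ = _ := by ring
        exact le_of_mul_le_mul_left this hPP
      have c8 : 2 ^ fw * (2 * (N / S ^ 2)) ≤ tt := by
        have hSS : 0 < S ^ 2 := by positivity
        have : 2 ^ fw * (2 * (N / S ^ 2)) = ((2 : ℝ) * 2 ^ fw * N) / S ^ 2 := by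
          field_simp
        rw [this, div_le_iff₀ hSS]
        linarith
      rw [c1]
      have : (2 : ℝ) ^ fw * (4 / 3 - 2 * (N / S ^ 2)) = 4 * 2 ^ fw / 3 - 2 ^ fw * (2 * (N / S ^ 2)) := by ring
      rw [this]
      linarith
    · have : v2 = 0 := by omega
      rw [this]
      push_cast
      positivity
  have hprod : ((wXe C fw e : ℝ) * v2) / 2 ^ fw ≤ 2 ^ fw * (2 / 3 * (N / S) * (4 / 3 - 2 * (N / S ^ 2))) := by
    rw [div_le_iff₀ hF]
    have hw0 : (0 : ℝ) ≤ wXe C fw e := by positivity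
    have hv0 : (0 : ℝ) ≤ v2 := by positivity
    have := mul_le_mul hw hv hv0 (by positivity)
    calc _ ≤ _ := this
      _ = _ := by ring
  refine le_trans ?_ hprod
  have := cast_div_le' (wXe C fw e * v2) (2 ^ fw)
  push_cast at this
  exact this

/-! ### The final sums -/

lemma gEnts_eq (W R st Z : ℕ) (g : Ent → ℕ) (es : List Ent)
    (h : ∀ e ∈ es, digAt W R (e.p - st) = digAt W Z e.p) :
    gEnts W (Nat.sub (Nat.shiftLeft 1 W) 1) R st g es = (es.map (fun e => digAt W Z e.p * g e)).sum := by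
  induction es with
  | nil => rfl
  | cons e es ih =>
    simp only [gEnts, List.map_cons, List.sum_cons]
    rw [← ih (fun e' he' => h e' (by simp [he']))]
    have e1 : Nat.land (Nat.shiftRight R (Nat.mul W (Nat.sub e.p st))) (Nat.sub (Nat.shiftLeft 1 W) 1) =
        digAt W R (e.p - st) := digAt_dig W R (e.p - st)
    rw [e1, h e (by simp)]
    rfl

lemma gSegs_eq (W B st Z : ℕ) (g : Ent → ℕ) (ss : List Seg)
    (h : ∀ s ∈ ss, ∀ e ∈ s.es, digAt W (piece W B (s.st - st) s.ln) (e.p - s.st) = digAt W Z e.p) :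
    gSegs W (Nat.sub (Nat.shiftLeft 1 W) 1) B st g ss =
      ((ss.flatMap (fun s => s.es)).map (fun e => digAt W Z e.p * g e)).sum := by
  induction ss with
  | nil => rfl
  | cons s ss ih =>
    simp only [gSegs, List.flatMap_cons, List.map_append, List.sum_append]
    rw [← ih (fun s' hs' => h s' (by simp [hs']))]
    have := gEnts_eq W (piece W B (s.st - st) s.ln) s.st Z g s.es (h s (by simp))
    rw [← this]
    rfl

lemma gBlks_eq (W Z : ℕ) (g : Ent → ℕ) (T : List Blk) (hT : rangeOK T = true) :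
    gBlks W (Nat.sub (Nat.shiftLeft 1 W) 1) Z g T = ((flatT T).map (fun e => digAt W Z e.p * g e)).sum := by
  have hR := rangeOK_sound hT
  induction T with
  | nil => rfl
  | cons b bs ih =>
    have hbs : rangeOK bs = true := by
      simp only [rangeOK, List.all_cons, Bool.and_eq_true] at hT ⊢
      exact hT.2
    simp only [gBlks, flatT, List.flatMap_cons, List.map_append, List.sum_append]
    have h2 := ih hbs (fun b' hb' => hR b' (by simp [hb']))
    simp only [flatT] at h2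
    rw [← h2]
    have := gSegs_eq W (piece W Z b.st b.ln) b.st Z g b.ss (by
      intro s hs e he
      obtain ⟨h1, h2, h3⟩ := hR b (by simp) s hs
      obtain ⟨h4, h5⟩ := h3 e he
      rw [digAt_piece W _ _ _ _ (by omega), digAt_piece W _ _ _ _ (by omega)]
      congr 1
      omega)
    rw [← this]
    rfl

/-- From the functional on merged messages to the moment. -/
lemma moment_aux {C : LatCfg} {E : List Ent} {G : W3 → ℝ} {w : Ent → ℕ} {fw : ℕ} {val : Ent → ℕ}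
    (hw : ∀ e ∈ E, G (lat (rhoOf C) (gOf C.Wd (C.d * C.o) e.p)) ≤ -((w e : ℝ) / 2 ^ fw)) :
    (E.map (fun e => (e.m : ℝ) * (val e : ℝ) * G (lat (rhoOf C) (gOf C.Wd (C.d * C.o) e.p)))).sum ≤
      -(((E.map (fun e => val e * (e.m * w e))).sum : ℕ) : ℝ) / 2 ^ fw := by
  induction E with
  | nil => simp
  | cons e E ih =>
    simp only [List.map_cons, List.sum_cons]
    have h1 := ih (fun e' he' => hw e' (by simp [he']))
    have h2 := hw e (by simp)
    have h3 : (0 : ℝ) ≤ (e.m : ℝ) * (val e : ℝ) := by positivity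
    have h4 := mul_le_mul_of_nonneg_left h2 h3
    push_cast at h1 ⊢
    have e5 : -((val e : ℝ) * ((e.m : ℝ) * (w e : ℝ)) + ((E.map (fun e => val e * (e.m * w e))).sum : ℕ)) / 2 ^ fw =
        (e.m : ℝ) * (val e : ℝ) * -((w e : ℝ) / 2 ^ fw) + -(((E.map (fun e => val e * (e.m * w e))).sum : ℕ) : ℝ) / 2 ^ fw := by
      ring
    push_cast at e5
    rw [e5]
    linarith

lemma final_num (X A D F Y c : ℝ) (hD : 0 < D) (hF : 0 < F) (h : X - c ≤ -A / F / D)
    (hc : c * (D * F) ≤ A + Y * D) : X ≤ Y / F := by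
  rw [le_div_iff₀ hF]
  have hFD : 0 < F * D := by positivity
  have e : -A / F / D * (F * D) = -A := by
    field_simp
  have h2 := mul_le_mul_of_nonneg_right h hFD.le
  rw [sub_mul, e] at h2
  have h3 : (X * F) * D ≤ Y * D := by
    have e2 : (X * F) * D = X * (F * D) := by ring
    have e3 : c * (F * D) = c * (D * F) := by ring
    rw [e2]
    linarith
  exact le_of_mul_le_mul_right h3 hD

/-- The moments of the messages at the level after the last child law. -/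
theorem final_bound {C : LatCfg} {T : List Blk} {v : Ent} {Q fw Yn Mn k n : ℕ} (hd : C.d = k + 2)
    (hT : tableOK C T v = true) (hFin : finalOK C T Q fw Yn Mn = true) (hI : InvL C k n Q)
    {lam : ℝ} (h0 : lamOf C ≤ lam) (h1 : lam ≤ 0) :
    ∑ ξ, GG p2T (xn (k + 2) lam (n + 1) ξ) ≤ (Yn : ℝ) / 2 ^ fw ∧
      ∑ ξ, GG (fun c => p2T c ^ 2) (xn (k + 2) lam (n + 1) ξ) ≤ (Mn : ℝ) / 2 ^ fw := by
  have hTG := tableOK_good hT
  have hC := hTG.cfg
  have hD := hTG.dst
  have hr := rho_pos hC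
  obtain ⟨hb0, hb1⟩ := lam_bounds hC
  have hl0 : -1 / 2 ≤ lam := by linarith
  have hl1 : lam ≤ 1 := by linarith
  have hy := yn_fam' (d := k + 2) hl0 hl1 n
  have hk : C.d - 1 = k + 1 := by omega
  have hDom := hI lam h0 h1
  unfold finalOK at hFin
  simp only [Bool.and_eq_true, Nat.ble_eq, shl_eq, one_mul, Nat.mul_eq, Nat.sub_eq, Nat.add_eq] at hFin
  obtain ⟨htot, hA, hB⟩ := hFin
  have hs1 : ∀ M, Nat.pow M C.d = M ^ C.d := fun M => rfl
  -- the bound for any functional on merged messages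
  have hmerged : ∀ {G : W3 → ℝ}, SubC G → ∑ ξ, G (xn (k + 2) lam (n + 1) ξ) ≤
      ((flatT T).map (fun e => (e.m : ℝ) * (digAt C.W (ZOf C Q) e.p : ℝ) *
        G (lat (rhoOf C) (gOf C.Wd (C.d * C.o) e.p)))).sum / 2 ^ (C.f * C.d) := by
    intro G hG
    have e1 : ∑ ξ, G (xn (k + 2) lam (n + 1) ξ) = ∑ ξ', G (xk (yn (k + 2) lam n) (k + 1) ξ') := by
      simp only [xn_succ]
      exact Equiv.sum_comp (splitEquiv (k + 2) n) (fun ξ' => G (xk (yn (k + 2) lam n) (k + 1) ξ'))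
    rw [e1]
    have hsound : ∀ m, C.d - 1 = m → ∑ ξ', G (xk (yn (k + 2) lam n) m ξ') ≤
        ((flatT T).map (fun e => (e.m : ℝ) * (digAt C.W (ZOf C Q) e.p : ℝ) *
          G (lat (rhoOf C) (gOf C.Wd (C.d * C.o) e.p)))).sum / 2 ^ (C.f * C.d) := by
      intro m hm
      subst hm
      exact merged_bound hC hD hTG.pw hTG.ent htot hy hDom hG
    exact hsound _ hk
  have hmass : ∑ ξ, M3 (xn (k + 2) lam (n + 1) ξ) = 1 := sum_xn_mass (n + 1)
  have hDp : (0 : ℝ) < 2 ^ (C.f * C.d) := by positivity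
  have hFp : (0 : ℝ) < 2 ^ fw := by positivity
  -- the weights
  have hweights : ∀ e ∈ flatT T,
      (GG p2T (lat (rhoOf C) (gOf C.Wd (C.d * C.o) e.p)) -
          M3 (lat (rhoOf C) (gOf C.Wd (C.d * C.o) e.p)) * p2T (cen del0) ≤ -((wXe C fw e : ℝ) / 2 ^ fw)) ∧
      (GG (fun c => p2T c ^ 2) (lat (rhoOf C) (gOf C.Wd (C.d * C.o) e.p)) -
          M3 (lat (rhoOf C) (gOf C.Wd (C.d * C.o) e.p)) * p2T (cen del0) ^ 2 ≤ -((wMe C fw e : ℝ) / 2 ^ fw)) := by
    intro e he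
    have hg := hTG.ent e he
    obtain ⟨r0, r1, r2, p0, p1, p2, z0, z1, z2, b1, b2, b3, b4⟩ := ent_numbers hC hg
    obtain ⟨hS, v1, v2⟩ := lat_values hr _ z0 z1 z2
    have hN : 0 ≤ r1 * r2 + r0 * r2 + r0 * r1 := by positivity
    have hT2 : 2 * (r1 * r2 + r0 * r2 + r0 * r1) ≤ (r0 + r1 + r2) ^ 2 := by
      nlinarith [sq_nonneg r0, sq_nonneg r1, sq_nonneg r2]
    have w1 := wXe_le (C := C) (e := e) fw hS hN b2 b3
    have w2 := wMe_le (C := C) (e := e) fw hS hN hT2 b2 b3 b1 b4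
    rw [v1, v2]
    constructor
    · rw [neg_le_neg_iff, div_le_iff₀ hFp]
      linarith
    · rw [neg_le_neg_iff, div_le_iff₀ hFp]
      linarith
  have hsumA : ∀ w : Ent → ℕ, gBlks C.W (Nat.sub (Nat.shiftLeft 1 C.W) 1) (ZOf C Q) (fun e => e.m * w e) T =
      ((flatT T).map (fun e => digAt C.W (ZOf C Q) e.p * (e.m * w e))).sum :=
    fun w => gBlks_eq _ _ _ _ hTG.rng
  constructor
  · have h2 := hmerged subC_p2
    rw [Finset.sum_sub_distrib, ← Finset.sum_mul, hmass, one_mul] at h2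
    have h3 := moment_aux (C := C) (E := flatT T) (w := wXe C fw) (fw := fw)
      (val := fun e => digAt C.W (ZOf C Q) e.p) (G := fun x => GG p2T x - M3 x * p2T (cen del0))
      (fun e he => (hweights e he).1)
    set A1 := ((flatT T).map (fun e => digAt C.W (ZOf C Q) e.p * (e.m * wXe C fw e))).sum with hA1
    have h4 := div_le_div_of_nonneg_right h3 hDp.le
    have h5 := h2.trans h4
    rw [p2T_del0] at h5
    have hA' : 2 * 2 ^ (C.f * C.d + fw) ≤ 3 * (A1 + Yn * 2 ^ (C.f * C.d)) := by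
      have := hsumA (wXe C fw)
      rw [← hA1] at this
      have hZ : Nat.pow (encB C Q C.J) C.d = ZOf C Q := rfl
      simp only [hZ, Nat.sub_eq, shl_eq, one_mul] at hA this
      rw [this] at hA
      exact hA
    have hA'' : (2 : ℝ) * 2 ^ (C.f * C.d + fw) ≤ 3 * ((A1 : ℝ) + (Yn : ℝ) * 2 ^ (C.f * C.d)) := by
      exact_mod_cast hA'
    rw [pow_add] at hA''
    exact final_num _ _ _ _ _ _ hDp hFp h5 (by linarith)
  · have h2 := hmerged subC_p2sq
    rw [Finset.sum_sub_distrib, ← Finset.sum_mul, hmass, one_mul] at h2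
    have h3 := moment_aux (C := C) (E := flatT T) (w := wMe C fw) (fw := fw)
      (val := fun e => digAt C.W (ZOf C Q) e.p)
      (G := fun x => GG (fun c => p2T c ^ 2) x - M3 x * (p2T (cen del0)) ^ 2)
      (fun e he => (hweights e he).2)
    set A2 := ((flatT T).map (fun e => digAt C.W (ZOf C Q) e.p * (e.m * wMe C fw e))).sum with hA2
    have h4 := div_le_div_of_nonneg_right h3 hDp.le
    have h5 := h2.trans h4
    rw [p2T_del0] at h5
    have hA' : 4 * 2 ^ (C.f * C.d + fw) ≤ 9 * (A2 + Mn * 2 ^ (C.f * C.d)) := by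
      have := hsumA (wMe C fw)
      rw [← hA2] at this
      have hZ : Nat.pow (encB C Q C.J) C.d = ZOf C Q := rfl
      simp only [hZ, Nat.sub_eq, shl_eq, one_mul] at hB this
      rw [this] at hB
      exact hB
    have hA'' : (4 : ℝ) * 2 ^ (C.f * C.d + fw) ≤ 9 * ((A2 : ℝ) + (Mn : ℝ) * 2 ^ (C.f * C.d)) := by
      exact_mod_cast hA'
    rw [pow_add] at hA''
    refine final_num _ _ _ _ _ _ hDp hFp h5 ?_
    have e9 : ((2 : ℝ) / 3) ^ 2 = 4 / 9 := by norm_num
    rw [e9]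
    linarith

end Vale.Agent.Lib.P154Anti
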