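import Vale.Agent.Lib.P154Anti.LatLvlE
import Vale.Agent.Lib.P154Anti.LatFinal

/-!
Moment bounds at the last level of the lattice computation with rays.
-/

namespace Vale.Agent.Lib.P154Anti

open Vale.Agent.Lib.P154 Tp

/-- The value of the functionals at a vector with zero first coordinate. -/
lemma vecE_values {ρ : ℝ} (hρ : 0 < ρ) (g : ℤ × ℤ) {r1 r2 : ℝ} (h1 : ρ ^ ee g 1 = r1)
    (h2 : ρ ^ ee g 2 = r2) :
    0 < r1 + r2 ∧
    GG p2T (vecE ρ (g, {0})) - M3 (vecE ρ (g, {0})) * p2T (cen del0) =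
      -(2 / 3 * ((r1 * r2) / (r1 + r2))) ∧
    GG (fun c => p2T c ^ 2) (vecE ρ (g, {0})) - M3 (vecE ρ (g, {0})) * p2T (cen del0) ^ 2 =
      -(2 / 3 * ((r1 * r2) / (r1 + r2)) * (4 / 3 - 2 * ((r1 * r2) / (r1 + r2) ^ 2))) := by
  have p1 : 0 < r1 := by rw [← h1]; exact zpow_pos hρ _
  have p2 : 0 < r2 := by rw [← h2]; exact zpow_pos hρ _
  set S := r1 + r2 with hS
  have hSp : 0 < S := by positivity
  have hM : M3 (vecE ρ (g, {0})) = S / 3 := by
    rw [M3_vecE, h1, h2]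
  have y0 := vecE_zero_0 ρ g
  have y1 := vecE_zero_1 ρ g
  have y2 := vecE_zero_2 ρ g
  rw [h1] at y1
  rw [h2] at y2
  have hc : p2T (cen (vecE ρ (g, {0}))) = 2 / 3 - 2 * ((r1 * r2) / S ^ 2) := by
    simp only [p2T, cen, hM, y0, y1, y2]
    have hne := hSp.ne'
    field_simp
    rw [hS]
    ring
  refine ⟨hSp, ?_, ?_⟩
  · simp only [GG, hM, hc, p2T_del0]
    have hne := hSp.ne'
    field_simp
    ring
  · simp only [GG, hM, hc, p2T_del0]
    have hne := hSp.ne'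
    field_simp
    ring

/-- The numbers of an entry. -/
lemma ent_numbersE {C : LatCfg} (hC : CfgGood C) {e : Ent} (he : EntGoodE C e) : ∃ r1 r2 : ℝ, 0 < r1 ∧ 0 < r2 ∧
    rhoOf C ^ ee (gOf C.Wd (C.d * C.o) e.p) 1 = r1 ∧
    rhoOf C ^ ee (gOf C.Wd (C.d * C.o) e.p) 2 = r2 ∧
    (posL2 C e : ℝ) ≤ 2 ^ C.fp * (r1 + r2) ∧ 2 ^ C.fp * (r1 + r2) ≤ e.mu ∧
    (negLE C e : ℝ) ≤ 2 ^ C.fp * (r1 * r2) ∧
    2 ^ C.fp * (r1 * r2) ≤ (negUE C e : ℝ) := by
  have hr := rho_pos hC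
  have hs : (eA C e : ℤ) + eB C e + eC C e = 3 * ((C.d * C.o : ℕ) : ℤ) := by
    have := he.sum3
    have e2 : 3 * C.d * C.o = 3 * (C.d * C.o) := by ring
    rw [e2] at this
    exact_mod_cast this
  set g := gOf C.Wd (C.d * C.o) e.p with hg
  have e0 : ee g 0 = (eA C e : ℤ) - ((C.d * C.o : ℕ) : ℤ) := rfl
  have e1 : ee g 1 = (eB C e : ℤ) - ((C.d * C.o : ℕ) : ℤ) := rfl
  have e2 : ee g 2 = (eC C e : ℤ) - ((C.d * C.o : ℕ) : ℤ) := by
    show -((eA C e : ℤ) - ((C.d * C.o : ℕ) : ℤ)) - ((eB C e : ℤ) - ((C.d * C.o : ℕ) : ℤ)) = _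
    linarith
  have lt_a := eA_lt hC e
  have lt_b : eB C e < C.Wd := he.bw
  have lt_c : eC C e < C.Wd := by have := he.cb; omega
  obtain ⟨lb, ub⟩ := pow_bounds hC lt_b
  obtain ⟨lc, uc⟩ := pow_bounds hC lt_c
  obtain ⟨na, nua⟩ := neg_bounds hC lt_a
  rw [← e0] at na nua
  rw [← e1] at lb ub
  rw [← e2] at lc uc
  have hsum := ee_sum g
  have z0 : rhoOf C ^ (-ee g 0) = rhoOf C ^ ee g 1 * rhoOf C ^ ee g 2 := by
    rw [← zpow_add₀ hr.ne']
    congr 1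
    linarith
  rw [z0] at na nua
  have hmu : ((pw C.wp C.PU (eB C e + (C.E0 - C.d * C.o)) : ℕ) : ℝ) +
      pw C.wp C.PU (eC C e + (C.E0 - C.d * C.o)) ≤ e.mu := by
    exact_mod_cast he.mu
  refine ⟨rhoOf C ^ ee g 1, rhoOf C ^ ee g 2, zpow_pos hr _, zpow_pos hr _,
    rfl, rfl, ?_, ?_, na, nua⟩
  · have : (posL2 C e : ℝ) = (pw C.wp C.PL (eB C e + (C.E0 - C.d * C.o)) : ℝ) +
        pw C.wp C.PL (eC C e + (C.E0 - C.d * C.o)) := by
      show ((Nat.add _ _ : ℕ) : ℝ) = _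
      simp only [Nat.add_eq]
      push_cast
      rfl
    rw [this]
    linarith
  · linarith

/-- The real bound for the weights. -/
lemma wXeE_le {C : LatCfg} {e : Ent} (fw : ℕ) {S N : ℝ} (hS : 0 < S) (hN : 0 ≤ N)
    (h1 : 2 ^ C.fp * S ≤ e.mu) (h2 : (negLE C e : ℝ) ≤ 2 ^ C.fp * N) :
    (wXeE C fw e : ℝ) ≤ 2 ^ fw * (2 / 3 * (N / S)) := by
  have e1 : wXeE C fw e = (2 * 2 ^ fw * negLE C e) / (3 * e.mu) := by
    simp only [wXeE, shl_eq, Nat.mul_eq]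
    rfl
  have hP : (0 : ℝ) < 2 ^ C.fp := by positivity
  have hmu : (0 : ℝ) < e.mu := lt_of_lt_of_le (by positivity) h1
  rw [e1]
  refine (cast_div_le' _ _).trans ?_
  push_cast
  rw [div_le_iff₀ (by positivity)]
  have h3 : (negLE C e : ℝ) * S ≤ N * e.mu := by
    have a1 := mul_le_mul_of_nonneg_right h2 hS.le
    have a2 := mul_le_mul_of_nonneg_left h1 hN
    have a3 : (2 : ℝ) ^ C.fp * N * S = N * (2 ^ C.fp * S) := by ring
    linarith
  have h4 : (2 : ℝ) ^ fw * (2 / 3 * (N / S)) * (3 * e.mu) = 2 * 2 ^ fw * (N * e.mu) / S := by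
    field_simp
  rw [h4, le_div_iff₀ hS]
  have h5 : (0 : ℝ) ≤ 2 * 2 ^ fw := by positivity
  have := mul_le_mul_of_nonneg_left h3 h5
  linarith

lemma wMeE_le {C : LatCfg} {e : Ent} (fw : ℕ) {S N : ℝ} (hS : 0 < S) (hN : 0 ≤ N)
    (hT : 2 * N ≤ S ^ 2)
    (h1 : 2 ^ C.fp * S ≤ e.mu) (h2 : (negLE C e : ℝ) ≤ 2 ^ C.fp * N)
    (h3 : (posL2 C e : ℝ) ≤ 2 ^ C.fp * S) (h4 : 2 ^ C.fp * N ≤ (negUE C e : ℝ)) :
    (wMeE C fw e : ℝ) ≤ 2 ^ fw * (2 / 3 * (N / S) * (4 / 3 - 2 * (N / S ^ 2))) := by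
  have hw := wXeE_le fw hS hN h1 h2
  have hF : (0 : ℝ) < 2 ^ fw := by positivity
  have hP : (0 : ℝ) < 2 ^ C.fp := by positivity
  have hR : 0 ≤ 2 / 3 * (N / S) := by positivity
  have hfrac : N / S ^ 2 ≤ 1 / 2 := by
    rw [div_le_iff₀ (by positivity)]
    linarith
  have hTT : 0 ≤ 4 / 3 - 2 * (N / S ^ 2) := by linarith
  set sl := posL2 C e with hsl
  rcases Nat.eq_zero_or_pos sl with h0 | hslp
  · have : wMeE C fw e = 0 := by
      unfold wMeE
      simp only [← hsl, h0]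
      rfl
    rw [this]
    push_cast
    positivity
  have e1 : wMeE C fw e = (wXeE C fw e * ((4 * 2 ^ fw) / 3 - ((2 * 2 ^ fw * negUE C e * 2 ^ C.fp) / (sl * sl) + 1))) / 2 ^ fw := by
    unfold wMeE
    simp only [← hsl]
    have : Nat.blt 0 sl = true := by simpa using hslp
    rw [if_pos this]
    simp only [shl_eq, Nat.mul_eq, Nat.sub_eq, one_mul]
    rfl
  rw [e1]
  set tt := (2 * 2 ^ fw * negUE C e * 2 ^ C.fp) / (sl * sl) + 1 with htt
  set v2 := (4 * 2 ^ fw) / 3 - tt with hv2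
  have hv : (v2 : ℝ) ≤ 2 ^ fw * (4 / 3 - 2 * (N / S ^ 2)) := by
    by_cases hc : tt ≤ (4 * 2 ^ fw) / 3
    · have c1 : (v2 : ℝ) = (((4 * 2 ^ fw) / 3 : ℕ) : ℝ) - tt := by
        rw [hv2, Nat.cast_sub hc]
      have c2 : (((4 * 2 ^ fw) / 3 : ℕ) : ℝ) ≤ 4 * 2 ^ fw / 3 := by
        have := cast_div_le' (4 * 2 ^ fw) 3
        push_cast at this
        exact this
      have c3 : (2 * 2 ^ fw * negUE C e * 2 ^ C.fp : ℕ) < (sl * sl) * tt := by
        exact Nat.lt_mul_div_succ _ (by positivity)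
      have c4 : (2 : ℝ) * 2 ^ fw * (negUE C e : ℝ) * 2 ^ C.fp ≤ ((sl : ℝ) * sl) * tt := by
        exact_mod_cast c3.le
      have htn : (0 : ℝ) ≤ tt := by positivity
      have c5 : ((sl : ℝ) * sl) ≤ (2 ^ C.fp * S) * (2 ^ C.fp * S) := by
        have hsl0 : (0 : ℝ) ≤ sl := by positivity
        exact mul_self_le_mul_self hsl0 h3
      have c6 : (2 : ℝ) * 2 ^ fw * (2 ^ C.fp * N) * 2 ^ C.fp ≤ (2 ^ C.fp * S) * (2 ^ C.fp * S) * tt := by
        have a1 : (2 : ℝ) * 2 ^ fw * (2 ^ C.fp * N) * 2 ^ C.fp ≤ (2 : ℝ) * 2 ^ fw * (negUE C e : ℝ) * 2 ^ C.fp := by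
          have : (0 : ℝ) ≤ (2 : ℝ) * 2 ^ fw := by positivity
          have b := mul_le_mul_of_nonneg_left h4 this
          exact mul_le_mul_of_nonneg_right b hP.le
        have a2 := mul_le_mul_of_nonneg_right c5 htn
        linarith
      have c7 : (2 : ℝ) * 2 ^ fw * N ≤ S ^ 2 * tt := by
        have hPP : (0 : ℝ) < 2 ^ C.fp * 2 ^ C.fp := by positivity
        have : (2 ^ C.fp * 2 ^ C.fp : ℝ) * ((2 : ℝ) * 2 ^ fw * N) ≤ (2 ^ C.fp * 2 ^ C.fp : ℝ) * (S ^ 2 * tt) := by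
          calc _ = (2 : ℝ) * 2 ^ fw * (2 ^ C.fp * N) * 2 ^ C.fp := by ring
            _ ≤ _ := c6
            _ = _ := by ring
        exact le_of_mul_le_mul_left this hPP
      have c8 : 2 ^ fw * (2 * (N / S ^ 2)) ≤ tt := by
        have hSS : 0 < S ^ 2 := by positivity
        have : 2 ^ fw * (2 * (N / S ^ 2)) = ((2 : ℝ) * 2 ^ fw * N) / S ^ 2 := by
          field_simp
        rw [this, div_le_iff₀ hSS]
        linarith
      rw [c1]
      have : (2 : ℝ) ^ fw * (4 / 3 - 2 * (N / S ^ 2)) = 4 * 2 ^ fw / 3 - 2 ^ fw * (2 * (N / S ^ 2)) := by ring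
      rw [this]
      linarith
    · have : v2 = 0 := by omega
      rw [this]
      push_cast
      positivity
  have hprod : ((wXeE C fw e : ℝ) * v2) / 2 ^ fw ≤ 2 ^ fw * (2 / 3 * (N / S) * (4 / 3 - 2 * (N / S ^ 2))) := by
    rw [div_le_iff₀ hF]
    have hw0 : (0 : ℝ) ≤ wXeE C fw e := by positivity
    have hv0 : (0 : ℝ) ≤ v2 := by positivity
    have := mul_le_mul hw hv hv0 (by positivity)
    calc _ ≤ _ := this
      _ = _ := by ring
  refine le_trans ?_ hprod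
  have := cast_div_le' (wXeE C fw e * v2) (2 ^ fw)
  push_cast at this
  exact this


/-- From the functional on merged messages to the moment, for rays. -/
lemma moment_auxE {C : LatCfg} {E : List Ent} {G : W3 → ℝ} {w : Ent → ℕ} {fw : ℕ} {val : Ent → ℕ}
    (hw : ∀ e ∈ E, G (vecE (rhoOf C) (gOf C.Wd (C.d * C.o) e.p, {0})) ≤ -((w e : ℝ) / 2 ^ fw)) :
    (E.map (fun e => (e.m : ℝ) * (val e : ℝ) * G (vecE (rhoOf C) (gOf C.Wd (C.d * C.o) e.p, {0})))).sum ≤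
      -(((E.map (fun e => val e * (e.m * w e))).sum : ℕ) : ℝ) / 2 ^ fw := by
  induction E with
  | nil => simp
  | cons e E ih =>
    simp only [List.map_cons, List.sum_cons]
    have h1 := ih (fun e' he' => hw e' (by simp [he']))
    have h2 := hw e (by simp)
    have h3 : (0 : ℝ) ≤ (e.m : ℝ) * (val e : ℝ) := by positivity
    have h4 := mul_le_mul_of_nonneg_left h2 h3
    push_cast at h1 ⊢
    have e5 : -((val e : ℝ) * ((e.m : ℝ) * (w e : ℝ)) + ((E.map (fun e => val e * (e.m * w e))).sum : ℕ)) / 2 ^ fw =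
        (e.m : ℝ) * (val e : ℝ) * -((w e : ℝ) / 2 ^ fw) + -(((E.map (fun e => val e * (e.m * w e))).sum : ℕ) : ℝ) / 2 ^ fw := by
      ring
    push_cast at e5
    rw [e5]
    linarith

/-- The moments of the messages at the level after the last child law. -/
theorem final_boundE {C : LatCfg} {TI TE : List Blk} {vc Q fw Yn Mn k n : ℕ} (hd : C.d = k + 2)
    (hT : tableOKE C TI TE vc = true) (hFin : finalOKE C TI TE Q fw Yn Mn = true) (hI : InvE C k n Q)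
    {lam : ℝ} (h0 : lamOf C ≤ lam) (h1 : lam ≤ 0) :
    ∑ ξ, GG p2T (xn (k + 2) lam (n + 1) ξ) ≤ (Yn : ℝ) / 2 ^ fw ∧
      ∑ ξ, GG (fun c => p2T c ^ 2) (xn (k + 2) lam (n + 1) ξ) ≤ (Mn : ℝ) / 2 ^ fw := by
  have hTG := tableOKE_good hT
  have hC := hTG.cfg
  have hD := hTG.dst
  have hr := rho_pos hC
  obtain ⟨hb0, hb1⟩ := lam_bounds hC
  have hl0 : -1 / 2 ≤ lam := by linarith
  have hl1 : lam ≤ 1 := by linarith
  have hy := yn_fam' (d := k + 2) hl0 hl1 n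
  have hk : C.d - 1 = k + 1 := by omega
  have hDom := hI lam h0 h1
  unfold finalOKE at hFin
  simp only [Bool.and_eq_true, Nat.ble_eq, shl_eq, one_mul, Nat.mul_eq, Nat.sub_eq, Nat.add_eq] at hFin
  obtain ⟨htot, hA, hB⟩ := hFin
  set ZI := ZIof C Q with hZI
  set ZE := ZEof C Q with hZE
  -- the bound for any functional on merged messages
  have hmerged : ∀ {G : W3 → ℝ}, SubC G → ∑ ξ, G (xn (k + 2) lam (n + 1) ξ) ≤
      (((flatT TI).map (fun e => (e.m : ℝ) * (digAt C.W ZI e.p : ℝ) *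
          G (lat (rhoOf C) (gOf C.Wd (C.d * C.o) e.p)))).sum +
        ((flatT TE).map (fun e => (e.m : ℝ) * (digAt C.W ZE e.p : ℝ) *
          G (vecE (rhoOf C) (gOf C.Wd (C.d * C.o) e.p, {0})))).sum) / 2 ^ (C.f * C.d) := by
    intro G hG
    have e1 : ∑ ξ, G (xn (k + 2) lam (n + 1) ξ) = ∑ ξ', G (xk (yn (k + 2) lam n) (k + 1) ξ') := by
      simp only [xn_succ]
      exact Equiv.sum_comp (splitEquiv (k + 2) n) (fun ξ' => G (xk (yn (k + 2) lam n) (k + 1) ξ'))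
    rw [e1]
    have hsound : ∀ m, C.d - 1 = m → ∑ ξ', G (xk (yn (k + 2) lam n) m ξ') ≤
        (((flatT TI).map (fun e => (e.m : ℝ) * (digAt C.W ZI e.p : ℝ) *
          G (lat (rhoOf C) (gOf C.Wd (C.d * C.o) e.p)))).sum +
        ((flatT TE).map (fun e => (e.m : ℝ) * (digAt C.W ZE e.p : ℝ) *
          G (vecE (rhoOf C) (gOf C.Wd (C.d * C.o) e.p, {0})))).sum) / 2 ^ (C.f * C.d) := by
      intro m hm
      subst hm
      exact merged_boundE hC hTG.wide hTG.oR hD hTG.pwI hTG.entI hTG.pwE hTG.entE htot hy hDom hG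
    exact hsound _ hk
  have hmass : ∑ ξ, M3 (xn (k + 2) lam (n + 1) ξ) = 1 := sum_xn_mass (n + 1)
  have hDp : (0 : ℝ) < 2 ^ (C.f * C.d) := by positivity
  have hFp : (0 : ℝ) < 2 ^ fw := by positivity
  -- the weights
  have hweights : ∀ e ∈ flatT TI,
      (GG p2T (lat (rhoOf C) (gOf C.Wd (C.d * C.o) e.p)) -
          M3 (lat (rhoOf C) (gOf C.Wd (C.d * C.o) e.p)) * p2T (cen del0) ≤ -((wXe C fw e : ℝ) / 2 ^ fw)) ∧
      (GG (fun c => p2T c ^ 2) (lat (rhoOf C) (gOf C.Wd (C.d * C.o) e.p)) -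
          M3 (lat (rhoOf C) (gOf C.Wd (C.d * C.o) e.p)) * p2T (cen del0) ^ 2 ≤ -((wMe C fw e : ℝ) / 2 ^ fw)) := by
    intro e he
    have hg := hTG.entI e he
    obtain ⟨r0, r1, r2, p0, p1, p2, z0, z1, z2, b1, b2, b3, b4⟩ := ent_numbers hC hg
    obtain ⟨hS, v1, v2⟩ := lat_values hr _ z0 z1 z2
    have hN : 0 ≤ r1 * r2 + r0 * r2 + r0 * r1 := by positivity
    have hT2 : 2 * (r1 * r2 + r0 * r2 + r0 * r1) ≤ (r0 + r1 + r2) ^ 2 := by
      nlinarith [sq_nonneg r0, sq_nonneg r1, sq_nonneg r2]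
    have w1 := wXe_le (C := C) (e := e) fw hS hN b2 b3
    have w2 := wMe_le (C := C) (e := e) fw hS hN hT2 b2 b3 b1 b4
    rw [v1, v2]
    constructor
    · rw [neg_le_neg_iff, div_le_iff₀ hFp]
      linarith
    · rw [neg_le_neg_iff, div_le_iff₀ hFp]
      linarith
  have hweightsE : ∀ e ∈ flatT TE,
      (GG p2T (vecE (rhoOf C) (gOf C.Wd (C.d * C.o) e.p, {0})) -
          M3 (vecE (rhoOf C) (gOf C.Wd (C.d * C.o) e.p, {0})) * p2T (cen del0) ≤ -((wXeE C fw e : ℝ) / 2 ^ fw)) ∧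
      (GG (fun c => p2T c ^ 2) (vecE (rhoOf C) (gOf C.Wd (C.d * C.o) e.p, {0})) -
          M3 (vecE (rhoOf C) (gOf C.Wd (C.d * C.o) e.p, {0})) * p2T (cen del0) ^ 2 ≤ -((wMeE C fw e : ℝ) / 2 ^ fw)) := by
    intro e he
    have hg := hTG.entE e he
    obtain ⟨r1, r2, p1, p2, z1, z2, b1, b2, b3, b4⟩ := ent_numbersE hC hg
    obtain ⟨hS, v1, v2⟩ := vecE_values hr _ z1 z2
    have hN : 0 ≤ r1 * r2 := by positivity
    have hT2 : 2 * (r1 * r2) ≤ (r1 + r2) ^ 2 := by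
      nlinarith [sq_nonneg r1, sq_nonneg r2]
    have w1 := wXeE_le (C := C) (e := e) fw hS hN b2 b3
    have w2 := wMeE_le (C := C) (e := e) fw hS hN hT2 b2 b3 b1 b4
    rw [v1, v2]
    constructor
    · rw [neg_le_neg_iff, div_le_iff₀ hFp]
      linarith
    · rw [neg_le_neg_iff, div_le_iff₀ hFp]
      linarith
  have hZIe : Nat.pow (encI C Q) C.d = ZI := rfl
  have hZEe : Nat.pow (encS C Q) C.d - ZI = ZE := rfl
  have hsumI : ∀ w : Ent → ℕ, gBlks C.W (Nat.sub (Nat.shiftLeft 1 C.W) 1) ZI (fun e => e.m * w e) TI =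
      ((flatT TI).map (fun e => digAt C.W ZI e.p * (e.m * w e))).sum :=
    fun w => gBlks_eq _ _ _ _ hTG.rngI
  have hsumE : ∀ w : Ent → ℕ, gBlks C.W (Nat.sub (Nat.shiftLeft 1 C.W) 1) ZE (fun e => e.m * w e) TE =
      ((flatT TE).map (fun e => digAt C.W ZE e.p * (e.m * w e))).sum :=
    fun w => gBlks_eq _ _ _ _ hTG.rngE
  constructor
  · have h2 := hmerged subC_p2
    rw [Finset.sum_sub_distrib, ← Finset.sum_mul, hmass, one_mul] at h2
    have h3 := moment_aux (C := C) (E := flatT TI) (w := wXe C fw) (fw := fw)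
      (val := fun e => digAt C.W ZI e.p) (G := fun x => GG p2T x - M3 x * p2T (cen del0))
      (fun e he => (hweights e he).1)
    have h3' := moment_auxE (C := C) (E := flatT TE) (w := wXeE C fw) (fw := fw)
      (val := fun e => digAt C.W ZE e.p) (G := fun x => GG p2T x - M3 x * p2T (cen del0))
      (fun e he => (hweightsE e he).1)
    set A1 := ((flatT TI).map (fun e => digAt C.W ZI e.p * (e.m * wXe C fw e))).sum with hA1
    set A1' := ((flatT TE).map (fun e => digAt C.W ZE e.p * (e.m * wXeE C fw e))).sum with hA1'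
    have h4 := div_le_div_of_nonneg_right (add_le_add h3 h3') hDp.le
    have h5 := h2.trans h4
    rw [p2T_del0] at h5
    have hA' : 2 * 2 ^ (C.f * C.d + fw) ≤ 3 * ((A1 + A1') + Yn * 2 ^ (C.f * C.d)) := by
      have t1 := hsumI (wXe C fw)
      have t2 := hsumE (wXeE C fw)
      rw [← hA1] at t1
      rw [← hA1'] at t2
      simp only [hZIe, hZEe, Nat.sub_eq, shl_eq, one_mul] at hA t1 t2
      rw [t1, t2] at hA
      exact hA
    have hA'' : (2 : ℝ) * 2 ^ (C.f * C.d + fw) ≤ 3 * (((A1 : ℝ) + A1') + (Yn : ℝ) * 2 ^ (C.f * C.d)) := by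
      exact_mod_cast hA'
    rw [pow_add] at hA''
    have e6 : -((A1 : ℝ)) / 2 ^ fw + -((A1' : ℝ)) / 2 ^ fw = -((A1 : ℝ) + A1') / 2 ^ fw := by ring
    rw [e6] at h5
    exact final_num _ _ _ _ _ _ hDp hFp h5 (by linarith)
  · have h2 := hmerged subC_p2sq
    rw [Finset.sum_sub_distrib, ← Finset.sum_mul, hmass, one_mul] at h2
    have h3 := moment_aux (C := C) (E := flatT TI) (w := wMe C fw) (fw := fw)
      (val := fun e => digAt C.W ZI e.p)
      (G := fun x => GG (fun c => p2T c ^ 2) x - M3 x * (p2T (cen del0)) ^ 2)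
      (fun e he => (hweights e he).2)
    have h3' := moment_auxE (C := C) (E := flatT TE) (w := wMeE C fw) (fw := fw)
      (val := fun e => digAt C.W ZE e.p)
      (G := fun x => GG (fun c => p2T c ^ 2) x - M3 x * (p2T (cen del0)) ^ 2)
      (fun e he => (hweightsE e he).2)
    set A2 := ((flatT TI).map (fun e => digAt C.W ZI e.p * (e.m * wMe C fw e))).sum with hA2
    set A2' := ((flatT TE).map (fun e => digAt C.W ZE e.p * (e.m * wMeE C fw e))).sum with hA2'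
    have h4 := div_le_div_of_nonneg_right (add_le_add h3 h3') hDp.le
    have h5 := h2.trans h4
    rw [p2T_del0] at h5
    have hA' : 4 * 2 ^ (C.f * C.d + fw) ≤ 9 * ((A2 + A2') + Mn * 2 ^ (C.f * C.d)) := by
      have t1 := hsumI (wMe C fw)
      have t2 := hsumE (wMeE C fw)
      rw [← hA2] at t1
      rw [← hA2'] at t2
      simp only [hZIe, hZEe, Nat.sub_eq, shl_eq, one_mul] at hB t1 t2
      rw [t1, t2] at hB
      exact hB
    have hA'' : (4 : ℝ) * 2 ^ (C.f * C.d + fw) ≤ 9 * (((A2 : ℝ) + A2') + (Mn : ℝ) * 2 ^ (C.f * C.d)) := by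
      exact_mod_cast hA'
    rw [pow_add] at hA''
    have e6 : -((A2 : ℝ)) / 2 ^ fw + -((A2' : ℝ)) / 2 ^ fw = -((A2 : ℝ) + A2') / 2 ^ fw := by ring
    rw [e6] at h5
    refine final_num _ _ _ _ _ _ hDp hFp h5 ?_
    have e9 : ((2 : ℝ) / 3) ^ 2 = 4 / 9 := by norm_num
    rw [e9]
    linarith

end Vale.Agent.Lib.P154Anti
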