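import Vale.Agent.Lib.P154Anti.LatChk2
import Vale.Agent.Lib.P154Anti.LatFinalE

/-!
Soundness of the lattice computation with small intermediate numbers.
-/

namespace Vale.Agent.Lib.P154Anti

open Vale.Agent.Lib.P154

/-! ### The child tensor by rows -/

/-- The pair of a triple. -/
def valT (C : LatCfg) (Q : ℕ) (t : ℕ × ℕ × ℕ) : ℕ × ℕ := (t.1 + C.Wd * t.2.1, dig C.fq Q t.2.2)

lemma rowEnc_eq (C : LatCfg) (Q b : ℕ) (r : Row) :
    2 ^ (C.W * C.Wd * b) * rowEnc C Q r = encP C.W ((rowTrip b r).map (valT C Q)) := by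
  induction r with
  | nil => simp [rowEnc, rowTrip, encP]
  | cons p r ih =>
    have e : rowTrip b (p :: r) = (p.1, b, p.2) :: rowTrip b r := rfl
    rw [e, List.map_cons, encP_cons, ← ih]
    simp only [rowEnc, valT, shl_eq, Nat.add_eq, Nat.mul_eq, mul_add, pow_add]
    ring

lemma chunkEnc_eq (C : LatCfg) (Q : ℕ) (rs : List Row) : ∀ b,
    2 ^ (C.W * C.Wd * b) * chunkEnc C Q rs = encP C.W ((chunkTrip b rs).map (valT C Q)) := by
  induction rs with
  | nil => intro b; simp [chunkEnc, chunkTrip, encP]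
  | cons r rs ih =>
    intro b
    have e : chunkTrip b (r :: rs) = rowTrip b r ++ chunkTrip (b + 1) rs := rfl
    rw [e, List.map_append, encP_append, ← rowEnc_eq, ← ih]
    simp only [chunkEnc, shl_eq, Nat.add_eq, Nat.mul_eq, mul_add, pow_add, pow_one]
    ring

lemma allEnc_eq (C : LatCfg) (Q L : ℕ) (cs : List (List Row)) : ∀ b,
    2 ^ (C.W * C.Wd * b) * allEnc C Q L cs = encP C.W ((allTrip L b cs).map (valT C Q)) := by
  induction cs with
  | nil => intro b; simp [allEnc, allTrip, encP]
  | cons c cs ih =>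
    intro b
    have e : allTrip L b (c :: cs) = chunkTrip b c ++ allTrip L (b + L) cs := rfl
    rw [e, List.map_append, encP_append, ← chunkEnc_eq, ← ih]
    simp only [allEnc, shl_eq, Nat.add_eq, Nat.mul_eq, mul_add, pow_add]
    ring

lemma encB_orb (C : LatCfg) (Q : ℕ) : ∀ n, encB C Q n = encP C.W ((orbTrip C n).map (valT C Q))
  | 0 => rfl
  | j + 1 => by
    have e : orbTrip C (j + 1) = [(dA C j, dB C j, j), (dB C j, dC C j, j), (dC C j, dA C j, j),
        (dA C j, dC C j, j), (dB C j, dA C j, j), (dC C j, dB C j, j)] ++ orbTrip C j := rfl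
    rw [e, List.map_append, encP_append, ← encB_orb C Q j]
    simp only [encB]
    have := orbP_eq C.W C.Wd (dA C j) (dB C j) (dC C j) (dig C.fq Q j)
    show Nat.mul _ _ + encB C Q j = _
    congr 1

lemma encP_perm (W : ℕ) {l l' : List (ℕ × ℕ)} (h : l.Perm l') : encP W l = encP W l' := by
  simp only [encP]
  exact (h.map _).sum_eq

/-- The tensor by rows is the tensor of the classes. -/
lemma allEnc_encI {C : LatCfg} {P : Par2} (h : List.isPerm (allTrip P.L 0 P.rows) (orbTrip C C.J) = true)
    (Q : ℕ) : allEnc C Q P.L P.rows = encI C Q := by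
  have h1 := allEnc_eq C Q P.L P.rows 0
  simp only [mul_zero, pow_zero, one_mul] at h1
  rw [h1, encI, encB_orb]
  exact encP_perm _ ((List.isPerm_iff.mp h).map _)

lemma encS2_encI (C : LatCfg) (Q : ℕ) : encS2 C Q (encI C Q) = encS C Q := by
  simp only [encS2, encS, shl_eq, one_mul, Nat.mul_eq]

/-! ### Reading digits with reduced precision -/

lemma read2_eq (W sh R k : ℕ) (hsh : sh ≤ W) :
    Nat.land (Nat.shiftRight R (Nat.add (Nat.mul W k) sh)) (Nat.sub (Nat.shiftLeft 1 (Nat.sub W sh)) 1) =
      digAt W R k / 2 ^ sh := by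
  have e0 : Nat.sub (Nat.shiftLeft 1 (Nat.sub W sh)) 1 = 2 ^ (W - sh) - 1 := by
    rw [shl_eq, one_mul]
    rfl
  rw [e0]
  show (R >>> (W * k + sh)) &&& (2 ^ (W - sh) - 1) = _
  rw [Nat.and_two_pow_sub_one_eq_mod, Nat.shiftRight_eq_div_pow, pow_add,
    ← Nat.div_div_eq_div_mul]
  simp only [digAt]
  set r := R / 2 ^ (W * k) with hr
  have hW : 2 ^ W = 2 ^ sh * 2 ^ (W - sh) := by
    rw [← pow_add]
    congr 1
    omega
  have e1 : r % 2 ^ W / 2 ^ sh = r / 2 ^ sh % 2 ^ (W - sh) := by
    rw [hW, Nat.mod_mul_right_div_self]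
  rw [e1]

/-- The contributions of an entry to the slots of the accumulator. -/
def contrib2 (e : Ent) (v : ℕ) : List (ℕ × ℕ) :=
  [(e.j1 + 1, v * e.m * e.c1), (e.j2 + 1, v * e.m * e.c2), (e.j3 + 1, v * e.m * e.c3), (0, v * e.m * e.mu)]

/-- The contributions of the missing mass. -/
def contribV2 (J dv : ℕ) (v : Ent) (vc : ℕ) : List (ℕ × ℕ) :=
  [(v.j1 + 1, dv * v.c1), (v.j2 + 1, dv * v.c2), (v.j3 + 1, dv * v.c3), (J + 1, dv * vc)]

lemma slotAdd2_eq (wa v : ℕ) (e : Ent) : slotAdd2 wa v e = encP wa (contrib2 e v) := by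
  simp only [slotAdd2, contrib2, encP_cons, encP_nil, shl_eq, Nat.add_eq, Nat.mul_eq, Nat.succ_eq_add_one,
    add_zero, mul_zero, pow_zero, mul_one]

lemma vtxAdd2_eq (wa J dv vc : ℕ) (v : Ent) : vtxAdd2 wa J dv v vc = encP wa (contribV2 J dv v vc) := by
  simp only [vtxAdd2, contribV2, encP_cons, encP_nil, shl_eq, Nat.add_eq, Nat.mul_eq, Nat.succ_eq_add_one,
    add_zero]

section reading

variable {W sh : ℕ} (hsh : sh ≤ W) (wa Z : ℕ)

include hsh in
lemma sumEnts2_eq (R st : ℕ) (es : List Ent)
    (h : ∀ e ∈ es, digAt W R (e.p - st) = digAt W Z e.p) :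
    sumEnts2 W sh (Nat.sub (Nat.shiftLeft 1 (Nat.sub W sh)) 1) wa R st es =
      encP wa (es.flatMap (fun e => contrib2 e (digAt W Z e.p / 2 ^ sh))) := by
  induction es with
  | nil => rfl
  | cons e es ih =>
    simp only [sumEnts2, List.flatMap_cons, encP_append]
    rw [← ih (fun e' he' => h e' (by simp [he']))]
    have e1 := read2_eq W sh R (Nat.sub e.p st) hsh
    rw [e1]
    have e2 : digAt W R (Nat.sub e.p st) = digAt W Z e.p := h e (by simp)
    rw [e2, slotAdd2_eq]
    rfl

include hsh in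
lemma sumSegs2_eq (B st : ℕ) (ss : List Seg)
    (h : ∀ s ∈ ss, ∀ e ∈ s.es, digAt W (piece W B (s.st - st) s.ln) (e.p - s.st) = digAt W Z e.p) :
    sumSegs2 W sh (Nat.sub (Nat.shiftLeft 1 (Nat.sub W sh)) 1) wa B st ss =
      encP wa ((ss.flatMap (fun s => s.es)).flatMap (fun e => contrib2 e (digAt W Z e.p / 2 ^ sh))) := by
  induction ss with
  | nil => rfl
  | cons s ss ih =>
    simp only [sumSegs2, List.flatMap_cons, List.flatMap_append, encP_append]
    rw [← ih (fun s' hs' => h s' (by simp [hs']))]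
    have := sumEnts2_eq hsh wa Z (piece W B (s.st - st) s.ln) s.st s.es (h s (by simp))
    rw [← this]
    rfl

include hsh in
lemma sumBlks2_eq (Zt st : ℕ) (bs : List Blk)
    (h : ∀ b ∈ bs, ∀ s ∈ b.ss, ∀ e ∈ s.es,
      digAt W (piece W (piece W Zt (b.st - st) b.ln) (s.st - b.st) s.ln) (e.p - s.st) = digAt W Z e.p) :
    sumBlks2 W sh (Nat.sub (Nat.shiftLeft 1 (Nat.sub W sh)) 1) wa Zt st bs =
      encP wa ((flatT bs).flatMap (fun e => contrib2 e (digAt W Z e.p / 2 ^ sh))) := by
  induction bs with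
  | nil => rfl
  | cons b bs ih =>
    simp only [sumBlks2, flatT, List.flatMap_cons, List.flatMap_append, encP_append]
    have h2 := ih (fun b' hb' => h b' (by simp [hb']))
    simp only [flatT] at h2
    rw [← h2]
    have := sumSegs2_eq hsh wa Z (piece W Zt (b.st - st) b.ln) b.st b.ss (h b (by simp))
    rw [← this]
    rfl

end reading

lemma flatT_tops_cons (t : Top) (ts : List Top) :
    flatT (topsBlk (t :: ts)) = flatT t.bs ++ flatT (topsBlk ts) := by
  simp [flatT, topsBlk, List.flatMap_append]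

lemma rangeOK_append {A B : List Blk} : rangeOK (A ++ B) = true ↔ rangeOK A = true ∧ rangeOK B = true := by
  simp [rangeOK, List.all_append]

lemma topsBlk_cons (t : Top) (ts : List Top) : topsBlk (t :: ts) = t.bs ++ topsBlk ts := by
  simp [topsBlk]

lemma sumTops2_eq {W sh : ℕ} (hsh : sh ≤ W) (wa Z : ℕ) (T : List Top) (h2 : rangeOK2 T = true)
    (h1 : rangeOK (topsBlk T) = true) :
    sumTops2 W sh (Nat.sub (Nat.shiftLeft 1 (Nat.sub W sh)) 1) wa Z T =
      encP wa ((flatT (topsBlk T)).flatMap (fun e => contrib2 e (digAt W Z e.p / 2 ^ sh))) := by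
  induction T with
  | nil => rfl
  | cons t ts ih =>
    rw [topsBlk_cons, rangeOK_append] at h1
    have h2' : rangeOK2 ts = true := by
      simp only [rangeOK2, List.all_cons, Bool.and_eq_true] at h2 ⊢
      exact h2.2
    have h3 : ∀ b ∈ t.bs, t.st ≤ b.st ∧ b.st + b.ln ≤ t.st + t.ln := by
      intro b hb
      simp only [rangeOK2, List.all_cons, List.all_eq_true, Bool.and_eq_true, Nat.ble_eq] at h2
      exact h2.1.1 b hb
    simp only [sumTops2]
    rw [flatT_tops_cons, List.flatMap_append, encP_append, ← ih h2' h1.2]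
    have hR := rangeOK_sound h1.1
    have := sumBlks2_eq hsh wa Z (piece W Z t.st t.ln) t.st t.bs (by
      intro b hb s hs e he
      obtain ⟨h4, h5, h6⟩ := hR b hb s hs
      obtain ⟨h7, h8⟩ := h6 e he
      obtain ⟨h9, h10⟩ := h3 b hb
      rw [digAt_piece W _ _ _ _ (by omega), digAt_piece W _ _ _ _ (by omega),
        digAt_piece W _ _ _ _ (by omega)]
      congr 1
      omega)
    rw [← this]
    rfl

lemma gBlks2_eq (W Z : ℕ) (g : Ent → ℕ) (Zt st : ℕ) (bs : List Blk)
    (h : ∀ b ∈ bs, ∀ s ∈ b.ss, ∀ e ∈ s.es,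
      digAt W (piece W (piece W Zt (b.st - st) b.ln) (s.st - b.st) s.ln) (e.p - s.st) = digAt W Z e.p) :
    gBlks2 W (Nat.sub (Nat.shiftLeft 1 W) 1) Zt st g bs =
      ((flatT bs).map (fun e => digAt W Z e.p * g e)).sum := by
  induction bs with
  | nil => rfl
  | cons b bs ih =>
    simp only [gBlks2, flatT, List.flatMap_cons, List.map_append, List.sum_append]
    have h2 := ih (fun b' hb' => h b' (by simp [hb']))
    simp only [flatT] at h2
    rw [← h2]
    have := gSegs_eq W (piece W Zt (b.st - st) b.ln) b.st Z g b.ss (h b (by simp))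
    rw [← this]
    rfl

lemma gTops_eq (W Z : ℕ) (g : Ent → ℕ) (T : List Top) (h2 : rangeOK2 T = true)
    (h1 : rangeOK (topsBlk T) = true) :
    gTops W (Nat.sub (Nat.shiftLeft 1 W) 1) Z g T =
      ((flatT (topsBlk T)).map (fun e => digAt W Z e.p * g e)).sum := by
  induction T with
  | nil => rfl
  | cons t ts ih =>
    rw [topsBlk_cons, rangeOK_append] at h1
    have h2' : rangeOK2 ts = true := by
      simp only [rangeOK2, List.all_cons, Bool.and_eq_true] at h2 ⊢
      exact h2.2
    have h3 : ∀ b ∈ t.bs, t.st ≤ b.st ∧ b.st + b.ln ≤ t.st + t.ln := by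
      intro b hb
      simp only [rangeOK2, List.all_cons, List.all_eq_true, Bool.and_eq_true, Nat.ble_eq] at h2
      exact h2.1.1 b hb
    simp only [gTops]
    rw [flatT_tops_cons, List.map_append, List.sum_append, ← ih h2' h1.2]
    have hR := rangeOK_sound h1.1
    have := gBlks2_eq W Z g (piece W Z t.st t.ln) t.st t.bs (by
      intro b hb s hs e he
      obtain ⟨h4, h5, h6⟩ := hR b hb s hs
      obtain ⟨h7, h8⟩ := h6 e he
      obtain ⟨h9, h10⟩ := h3 b hb
      rw [digAt_piece W _ _ _ _ (by omega), digAt_piece W _ _ _ _ (by omega),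
        digAt_piece W _ _ _ _ (by omega)]
      congr 1
      omega)
    rw [← this]
    rfl

/-! ### Totals -/

lemma sum_coef_le (l : List (ℕ × ℕ)) {E : List Ent} (hE : E.Pairwise (fun e e' => e.p < e'.p)) :
    (E.map (fun e => coefP l e.p)).sum ≤ totP l := by
  induction l with
  | nil => simp [coefP, totP]
  | cons a l ih =>
    have h1 : ∀ E' : List Ent, E'.Pairwise (fun e e' => e.p < e'.p) →
        (E'.map (fun e => if a.1 = e.p then a.2 else 0)).sum ≤ a.2 := by
      intro E' hE'
      induction E' with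
      | nil => simp
      | cons e E' ih' =>
        rw [List.pairwise_cons] at hE'
        simp only [List.map_cons, List.sum_cons]
        by_cases h : a.1 = e.p
        · have : (E'.map (fun e => if a.1 = e.p then a.2 else 0)).sum = 0 := by
            apply List.sum_eq_zero
            intro x hx
            obtain ⟨e', he', rfl⟩ := List.mem_map.mp hx
            have := hE'.1 e' he'
            have hne : a.1 ≠ e'.p := by omega
            simp [hne]
          rw [this, if_pos h]
          omega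
        · rw [if_neg h, zero_add]
          exact ih' hE'.2
    have e1 : (E.map (fun e => coefP (a :: l) e.p)).sum =
        (E.map (fun e => if a.1 = e.p then a.2 else 0)).sum + (E.map (fun e => coefP l e.p)).sum := by
      rw [← List.sum_map_add]
      apply congrArg
      apply List.map_congr_left
      intro e _
      rw [coefP_cons]
    rw [e1, totP_cons]
    exact add_le_add (h1 E hE) ih

lemma sum_div_le (E : List Ent) (d : Ent → ℕ) (s : ℕ) :
    (E.map (fun e => d e / s)).sum ≤ (E.map d).sum / s := by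
  induction E with
  | nil => simp
  | cons e E ih =>
    simp only [List.map_cons, List.sum_cons]
    exact (Nat.add_le_add_left ih _).trans Nat.div_add_div_le_add_div

/-- The total of the slots of a table. -/
lemma totP_slots2 {Cm : ℕ} {E : List Ent}
    (hC : ∀ e ∈ E, e.m * (e.c1 + (e.c2 + (e.c3 + e.mu))) ≤ Cm) (val : Ent → ℕ) :
    totP (E.flatMap (fun e => contrib2 e (val e))) ≤ (E.map val).sum * Cm := by
  induction E with
  | nil => simp [totP]
  | cons e E ih =>
    simp only [List.flatMap_cons, totP_append, List.map_cons, List.sum_cons, add_mul]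
    have h1 := ih (fun e' he' => hC e' (by simp [he']))
    have h2 := hC e (by simp)
    refine add_le_add ?_ h1
    have e3 : totP (contrib2 e (val e)) = val e * (e.m * (e.c1 + (e.c2 + (e.c3 + e.mu)))) := by
      simp only [contrib2, totP_cons, totP]
      simp
      ring
    rw [e3]
    exact Nat.mul_le_mul_left _ h2

end Vale.Agent.Lib.P154Anti
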