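import Vale.Agent.Lib.P154Anti.LatChk3
import Vale.Agent.Lib.P154Anti.LatLvl2

/-!
Soundness of the computations of `LatChk3`.
-/

namespace Vale.Agent.Lib.P154Anti

open Vale.Agent.Lib.P154

/-! ### The merge sort is a permutation -/

lemma mergeL_perm {α : Type} (le : α → α → Bool) : ∀ (n : ℕ) (xs ys : List α),
    (mergeL le n xs ys).Perm (xs ++ ys)
  | 0, xs, ys => by simp [mergeL]
  | _ + 1, [], ys => by simp [mergeL]
  | _ + 1, x :: xs, [] => by simp [mergeL]
  | n + 1, x :: xs, y :: ys => by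
    simp only [mergeL]
    cases h : le x y
    · simp only [cond_false]
      have := mergeL_perm le n (x :: xs) ys
      refine (this.cons y).trans ?_
      exact (List.perm_middle (l₁ := x :: xs) (l₂ := ys) (a := y)).symm
    · simp only [cond_true]
      have := mergeL_perm le n xs (y :: ys)
      simpa using this

lemma mergePass_perm {α : Type} (le : α → α → Bool) (fuel : ℕ) : ∀ l : List (List α),
    ((mergePass le fuel l).flatten).Perm l.flatten
  | [] => by simp [mergePass]
  | [a] => by simp [mergePass]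
  | a :: b :: r => by
    simp only [mergePass, List.flatten_cons]
    have h1 := mergeL_perm le fuel a b
    have h2 := mergePass_perm le fuel r
    rw [← List.append_assoc]
    exact h1.append h2

lemma msortN_perm {α : Type} (le : α → α → Bool) (fuel : ℕ) : ∀ (n : ℕ) (l : List (List α)),
    ((msortN le fuel n l).flatten).Perm l.flatten
  | 0, l => by simp [msortN]
  | n + 1, l => by
    simp only [msortN]
    exact (msortN_perm le fuel n _).trans (mergePass_perm le fuel l)

lemma msort_perm {α : Type} (le : α → α → Bool) (l : List α) : (msort le l).Perm l := by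
  have e : ∀ l : List α, (l.map (fun a => [a])).flatten = l := by
    intro l
    induction l with
    | nil => rfl
    | cons a l ih => simpa using ih
  have h := msortN_perm le 1073741824 24 (l.map (fun a => [a]))
  rw [e] at h
  exact h

/-! ### The child tensor -/

lemma dig_piece (w Q st n k : ℕ) (hk : k < n) : dig w (piece w Q st n) k = dig w Q (st + k) := by
  rw [digAt_dig, digAt_dig, digAt_piece _ _ _ _ _ hk]

lemma winEnc_eq (C : LatCfg) (Lq Q b a0 : ℕ) (it : List Itm) (h : ∀ i ∈ it, i.k < Lq) :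
    2 ^ (C.W * (a0 + C.Wd * b)) * winEnc C Lq Q it = encP C.W ((winTrip b a0 it).map (valT C Q)) := by
  induction it with
  | nil => simp [winEnc, winTrip, encP]
  | cons i it ih =>
    obtain ⟨a, ci, k⟩ := i
    have hk : k < Lq := h ⟨a, ci, k⟩ (by simp)
    have e : winTrip b a0 (⟨a, ci, k⟩ :: it) = (a0 + a, b, ci + k) :: winTrip b a0 it := rfl
    rw [e, List.map_cons, encP_cons, ← ih (fun i hi => h i (by simp [hi]))]
    simp only [winEnc, valT, shl_eq, Nat.add_eq, Nat.mul_eq, mul_add, pow_add, dig_piece _ _ _ _ _ hk]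
    ring

lemma rowEnc3_eq (C : LatCfg) (Lq Q b : ℕ) (r : Row3) (h : r.all (fun w => w.it.all (fun i => Nat.blt i.k Lq)) = true) :
    2 ^ (C.W * C.Wd * b) * rowEnc3 C Lq Q r = encP C.W ((rowTrip3 b r).map (valT C Q)) := by
  induction r with
  | nil => simp [rowEnc3, rowTrip3, encP]
  | cons w ws ih =>
    simp only [List.all_cons, Bool.and_eq_true] at h
    have hk : ∀ i ∈ w.it, i.k < Lq := by
      intro i hi
      have := h.1
      simp only [List.all_eq_true, Nat.blt_eq] at this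
      exact this i hi
    have e : rowTrip3 b (w :: ws) = winTrip b w.a0 w.it ++ rowTrip3 b ws := by
      simp [rowTrip3]
    rw [e, List.map_append, encP_append, ← ih h.2, ← winEnc_eq C Lq Q b w.a0 w.it hk]
    simp only [rowEnc3, shl_eq, Nat.add_eq, Nat.mul_eq, mul_add, pow_add]
    ring

lemma chunkEnc3_eq (C : LatCfg) (Lq Q : ℕ) (rs : List Row3)
    (h : rs.all (fun r => r.all (fun w => w.it.all (fun i => Nat.blt i.k Lq))) = true) : ∀ b,
    2 ^ (C.W * C.Wd * b) * chunkEnc3 C Lq Q rs = encP C.W ((chunkTrip3 b rs).map (valT C Q)) := by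
  induction rs with
  | nil => intro b; simp [chunkEnc3, chunkTrip3, encP]
  | cons r rs ih =>
    intro b
    simp only [List.all_cons, Bool.and_eq_true] at h
    have e : chunkTrip3 b (r :: rs) = rowTrip3 b r ++ chunkTrip3 (b + 1) rs := rfl
    rw [e, List.map_append, encP_append, ← rowEnc3_eq C Lq Q b r h.1, ← ih h.2]
    simp only [chunkEnc3, shl_eq, Nat.add_eq, Nat.mul_eq, mul_add, pow_add, pow_one]
    ring

lemma allEnc3_eq (C : LatCfg) (Lq Q L : ℕ) (cs : List (List Row3)) (h : rowsOK Lq cs = true) : ∀ b,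
    2 ^ (C.W * C.Wd * b) * allEnc3 C Lq Q L cs = encP C.W ((allTrip3 L b cs).map (valT C Q)) := by
  induction cs with
  | nil => intro b; simp [allEnc3, allTrip3, encP]
  | cons c cs ih =>
    intro b
    simp only [rowsOK, List.all_cons, Bool.and_eq_true] at h
    have e : allTrip3 L b (c :: cs) = chunkTrip3 b c ++ allTrip3 L (b + L) cs := rfl
    rw [e, List.map_append, encP_append, ← chunkEnc3_eq C Lq Q c h.1 b, ← ih h.2]
    simp only [allEnc3, shl_eq, Nat.add_eq, Nat.mul_eq, mul_add, pow_add]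
    ring

/-- The tensor by windows is the tensor of the classes. -/
lemma allEnc3_encI {C : LatCfg} {P : Par3} (h0 : rowsOK P.Lq P.rows = true)
    (h : List.isPerm (allTrip3 P.L 0 P.rows) (msort (trLe C.Wd) (orbTrip C C.J)) = true)
    (Q : ℕ) : allEnc3 C P.Lq Q P.L P.rows = encI C Q := by
  have h1 := allEnc3_eq C P.Lq Q P.L P.rows h0 0
  simp only [mul_zero, pow_zero, one_mul] at h1
  rw [h1, encI, encB_orb]
  exact encP_perm _ (((List.isPerm_iff.mp h).trans (msort_perm _ _)).map _)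

/-! ### Chunks of masses -/

lemma totQ_mono (C : LatCfg) (Q : ℕ) {m n : ℕ} (h : m ≤ n) : totQ C Q m ≤ totQ C Q n := by
  induction n, h using Nat.le_induction with
  | base => exact le_rfl
  | succ n _ ih =>
    have e : totQ C Q (n + 1) = dig C.fq Q n + totQ C Q n := rfl
    omega

lemma totChunk_eq (C : LatCfg) (Q st L : ℕ) : ∀ n, n ≤ L →
    totQ C Q (st + n) = totChunk C (piece C.fq Q st L) n + totQ C Q st
  | 0, _ => by simp [totChunk]
  | n + 1, h => by
    have e1 : totQ C Q (st + (n + 1)) = dig C.fq Q (st + n) + totQ C Q (st + n) := rfl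
    have e2 : totChunk C (piece C.fq Q st L) (n + 1) =
        dig C.fq (piece C.fq Q st L) n + totChunk C (piece C.fq Q st L) n := rfl
    rw [e1, e2, totChunk_eq C Q st L n (by omega), dig_piece _ _ _ _ _ (by omega)]
    omega

lemma totCh_eq (C : LatCfg) (Lq Q : ℕ) : ∀ n, totQ C Q (n * Lq) = totCh C Lq Q n
  | 0 => by simp [totQ, totCh]
  | n + 1 => by
    have e2 : totCh C Lq Q (n + 1) = totChunk C (piece C.fq Q (n * Lq) Lq) Lq + totCh C Lq Q n := rfl
    have e3 : (n + 1) * Lq = n * Lq + Lq := by ring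
    rw [e2, e3, totChunk_eq C Q (n * Lq) Lq Lq le_rfl, totCh_eq C Lq Q n]

lemma chkChunk_sound {C : LatCfg} {S0 Ac Qc : ℕ} : ∀ n, chkChunk C S0 Ac Qc n = true →
    ∀ k, k < n → dig C.fq Qc k * S0 ≤ dig C.wa Ac k
  | 0, _, _, hk => by omega
  | n + 1, h, k, hk => by
    simp only [chkChunk, Bool.and_eq_true, Nat.ble_eq, Nat.mul_eq] at h
    rcases Nat.lt_or_eq_of_le (Nat.le_of_lt_succ hk) with hk | rfl
    · exact chkChunk_sound n h.2 k hk
    · exact h.1

lemma chkCh_sound {C : LatCfg} {Lq S0 Acc Q' : ℕ} : ∀ n, chkCh C Lq S0 Acc Q' n = true →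
    ∀ i k, i < n → k < Lq → dig C.fq Q' (i * Lq + k) * S0 ≤ dig C.wa Acc (i * Lq + k + 1)
  | 0, _, _, _, hi, _ => by omega
  | n + 1, h, i, k, hi, hk => by
    simp only [chkCh, Bool.and_eq_true] at h
    rcases Nat.lt_or_eq_of_le (Nat.le_of_lt_succ hi) with hi | rfl
    · exact chkCh_sound n h.2 i k hi hk
    · have := chkChunk_sound Lq h.1 k hk
      rw [dig_piece _ _ _ _ _ hk, dig_piece _ _ _ _ _ hk] at this
      have e : Nat.succ (Nat.mul i Lq) + k = i * Lq + k + 1 := by
        show i * Lq + 1 + k = _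
        omega
      rw [e] at this
      exact this

lemma chkCh_all {C : LatCfg} {Lq S0 Acc Q' nc : ℕ} (hL : 0 < Lq) (h : chkCh C Lq S0 Acc Q' nc = true)
    {j : ℕ} (hj : j < nc * Lq) : dig C.fq Q' j * S0 ≤ dig C.wa Acc (j + 1) := by
  have hi : j / Lq < nc := by
    rw [Nat.div_lt_iff_lt_mul hL]
    exact hj
  have hk : j % Lq < Lq := Nat.mod_lt _ hL
  have := chkCh_sound nc h (j / Lq) (j % Lq) hi hk
  have e : j / Lq * Lq + j % Lq = j := Nat.div_add_mod' j Lq
  rwa [e] at this

/-! ### The sums over tables -/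

/-- The contributions of an entry to the slots of the classes. -/
def contribC (e : Ent) (v : ℕ) : List (ℕ × ℕ) :=
  [(e.j1 + 1, v * e.m * e.c1), (e.j2 + 1, v * e.m * e.c2), (e.j3 + 1, v * e.m * e.c3)]

lemma relAdd_eq (wa off v : ℕ) (e : Ent) (h1 : off ≤ e.j1) (h2 : off ≤ e.j2) (h3 : off ≤ e.j3) :
    2 ^ (wa * (off + 1)) * relAdd wa off v e = encP wa (contribC e v) := by
  have e1 : wa * (e.j1 + 1) = wa * (off + 1) + wa * (e.j1 - off) := by
    rw [← mul_add]; congr 1; omega
  have e2 : wa * (e.j2 + 1) = wa * (off + 1) + wa * (e.j2 - off) := by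
    rw [← mul_add]; congr 1; omega
  have e3 : wa * (e.j3 + 1) = wa * (off + 1) + wa * (e.j3 - off) := by
    rw [← mul_add]; congr 1; omega
  simp only [relAdd, contribC, encP_cons, encP_nil, shl_eq, Nat.add_eq, Nat.mul_eq, Nat.sub_eq, e1, e2, e3,
    pow_add, add_zero]
  ring

section reading

variable {W sh : ℕ} (hsh : sh ≤ W)

lemma rdD_eq (hsh : sh ≤ W) (R k : ℕ) :
    rdD W sh (Nat.sub (Nat.shiftLeft 1 (Nat.sub W sh)) 1) R k = digAt W R k / 2 ^ sh :=
  read2_eq W sh R k hsh

include hsh in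
lemma relEnts_eq (wa off Z R st : ℕ) (es : List Ent)
    (h : ∀ e ∈ es, digAt W R (e.p - st) = digAt W Z e.p)
    (ho : ∀ e ∈ es, off ≤ e.j1 ∧ off ≤ e.j2 ∧ off ≤ e.j3) :
    2 ^ (wa * (off + 1)) * relEnts W sh (Nat.sub (Nat.shiftLeft 1 (Nat.sub W sh)) 1) wa off R st es =
      encP wa (es.flatMap (fun e => contribC e (digAt W Z e.p / 2 ^ sh))) := by
  induction es with
  | nil => simp [relEnts, encP]
  | cons e es ih =>
    simp only [relEnts, List.flatMap_cons, encP_append]
    rw [← ih (fun e' he' => h e' (by simp [he'])) (fun e' he' => ho e' (by simp [he']))]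
    obtain ⟨o1, o2, o3⟩ := ho e (by simp)
    have e1 : rdD W sh (Nat.sub (Nat.shiftLeft 1 (Nat.sub W sh)) 1) R (Nat.sub e.p st) = digAt W Z e.p / 2 ^ sh := by
      rw [rdD_eq hsh]
      have := h e (by simp)
      exact congrArg (· / 2 ^ sh) this
    rw [e1, ← relAdd_eq wa off _ e o1 o2 o3]
    simp only [Nat.add_eq, mul_add]

lemma gEnts3_eq (hsh : sh ≤ W) (Z R st : ℕ) (g : Ent → ℕ) (es : List Ent)
    (h : ∀ e ∈ es, digAt W R (e.p - st) = digAt W Z e.p) :
    gEnts3 W sh (Nat.sub (Nat.shiftLeft 1 (Nat.sub W sh)) 1) R st g es =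
      (es.map (fun e => digAt W Z e.p / 2 ^ sh * g e)).sum := by
  induction es with
  | nil => rfl
  | cons e es ih =>
    simp only [gEnts3, List.map_cons, List.sum_cons]
    rw [← ih (fun e' he' => h e' (by simp [he']))]
    have e1 : rdD W sh (Nat.sub (Nat.shiftLeft 1 (Nat.sub W sh)) 1) R (Nat.sub e.p st) = digAt W Z e.p / 2 ^ sh := by
      rw [rdD_eq hsh]
      have := h e (by simp)
      exact congrArg (· / 2 ^ sh) this
    rw [e1]
    rfl

lemma segP_eq (W Tp tst : ℕ) (s : Seg3) :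
    segP W Tp tst s = piece W (piece W Tp s.rs s.rl) (Nat.sub s.st (Nat.add tst s.rs)) s.ln := by
  cases s; rfl

include hsh in
lemma relSegs_eq (wa off Z Tp tst : ℕ) (ss : List Seg3)
    (h : ∀ s ∈ ss, ∀ e ∈ s.es, digAt W (segP W Tp tst s) (e.p - s.st) = digAt W Z e.p)
    (ho : ∀ s ∈ ss, ∀ e ∈ s.es, off ≤ e.j1 ∧ off ≤ e.j2 ∧ off ≤ e.j3) :
    2 ^ (wa * (off + 1)) * relSegs W sh (Nat.sub (Nat.shiftLeft 1 (Nat.sub W sh)) 1) wa off Tp tst ss =
      encP wa ((ss.flatMap (fun s => s.es)).flatMap (fun e => contribC e (digAt W Z e.p / 2 ^ sh))) := by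
  induction ss with
  | nil => simp [relSegs, encP]
  | cons s ss ih =>
    simp only [relSegs, List.flatMap_cons, List.flatMap_append, encP_append]
    rw [← ih (fun s' hs' => h s' (by simp [hs'])) (fun s' hs' => ho s' (by simp [hs']))]
    rw [← relEnts_eq hsh wa off Z (segP W Tp tst s) s.st s.es (h s (by simp)) (ho s (by simp))]
    simp only [Nat.add_eq, mul_add]

lemma gSegs3_eq (hsh : sh ≤ W) (Z Tp tst : ℕ) (g : Ent → ℕ) (ss : List Seg3)
    (h : ∀ s ∈ ss, ∀ e ∈ s.es, digAt W (segP W Tp tst s) (e.p - s.st) = digAt W Z e.p) :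
    gSegs3 W sh (Nat.sub (Nat.shiftLeft 1 (Nat.sub W sh)) 1) Tp tst g ss =
      ((ss.flatMap (fun s => s.es)).map (fun e => digAt W Z e.p / 2 ^ sh * g e)).sum := by
  induction ss with
  | nil => rfl
  | cons s ss ih =>
    simp only [gSegs3, List.flatMap_cons, List.map_append, List.sum_append]
    rw [← ih (fun s' hs' => h s' (by simp [hs']))]
    rw [← gEnts3_eq hsh Z (segP W Tp tst s) s.st g s.es (h s (by simp))]
    rfl

end reading

/-- The entries of a list of cells. -/
def cellEnts (cs : List Cell) : List Ent := cs.flatMap (fun c => c.ss.flatMap (fun s => s.es))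

/-- The entries of a list of top pieces. -/
def topEnts (ts : List Top3) : List Ent := ts.flatMap (fun t => cellEnts t.cs)

/-- The entries of a list of larger pieces. -/
def midEnts (ms : List Mid3) : List Ent := ms.flatMap (fun m => topEnts m.ts)

lemma tabEnts_eq (T : Tab3) : tabEnts T = midEnts T.ms := by
  simp only [tabEnts, tabSegs, midEnts, topEnts, cellEnts, List.flatMap_assoc]

/-- The conditions on a segment. -/
structure SegGood (Tst Tln mst mln : ℕ) (t : Top3) (c : Cell) (s : Seg3) : Prop where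
  m1 : Tst ≤ mst
  m2 : mst + mln ≤ Tst + Tln
  t1 : mst ≤ t.st
  t2 : t.st + t.ln ≤ mst + mln
  s1 : s.rs + s.rl ≤ t.ln
  s2 : t.st + s.rs ≤ s.st
  s3 : s.st + s.ln ≤ t.st + s.rs + s.rl
  e1 : ∀ e ∈ s.es, s.st ≤ e.p ∧ e.p < s.st + s.ln
  o1 : ∀ e ∈ s.es, c.off ≤ e.j1 ∧ c.off ≤ e.j2 ∧ c.off ≤ e.j3

lemma rangeOK3_sound {T : Tab3} (h : rangeOK3 T = true) : ∀ m ∈ T.ms, ∀ t ∈ m.ts, ∀ c ∈ t.cs, ∀ s ∈ c.ss,
    SegGood T.st T.ln m.st m.ln t c s := by
  intro m hm t ht c hc s hs
  simp only [rangeOK3, List.all_eq_true, Bool.and_eq_true, Nat.ble_eq, Nat.blt_eq, Nat.add_eq] at h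
  obtain ⟨a1, a2, a3⟩ := h m hm
  obtain ⟨b1, b2, b3⟩ := a3 t ht
  obtain ⟨c1, c2, c3, c4⟩ := b3 c hc s hs
  exact ⟨a1, a2, b1, b2, c1, c2, c3, fun e he => ⟨(c4 e he).1, (c4 e he).2.1⟩,
    fun e he => (c4 e he).2.2⟩

lemma read_chain {W Z Tst Tln mst mln : ℕ} {t : Top3} {c : Cell} {s : Seg3} (h : SegGood Tst Tln mst mln t c s)
    {e : Ent} (he : e ∈ s.es) :
    digAt W (segP W (piece W (piece W (piece W Z Tst Tln) (mst - Tst) mln) (t.st - mst) t.ln) t.st s) (e.p - s.st) =
      digAt W Z e.p := by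
  obtain ⟨h1, h2⟩ := h.e1 e he
  have := h.m1
  have := h.m2
  have := h.t1
  have := h.t2
  have := h.s1
  have := h.s2
  have := h.s3
  rw [segP_eq]
  show digAt W (piece W (piece W _ _ _) (s.st - (t.st + s.rs)) _) _ = _
  rw [digAt_piece W _ _ _ _ (by omega), digAt_piece W _ _ _ _ (by omega), digAt_piece W _ _ _ _ (by omega),
    digAt_piece W _ _ _ _ (by omega), digAt_piece W _ _ _ _ (by omega)]
  congr 1
  omega

section tables

variable {W sh : ℕ}

lemma clsCells_eq (hsh : sh ≤ W) (wa Z Tp tst : ℕ) (cs : List Cell)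
    (h : ∀ c ∈ cs, ∀ s ∈ c.ss, ∀ e ∈ s.es, digAt W (segP W Tp tst s) (e.p - s.st) = digAt W Z e.p)
    (ho : ∀ c ∈ cs, ∀ s ∈ c.ss, ∀ e ∈ s.es, c.off ≤ e.j1 ∧ c.off ≤ e.j2 ∧ c.off ≤ e.j3) :
    clsCells W sh (Nat.sub (Nat.shiftLeft 1 (Nat.sub W sh)) 1) wa Tp tst cs =
      encP wa ((cellEnts cs).flatMap (fun e => contribC e (digAt W Z e.p / 2 ^ sh))) := by
  induction cs with
  | nil => rfl
  | cons c cs ih =>
    have e0 : cellEnts (c :: cs) = c.ss.flatMap (fun s => s.es) ++ cellEnts cs := by simp [cellEnts]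
    simp only [clsCells]
    rw [e0, List.flatMap_append, encP_append, ← ih (fun c' hc' => h c' (by simp [hc']))
      (fun c' hc' => ho c' (by simp [hc']))]
    rw [← relSegs_eq hsh wa c.off Z Tp tst c.ss (h c (by simp)) (ho c (by simp))]
    simp only [Nat.add_eq, shl_eq, Nat.mul_eq, Nat.succ_eq_add_one]
    ring

lemma gCells3_eq (hsh : sh ≤ W) (Z Tp tst : ℕ) (g : Ent → ℕ) (cs : List Cell)
    (h : ∀ c ∈ cs, ∀ s ∈ c.ss, ∀ e ∈ s.es, digAt W (segP W Tp tst s) (e.p - s.st) = digAt W Z e.p) :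
    gCells3 W sh (Nat.sub (Nat.shiftLeft 1 (Nat.sub W sh)) 1) Tp tst g cs =
      ((cellEnts cs).map (fun e => digAt W Z e.p / 2 ^ sh * g e)).sum := by
  induction cs with
  | nil => rfl
  | cons c cs ih =>
    have e0 : cellEnts (c :: cs) = c.ss.flatMap (fun s => s.es) ++ cellEnts cs := by simp [cellEnts]
    simp only [gCells3]
    rw [e0, List.map_append, List.sum_append, ← ih (fun c' hc' => h c' (by simp [hc']))]
    rw [← gSegs3_eq hsh Z Tp tst g c.ss (h c (by simp))]
    rfl

/-- The hypotheses on a list of top pieces. -/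
def TopsGood (Tst Tln mst mln : ℕ) (ts : List Top3) : Prop :=
  ∀ t ∈ ts, ∀ c ∈ t.cs, ∀ s ∈ c.ss, SegGood Tst Tln mst mln t c s

lemma clsTops_eq (hsh : sh ≤ W) (wa Z Tst Tln mst mln : ℕ) (ts : List Top3) (h : TopsGood Tst Tln mst mln ts) :
    clsTops W sh (Nat.sub (Nat.shiftLeft 1 (Nat.sub W sh)) 1) wa
        (piece W (piece W Z Tst Tln) (mst - Tst) mln) mst ts =
      encP wa ((topEnts ts).flatMap (fun e => contribC e (digAt W Z e.p / 2 ^ sh))) := by
  induction ts with
  | nil => rfl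
  | cons t ts ih =>
    have e0 : topEnts (t :: ts) = cellEnts t.cs ++ topEnts ts := by simp [topEnts]
    simp only [clsTops]
    rw [e0, List.flatMap_append, encP_append, ← ih (fun t' ht' => h t' (by simp [ht']))]
    have h1 := h t (by simp)
    rw [← clsCells_eq hsh wa Z _ t.st t.cs
      (fun c hc s hs e he => read_chain (h1 c hc s hs) he)
      (fun c hc s hs e he => (h1 c hc s hs).o1 e he)]
    rfl

lemma gTops3_eq (hsh : sh ≤ W) (Z Tst Tln mst mln : ℕ) (g : Ent → ℕ) (ts : List Top3) (h : TopsGood Tst Tln mst mln ts) :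
    gTops3 W sh (Nat.sub (Nat.shiftLeft 1 (Nat.sub W sh)) 1)
        (piece W (piece W Z Tst Tln) (mst - Tst) mln) mst g ts =
      ((topEnts ts).map (fun e => digAt W Z e.p / 2 ^ sh * g e)).sum := by
  induction ts with
  | nil => rfl
  | cons t ts ih =>
    have e0 : topEnts (t :: ts) = cellEnts t.cs ++ topEnts ts := by simp [topEnts]
    simp only [gTops3]
    rw [e0, List.map_append, List.sum_append, ← ih (fun t' ht' => h t' (by simp [ht']))]
    have h1 := h t (by simp)
    rw [← gCells3_eq hsh Z _ t.st g t.cs (fun c hc s hs e he => read_chain (h1 c hc s hs) he)]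
    rfl

lemma clsMids_eq (hsh : sh ≤ W) (wa Z Tst Tln : ℕ) (ms : List Mid3)
    (h : ∀ m ∈ ms, TopsGood Tst Tln m.st m.ln m.ts) :
    clsMids W sh (Nat.sub (Nat.shiftLeft 1 (Nat.sub W sh)) 1) wa (piece W Z Tst Tln) Tst ms =
      encP wa ((midEnts ms).flatMap (fun e => contribC e (digAt W Z e.p / 2 ^ sh))) := by
  induction ms with
  | nil => rfl
  | cons m ms ih =>
    have e0 : midEnts (m :: ms) = topEnts m.ts ++ midEnts ms := by simp [midEnts]
    simp only [clsMids]
    rw [e0, List.flatMap_append, encP_append, ← ih (fun m' hm' => h m' (by simp [hm']))]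
    rw [← clsTops_eq hsh wa Z Tst Tln m.st m.ln m.ts (h m (by simp))]
    rfl

lemma gMids3_eq (hsh : sh ≤ W) (Z Tst Tln : ℕ) (g : Ent → ℕ) (ms : List Mid3)
    (h : ∀ m ∈ ms, TopsGood Tst Tln m.st m.ln m.ts) :
    gMids3 W sh (Nat.sub (Nat.shiftLeft 1 (Nat.sub W sh)) 1) (piece W Z Tst Tln) Tst g ms =
      ((midEnts ms).map (fun e => digAt W Z e.p / 2 ^ sh * g e)).sum := by
  induction ms with
  | nil => rfl
  | cons m ms ih =>
    have e0 : midEnts (m :: ms) = topEnts m.ts ++ midEnts ms := by simp [midEnts]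
    simp only [gMids3]
    rw [e0, List.map_append, List.sum_append, ← ih (fun m' hm' => h m' (by simp [hm']))]
    rw [← gTops3_eq hsh Z Tst Tln m.st m.ln g m.ts (h m (by simp))]
    rfl

/-- The slots of the classes of a table. -/
theorem clsTab3_eq (hsh : sh ≤ W) (wa Z : ℕ) {T : Tab3} (hT : rangeOK3 T = true) :
    clsTab3 W sh (Nat.sub (Nat.shiftLeft 1 (Nat.sub W sh)) 1) wa Z T =
      encP wa ((tabEnts T).flatMap (fun e => contribC e (digAt W Z e.p / 2 ^ sh))) := by
  rw [tabEnts_eq]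
  exact clsMids_eq hsh wa Z T.st T.ln T.ms (fun m hm t ht c hc s hs => rangeOK3_sound hT m hm t ht c hc s hs)

/-- The digits times weights of a table. -/
theorem gTab3_eq (hsh : sh ≤ W) (Z : ℕ) (g : Ent → ℕ) {T : Tab3} (hT : rangeOK3 T = true) :
    gTab3 W sh (Nat.sub (Nat.shiftLeft 1 (Nat.sub W sh)) 1) Z g T =
      ((tabEnts T).map (fun e => digAt W Z e.p / 2 ^ sh * g e)).sum := by
  rw [tabEnts_eq]
  exact gMids3_eq hsh Z T.st T.ln g T.ms (fun m hm t ht c hc s hs => rangeOK3_sound hT m hm t ht c hc s hs)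

end tables

lemma tabEnts_perm (T : Tab3) : (sortedE T).Perm (tabEnts T) := by
  simp only [sortedE, tabEnts]
  exact (msort_perm _ _).flatMap_right _

lemma mem_sortedE {T : Tab3} {e : Ent} : e ∈ sortedE T ↔ e ∈ tabEnts T := (tabEnts_perm T).mem_iff

/-- The total of the slots of the classes of a table. -/
lemma totP_slotsC {Cm : ℕ} {E : List Ent}
    (hC : ∀ e ∈ E, e.m * (e.c1 + (e.c2 + e.c3)) ≤ Cm) (val : Ent → ℕ) :
    totP (E.flatMap (fun e => contribC e (val e))) ≤ (E.map val).sum * Cm := by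
  induction E with
  | nil => simp [totP]
  | cons e E ih =>
    simp only [List.flatMap_cons, totP_append, List.map_cons, List.sum_cons, add_mul]
    have h1 := ih (fun e' he' => hC e' (by simp [he']))
    have h2 := hC e (by simp)
    refine add_le_add ?_ h1
    have e3 : totP (contribC e (val e)) = val e * (e.m * (e.c1 + (e.c2 + e.c3))) := by
      simp only [contribC, totP_cons, totP]
      simp
      ring
    rw [e3]
    exact Nat.mul_le_mul_left _ h2

lemma coefP_contribC_succ (e : Ent) (v j : ℕ) : coefP (contribC e v) (j + 1) = coefP (contrib2 e v) (j + 1) := by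
  simp [contribC, contrib2, coefP_cons, coefP_nil]

lemma coefP_slotsC (E : List Ent) (val : Ent → ℕ) (j : ℕ) :
    coefP (E.flatMap (fun e => contribC e (val e))) (j + 1) =
      coefP (E.flatMap (fun e => contrib2 e (val e))) (j + 1) := by
  induction E with
  | nil => rfl
  | cons e E ih =>
    simp only [List.flatMap_cons, coefP_append, ih, coefP_contribC_succ]

end Vale.Agent.Lib.P154Anti
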