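import Vale.Agent.Lib.P154Anti.LatStepE

/-!
One level of the lattice computation with rays, and its use on the tree.
-/

namespace Vale.Agent.Lib.P154Anti

open Vale.Agent.Lib.P154

/-- The contribution of the missing mass to the slots of the accumulator. -/
def contribVE (J x : ℕ) : List (ℕ × ℕ) := [(J, x), (J + 2, x)]

lemma topOK_contribVE (J x : ℕ) : TopOK (J + 1) (contribVE J x) := by
  intro q
  simp only [contribVE, coefP_cons, coefP_nil]
  by_cases h1 : J = q
  · subst h1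
    simp
  · by_cases h2 : J + 2 = q
    · subst h2
      simp
    · simp [h1, h2]

/-- The list of slots of a table. -/
def slotsE (C : LatCfg) (E : List Ent) (val : Ent → ℕ) : List (ℕ × ℕ) :=
  E.flatMap (fun e => contrib (C.J + 1) e (val e))

/-- The weight used for the value of a functional on the slots. -/
noncomputable def phiE (C : LatCfg) (F : W3 → ℝ) (j : ℕ) : ℝ :=
  if j < C.J then F (lat (rhoOf C) (gJ C j)) else if j = C.J then F (vecE (rhoOf C) rayG) else 0

lemma phiE_lt {C : LatCfg} (F : W3 → ℝ) {j : ℕ} (h : j < C.J) :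
    phiE C F j = F (lat (rhoOf C) (gJ C j)) := if_pos h

lemma phiE_J (C : LatCfg) (F : W3 → ℝ) : phiE C F C.J = F (vecE (rhoOf C) rayG) := by
  simp [phiE]

lemma phiE_1 (C : LatCfg) (F : W3 → ℝ) : phiE C F (C.J + 1) = 0 := by
  simp [phiE]

lemma phiE_2 (C : LatCfg) (F : W3 → ℝ) : phiE C F (C.J + 2) = 0 := by
  simp [phiE]

lemma evS_contrib_phiE {C : LatCfg} (F : W3 → ℝ) {e : Ent} (j1 : e.j1 < C.J) (j2 : e.j2 < C.J)
    (j3 : e.j3 < C.J) (v : ℕ) :
    evS (contrib (C.J + 1) e v) (phiE C F) = (v : ℝ) * e.m * ((e.c1 : ℝ) * F (lat (rhoOf C) (gJ C e.j1)) +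
      (e.c2 : ℝ) * F (lat (rhoOf C) (gJ C e.j2)) + (e.c3 : ℝ) * F (lat (rhoOf C) (gJ C e.j3))) := by
  simp only [contrib, evS_cons, evS_nil, phiE_lt F j1, phiE_lt F j2, phiE_lt F j3, phiE_1]
  have := phiE_2 C F
  rw [show C.J + 1 + 1 = C.J + 2 from rfl, this]
  push_cast
  ring

lemma coefP_contrib_1 {C : LatCfg} {e : Ent} (j1 : e.j1 < C.J) (j2 : e.j2 < C.J) (j3 : e.j3 < C.J) (v : ℕ) :
    coefP (contrib (C.J + 1) e v) (C.J + 1) = v * e.m * e.mu := by
  have n1 : e.j1 ≠ C.J + 1 := by omega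
  have n2 : e.j2 ≠ C.J + 1 := by omega
  have n3 : e.j3 ≠ C.J + 1 := by omega
  simp only [contrib, coefP_cons, coefP_nil, if_neg n1, if_neg n2, if_neg n3, if_true]
  simp

lemma coefP_slots {C : LatCfg} {E : List Ent}
    (hE : ∀ e ∈ E, e.j1 < C.J ∧ e.j2 < C.J ∧ e.j3 < C.J) (val : Ent → ℕ) :
    coefP (slotsE C E val) (C.J + 1) = (E.map (fun e => val e * e.m * e.mu)).sum := by
  induction E with
  | nil => rfl
  | cons e E ih =>
    simp only [slotsE, List.flatMap_cons, coefP_append, List.map_cons, List.sum_cons]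
    have h := ih (fun e' he' => hE e' (by simp [he']))
    simp only [slotsE] at h
    rw [h]
    obtain ⟨a, b, c⟩ := hE e (by simp)
    rw [coefP_contrib_1 a b c]

lemma pos_slots {C : LatCfg} {E : List Ent}
    (hE : ∀ e ∈ E, e.j1 < C.J ∧ e.j2 < C.J ∧ e.j3 < C.J) (val : Ent → ℕ) :
    ∀ p ∈ slotsE C E val, p.1 < C.J + 3 := by
  intro p hp
  simp only [slotsE, List.mem_flatMap] at hp
  obtain ⟨e, he, hp⟩ := hp
  obtain ⟨a, b, c⟩ := hE e he
  simp only [contrib, List.mem_cons, List.not_mem_nil, or_false] at hp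
  rcases hp with rfl | rfl | rfl | rfl | rfl <;> simp only <;> omega

/-- The sum of the bounds of the entries of a table. -/
lemma sum_slots {C : LatCfg} {F : W3 → ℝ} {E : List Ent} {val : Ent → ℕ} {a : Ent → ℝ} {c K P : ℝ}
    (h : ∀ e ∈ E, a e ≤ evS (contrib (C.J + 1) e (val e)) (phiE C F) / K -
      c * (((val e * e.m * e.mu : ℕ) : ℝ) / (3 * P))) :
    (E.map a).sum ≤ evS (slotsE C E val) (phiE C F) / K -
      c * (((E.map (fun e => val e * e.m * e.mu)).sum : ℕ) : ℝ) / (3 * P) := by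
  induction E with
  | nil => simp [slotsE, evS]
  | cons e E ih =>
    have h1 := ih (fun e' he' => h e' (by simp [he']))
    have h2 := h e (by simp)
    simp only [List.map_cons, List.sum_cons, slotsE, List.flatMap_cons, evS_append]
    simp only [slotsE] at h1
    push_cast at h1 h2 ⊢
    have e3 : (evS (contrib (C.J + 1) e (val e)) (phiE C F) + evS (List.flatMap (fun e => contrib (C.J + 1) e (val e)) E) (phiE C F)) / K -
        c * ((val e : ℝ) * (e.m : ℝ) * (e.mu : ℝ) + ((E.map (fun e => val e * e.m * e.mu)).sum : ℕ)) / (3 * P) =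
        (evS (contrib (C.J + 1) e (val e)) (phiE C F) / K - c * ((val e : ℝ) * (e.m : ℝ) * (e.mu : ℝ) / (3 * P))) +
        (evS (List.flatMap (fun e => contrib (C.J + 1) e (val e)) E) (phiE C F) / K -
          c * (((E.map (fun e => val e * e.m * e.mu)).sum : ℕ) : ℝ) / (3 * P)) := by
      ring
    push_cast at e3
    rw [e3]
    exact add_le_add h2 h1

/-- The integral of a functional against the law with masses `Q`. -/
lemma LsumE_phi {C : LatCfg} (hD : DstGood C C.J) (Q : ℕ) {F : W3 → ℝ} (hF : SubC F) :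
    LsumE (lawE C Q) (fun γ => F (vecE (rhoOf C) γ)) =
      6 * ∑ j ∈ Finset.range (C.J + 1), (dig C.fq Q j : ℝ) * phiE C F j := by
  rw [LsumE_lawE, Finset.sum_range_succ, phiE_J, mul_add]
  congr 1
  · simp only [vecE_empty]
    have := Lsum_lawQ hD Q hF
    simp only [lawQ] at this
    rw [this]
    congr 1
    apply Finset.sum_congr rfl
    intro j hj
    rw [phiE_lt F (Finset.mem_range.mp hj)]
  · have : ∀ σ : Equiv.Perm (Fin 3), F (vecE (rhoOf C) (actE σ rayG)) = F (vecE (rhoOf C) rayG) := by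
      intro σ
      rw [vecE_act, hF.inv]
    simp only [this]
    simp only [Finset.sum_const, Finset.card_univ, Fintype.card_perm, Fintype.card_fin, nsmul_eq_mul]
    have e : ((Nat.factorial 3 : ℕ) : ℝ) = 6 := by norm_num [Nat.factorial]
    rw [e]
    ring

/-- Consequences of the check of a level. -/
structure LvlGoodE (C : LatCfg) (TI TE : List Blk) (vc Q U Q' : ℕ) : Prop where
  tot : 6 * totE C Q ≤ 2 ^ (C.f + 1)
  one : U ≤ 2 ^ (C.f * C.d)
  top : encP C.wa (contribVE C.J ((2 ^ (C.f * C.d) - U) * vc) ++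
      (slotsE C (flatT TI) (fun e => digAt C.W (ZIof C Q) e.p) ++
        slotsE C (flatT TE) (fun e => digAt C.W (ZEof C Q) e.p))) / 2 ^ (C.wa * (C.J + 2)) < 2 ^ C.wa
  mass : dig C.wa (encP C.wa (contribVE C.J ((2 ^ (C.f * C.d) - U) * vc) ++
      (slotsE C (flatT TI) (fun e => digAt C.W (ZIof C Q) e.p) ++
        slotsE C (flatT TE) (fun e => digAt C.W (ZEof C Q) e.p)))) (C.J + 1) ≤ U * 3 * 2 ^ C.fp
  chk : ∀ j, j < C.J + 1 → dig C.fq Q' j * (6 * 2 ^ (C.f * C.d + C.fS - C.f)) ≤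
    dig C.wa (encP C.wa (contribVE C.J ((2 ^ (C.f * C.d) - U) * vc) ++
      (slotsE C (flatT TI) (fun e => digAt C.W (ZIof C Q) e.p) ++
        slotsE C (flatT TE) (fun e => digAt C.W (ZEof C Q) e.p)))) j

lemma lvlOKE_good {C : LatCfg} {TI TE : List Blk} {vc Q U Q' : ℕ} (hT : TableGoodE C TI TE vc)
    (h : lvlOKE C TI TE vc Q U Q' = true) : LvlGoodE C TI TE vc Q U Q' := by
  have hacc : Nat.add (Nat.add (Nat.shiftLeft (Nat.mul (Nat.sub (Nat.shiftLeft 1 (Nat.mul C.f C.d)) U) vc) (Nat.mul C.wa C.J))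
        (Nat.shiftLeft (Nat.mul (Nat.sub (Nat.shiftLeft 1 (Nat.mul C.f C.d)) U) vc) (Nat.mul C.wa (Nat.succ (Nat.succ C.J)))))
      (Nat.add (sumBlks C.W (Nat.sub (Nat.shiftLeft 1 C.W) 1) C.wa (Nat.succ C.J) (Nat.pow (encI C Q) C.d) TI)
        (sumBlks C.W (Nat.sub (Nat.shiftLeft 1 C.W) 1) C.wa (Nat.succ C.J)
          (Nat.sub (Nat.pow (encS C Q) C.d) (Nat.pow (encI C Q) C.d)) TE)) =
      encP C.wa (contribVE C.J ((2 ^ (C.f * C.d) - U) * vc) ++
      (slotsE C (flatT TI) (fun e => digAt C.W (ZIof C Q) e.p) ++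
        slotsE C (flatT TE) (fun e => digAt C.W (ZEof C Q) e.p))) := by
    rw [encP_append, encP_append]
    have h1 := sumBlks_eq C.W C.wa (C.J + 1) (ZIof C Q) TI hT.rngI
    have h2 := sumBlks_eq C.W C.wa (C.J + 1) (ZEof C Q) TE hT.rngE
    simp only [slotsE]
    rw [← h1, ← h2]
    simp only [contribVE, encP_cons, encP_nil, shl_eq, one_mul, Nat.mul_eq, Nat.sub_eq, Nat.add_eq,
      Nat.succ_eq_add_one, add_zero]
    rfl
  unfold lvlOKE at h
  simp only [hacc] at h
  simp only [Bool.and_eq_true, Nat.ble_eq, shl_eq, one_mul, Nat.mul_eq, Nat.sub_eq, Nat.add_eq] at h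
  obtain ⟨h1, h2, h3, h4, h5⟩ := h
  have h3' : encP C.wa (contribVE C.J ((2 ^ (C.f * C.d) - U) * vc) ++
      (slotsE C (flatT TI) (fun e => digAt C.W (ZIof C Q) e.p) ++
        slotsE C (flatT TE) (fun e => digAt C.W (ZEof C Q) e.p))) / 2 ^ (C.wa * (C.J + 2)) < 2 ^ C.wa := by
    simpa [shr_eq, Nat.shiftRight_eq_div_pow, Nat.shiftLeft_eq] using h3
  exact ⟨h1, h2, h3', h4, chkQ_sound C _ _ Q' _ h5⟩

/-- One level of the computation. -/
theorem lvl_soundE {C : LatCfg} {TI TE : List Blk} {vc Q U Q' : ℕ} (hT : tableOKE C TI TE vc = true)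
    (hL : lvlOKE C TI TE vc Q U Q' = true) {Ω : Type} [Fintype Ω] {y : Ω → W3} (hy : Fam y)
    (hDom : DomE (rhoOf C) y (lawE C Q) (2 ^ C.f)) {F : W3 → ℝ} (hF : SubC F) :
    ∑ ξ, F (pmap (lamOf C) (xk y (C.d - 1) ξ)) ≤
      LsumE (lawE C Q') (fun γ => F (vecE (rhoOf C) γ)) / 2 ^ C.f := by
  have hTG := tableOKE_good hT
  have hLG := lvlOKE_good hTG hL
  have hC := hTG.cfg
  have hD := hTG.dst
  have hr := rho_pos hC
  have hld := ld_pos hC
  obtain ⟨hlam0, hlam1'⟩ := lam_bounds hC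
  have hlam1 : lamOf C ≤ 1 := by linarith
  set EI := flatT TI with hEI
  set EE := flatT TE with hEE
  set ZI := ZIof C Q with hZI
  set ZE := ZEof C Q with hZE
  set c := F (pmap (lamOf C) del0) with hc
  set D : ℝ := 2 ^ (C.f * C.d) with hDdef
  set K : ℝ := 2 ^ C.fS with hKdef
  set P : ℝ := 2 ^ C.fp with hPdef
  have hDp : 0 < D := by positivity
  have hKp : 0 < K := by positivity
  have hPp : 0 < P := by positivity
  have hc0 : c ≤ 0 := hF.nonpos (pmap_nn hlam0 hlam1 del0_nn)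
  have hG := subC_chan hF hlam0 hlam1
  have hm := merged_boundE hC hTG.wide hTG.oR hD hTG.pwI hTG.entI hTG.pwE hTG.entE hLG.tot hy hDom hG
  have hmass := mass_xk hy (C.d - 1)
  have e1 : ∑ ξ, (F (pmap (lamOf C) (xk y (C.d - 1) ξ)) - M3 (xk y (C.d - 1) ξ) * F (pmap (lamOf C) del0)) =
      ∑ ξ, F (pmap (lamOf C) (xk y (C.d - 1) ξ)) - c := by
    rw [Finset.sum_sub_distrib, ← Finset.sum_mul, hmass, one_mul]
  rw [e1] at hm
  set valI : Ent → ℕ := fun e => digAt C.W ZI e.p with hvalI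
  set valE : Ent → ℕ := fun e => digAt C.W ZE e.p with hvalE
  have hjI : ∀ e ∈ EI, e.j1 < C.J ∧ e.j2 < C.J ∧ e.j3 < C.J := fun e he =>
    ⟨(hTG.entI e he).j1, (hTG.entI e he).j2, (hTG.entI e he).j3⟩
  have hjE : ∀ e ∈ EE, e.j1 < C.J ∧ e.j2 < C.J ∧ e.j3 < C.J := fun e he =>
    ⟨(hTG.entE e he).j1, (hTG.entE e he).j2, (hTG.entE e he).j3⟩
  have h2I := sum_slots (C := C) (F := F) (E := EI) (val := valI) (c := c) (K := K) (P := P)
    (a := fun e => (e.m : ℝ) * (valI e : ℝ) *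
      (F (pmap (lamOf C) (lat (rhoOf C) (gOf C.Wd (C.d * C.o) e.p))) -
        M3 (lat (rhoOf C) (gOf C.Wd (C.d * C.o) e.p)) * c)) (by
    intro e he
    have hg := hTG.entI e he
    have a1 := F_entry hF hC hD hg
    have a2 := M3_lat_le hC hg
    rw [evS_contrib_phiE F hg.j1 hg.j2 hg.j3]
    have hx : (0 : ℝ) ≤ (e.m : ℝ) * (valI e : ℝ) := by positivity
    have a3 := mul_le_mul_of_nonneg_left (sub_le_sub a1 (mul_le_mul_of_nonpos_right a2 hc0)) hx
    refine a3.trans (le_of_eq ?_)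
    simp only [← hKdef, ← hPdef]
    push_cast
    ring)
  have h2E := sum_slots (C := C) (F := F) (E := EE) (val := valE) (c := c) (K := K) (P := P)
    (a := fun e => (e.m : ℝ) * (valE e : ℝ) *
      (F (pmap (lamOf C) (vecE (rhoOf C) (gOf C.Wd (C.d * C.o) e.p, {0}))) -
        M3 (vecE (rhoOf C) (gOf C.Wd (C.d * C.o) e.p, {0})) * c)) (by
    intro e he
    have hg := hTG.entE e he
    have a1 := F_entryE hF hC hD hg
    have a2 := M3_latE_le hC hg
    rw [evS_contrib_phiE F hg.j1 hg.j2 hg.j3]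
    have hx : (0 : ℝ) ≤ (e.m : ℝ) * (valE e : ℝ) := by positivity
    have a3 := mul_le_mul_of_nonneg_left (sub_le_sub a1 (mul_le_mul_of_nonpos_right a2 hc0)) hx
    refine a3.trans (le_of_eq ?_)
    simp only [← hKdef, ← hPdef]
    push_cast
    ring)
  -- the slots
  set dv := 2 ^ (C.f * C.d) - U with hdv
  set LI := slotsE C EI valI with hLI
  set LE := slotsE C EE valE with hLE
  set l := contribVE C.J (dv * vc) ++ (LI ++ LE) with hl
  have hTop : TopOK (C.J + 1) l :=
    (topOK_contribVE _ _).append ((topOK_flat _ _ _).append (topOK_flat _ _ _))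
  have hdig := acc_digit hTop (by simpa [add_assoc] using hLG.top)
  have hmassU := hLG.mass
  rw [hdig] at hmassU
  have hchk : ∀ j, j < C.J + 1 → dig C.fq Q' j * (6 * 2 ^ (C.f * C.d + C.fS - C.f)) ≤ coefP l j := by
    intro j hj
    have := hLG.chk j hj
    rwa [hdig] at this
  set MbI := (EI.map (fun e => valI e * e.m * e.mu)).sum with hMbI
  set MbE := (EE.map (fun e => valE e * e.m * e.mu)).sum with hMbE
  have hcoefJ : coefP l (C.J + 1) = MbI + MbE := by
    rw [hl, coefP_append, coefP_append, hLI, hLE, coefP_slots hjI, coefP_slots hjE]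
    simp only [contribVE, coefP_cons, coefP_nil]
    have n1 : C.J ≠ C.J + 1 := by omega
    have n2 : C.J + 2 ≠ C.J + 1 := by omega
    simp only [if_neg n1, if_neg n2]
    omega
  rw [hcoefJ] at hmassU
  have hMbR : ((MbI : ℝ) + MbE) / (3 * P) ≤ U := by
    rw [div_le_iff₀ (by positivity)]
    have : ((MbI + MbE : ℕ) : ℝ) ≤ (U : ℝ) * 3 * 2 ^ C.fp := by exact_mod_cast hmassU
    rw [hPdef]
    push_cast at this
    linarith
  have hUD : (U : ℝ) ≤ D := by
    have := hLG.one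
    rw [hDdef]
    exact_mod_cast this
  have hdvR : (dv : ℝ) = D - U := by
    rw [hdv, Nat.cast_sub hLG.one]
    push_cast
    rfl
  set XI := evS LI (phiE C F) with hXI
  set XE := evS LE (phiE C F) with hXE
  set Fr := F (vecE (rhoOf C) rayG) with hFr
  have hvt : c ≤ (vc : ℝ) / K * Fr := F_rayE hF hC hTG.vc
  have hmain : ∑ ξ, F (pmap (lamOf C) (xk y (C.d - 1) ξ)) ≤ evS l (phiE C F) / (K * D) := by
    have h3 : ∑ ξ, F (pmap (lamOf C) (xk y (C.d - 1) ξ)) - c ≤
        ((XI + XE) / K - c * (((MbI : ℝ) + MbE) / (3 * P))) / D := by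
      refine hm.trans (div_le_div_of_nonneg_right ?_ hDp.le)
      have a3 := add_le_add h2I h2E
      refine a3.trans (le_of_eq ?_)
      ring
    have h4 : -(c * (((MbI : ℝ) + MbE) / (3 * P))) ≤ -(c * U) := by
      have := mul_le_mul_of_nonpos_left hMbR hc0
      linarith
    have h5 : ((XI + XE) / K - c * (((MbI : ℝ) + MbE) / (3 * P))) / D ≤ ((XI + XE) / K - c * U) / D := by
      apply div_le_div_of_nonneg_right _ hDp.le
      linarith
    have h6 : c + ((XI + XE) / K - c * U) / D = c * ((dv : ℝ) / D) + (XI + XE) / (K * D) := by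
      rw [hdvR]
      field_simp
      ring
    have h7 : c * ((dv : ℝ) / D) ≤ (vc : ℝ) / K * Fr * ((dv : ℝ) / D) :=
      mul_le_mul_of_nonneg_right hvt (by rw [hdvR]; apply div_nonneg <;> linarith)
    have e5 : evS l (phiE C F) = (dv : ℝ) * vc * Fr + (XI + XE) := by
      rw [hl, evS_append, evS_append]
      simp only [contribVE, evS_cons, evS_nil, phiE_2, phiE_J]
      push_cast
      ring
    rw [e5]
    have h8 : ((dv : ℝ) * vc * Fr + (XI + XE)) / (K * D) = (vc : ℝ) / K * Fr * ((dv : ℝ) / D) + (XI + XE) / (K * D) := by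
      field_simp
    rw [h8]
    linarith
  refine hmain.trans ?_
  -- the sum over classes
  have hpos : ∀ p ∈ l, p.1 < C.J + 3 := by
    intro p hp
    rw [hl, List.mem_append, List.mem_append] at hp
    rcases hp with hp | hp | hp
    · simp only [contribVE, List.mem_cons, List.not_mem_nil, or_false] at hp
      rcases hp with rfl | rfl <;> simp only <;> omega
    · exact pos_slots hjI _ p hp
    · exact pos_slots hjE _ p hp
  rw [evS_eq_sum l _ hpos, Finset.sum_range_succ, Finset.sum_range_succ]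
  rw [phiE_1, phiE_2, mul_zero, mul_zero, add_zero, add_zero, LsumE_phi hD Q' hF]
  have hS : (6 * 2 ^ (C.f * C.d + C.fS - C.f) : ℝ) / (K * D) = 6 / 2 ^ C.f := by
    have e7 : (2 : ℝ) ^ (C.f * C.d + C.fS - C.f) * 2 ^ C.f = K * D := by
      rw [← pow_add, Nat.sub_add_cancel hC.f, pow_add, hKdef, hDdef]
      ring
    rw [← e7]
    field_simp
  have hsum : ∑ j ∈ Finset.range (C.J + 1), (coefP l j : ℝ) * phiE C F j ≤
      (6 * 2 ^ (C.f * C.d + C.fS - C.f) : ℝ) *
        ∑ j ∈ Finset.range (C.J + 1), (dig C.fq Q' j : ℝ) * phiE C F j := by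
    rw [Finset.mul_sum]
    apply Finset.sum_le_sum
    intro j hj
    have hj' := Finset.mem_range.mp hj
    have hn : phiE C F j ≤ 0 := by
      simp only [phiE]
      split_ifs
      · exact hF.nonpos (lat_nn hr _)
      · exact hF.nonpos (vecE_nn hr _)
      · exact le_rfl
    have h1 : ((dig C.fq Q' j : ℝ) * (6 * 2 ^ (C.f * C.d + C.fS - C.f))) ≤ (coefP l j : ℝ) := by
      exact_mod_cast hchk j hj'
    have := mul_le_mul_of_nonpos_right h1 hn
    calc _ ≤ _ := this
      _ = _ := by ring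
  calc (∑ j ∈ Finset.range (C.J + 1), (coefP l j : ℝ) * phiE C F j) / (K * D)
      ≤ ((6 * 2 ^ (C.f * C.d + C.fS - C.f) : ℝ) *
        ∑ j ∈ Finset.range (C.J + 1), (dig C.fq Q' j : ℝ) * phiE C F j) / (K * D) :=
        div_le_div_of_nonneg_right hsum (by positivity)
    _ = (6 * 2 ^ (C.f * C.d + C.fS - C.f) : ℝ) / (K * D) *
        ∑ j ∈ Finset.range (C.J + 1), (dig C.fq Q' j : ℝ) * phiE C F j := by ring
    _ = _ := by
      rw [hS]
      ring

/-- Domination of the messages seen from above at depth `n`, for all channels between the one of the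
computation and the trivial one. -/
def InvE (C : LatCfg) (k n Q : ℕ) : Prop :=
  ∀ lam : ℝ, lamOf C ≤ lam → lam ≤ 0 → DomE (rhoOf C) (yn (k + 2) lam n) (lawE C Q) (2 ^ C.f)

/-- The start of the computation. -/
lemma invE_zero {C : LatCfg} (hD : DstGood C C.J) (hC : CfgGood C) (k n : ℕ) : InvE C k n 0 := by
  intro lam h0 h1 F hF
  have hb := lam_bounds hC
  have hd : ∑ ξ, F (yn (k + 2) lam n ξ) ≤ 0 :=
    Finset.sum_nonpos (fun ξ _ => hF.nonpos (yn_nn' (by linarith [hb.1]) (by linarith) n ξ))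
  refine hd.trans (le_of_eq ?_)
  rw [LsumE_phi hD 0 hF]
  have : ∀ j, dig C.fq 0 j = 0 := by
    intro j
    rw [dig_eq]
    simp
  simp [this]

/-- One level on the tree. -/
theorem invE_step {C : LatCfg} {TI TE : List Blk} {vc Q U Q' k n : ℕ} (hd : C.d = k + 2)
    (hT : tableOKE C TI TE vc = true) (hL : lvlOKE C TI TE vc Q U Q' = true) (hI : InvE C k n Q) :
    InvE C k (n + 1) Q' := by
  intro lam h0 h1 F hF
  have hC := (tableOKE_good hT).cfg
  obtain ⟨hb0, hb1⟩ := lam_bounds hC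
  have hl0 : -1 / 2 ≤ lam := by linarith
  have hl1 : lam ≤ 1 := by linarith
  have hy := yn_fam' (d := k + 2) hl0 hl1 n
  have hk : C.d - 1 = k + 1 := by omega
  have e1 : ∑ ξ, F (yn (k + 2) lam (n + 1) ξ) =
      ∑ ξ', F (pmap lam (xk (yn (k + 2) lam n) (k + 1) ξ')) := by
    simp only [yn_eq_pmap (n + 1), xn_succ]
    exact Equiv.sum_comp (splitEquiv (k + 2) n) (fun ξ' => F (pmap lam (xk (yn (k + 2) lam n) (k + 1) ξ')))
  rw [e1]
  have hsound : ∀ m, C.d - 1 = m → ∑ ξ', F (pmap (lamOf C) (xk (yn (k + 2) lam n) m ξ')) ≤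
      LsumE (lawE C Q') (fun γ => F (vecE (rhoOf C) γ)) / 2 ^ C.f := by
    intro m hm
    subst hm
    exact lvl_soundE hT hL hy (hI lam h0 h1) hF
  have h2 := hsound (k + 1) hk
  refine le_trans ?_ h2
  have hmu : lam = (lam / lamOf C) * lamOf C := by
    rw [div_mul_cancel₀ _ hb1.ne]
  have hmu0 : 0 ≤ lam / lamOf C := div_nonneg_of_nonpos h1 hb1.le
  have hmu1 : lam / lamOf C ≤ 1 := by
    rw [div_le_one_of_neg hb1]
    exact h0
  have := chan_mono (x := fun ξ' => xk (yn (k + 2) lam n) (k + 1) ξ')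
    (fun ξ' => xk_nn hy.nn _ ξ') (fun i => xk_coord hy i (k + 1)) hF.add hF.smul hb0 (by linarith) hmu0 hmu1
  rw [← hmu] at this
  exact this

end Vale.Agent.Lib.P154Anti
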