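import Vale.Agent.Lib.P154Anti.LatSem

/-!
Soundness of one level of the lattice computation.
-/

namespace Vale.Agent.Lib.P154Anti

open Vale.Agent.Lib.P154

lemma shl_eq (a n : ℕ) : Nat.shiftLeft a n = a * 2 ^ n := Nat.shiftLeft_eq a n

lemma shr_eq (a n : ℕ) : Nat.shiftRight a n = a / 2 ^ n := Nat.shiftRight_eq_div_pow a n

/-! ### Table facts -/

lemma incrOK_sound (C : LatCfg) : ∀ (E : List Ent) (lo : ℕ), incrOK C lo E = true →
    (∀ e ∈ E, lo ≤ e.p ∧ entOK C e = true) ∧ E.Pairwise (fun e e' => e.p < e'.p)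
  | [], _, _ => ⟨by simp, List.Pairwise.nil⟩
  | e :: E, lo, h => by
    simp only [incrOK, Bool.and_eq_true, Nat.ble_eq] at h
    obtain ⟨h1, h2, h3⟩ := h
    obtain ⟨ih1, ih2⟩ := incrOK_sound C E _ h3
    refine ⟨?_, ?_⟩
    · intro x hx
      rcases List.mem_cons.mp hx with rfl | hx
      · exact ⟨h1, h2⟩
      · have := (ih1 x hx).1
        exact ⟨by have : e.p.succ ≤ x.p := this; omega, (ih1 x hx).2⟩
    · rw [List.pairwise_cons]
      refine ⟨?_, ih2⟩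
      intro x hx
      have : e.p.succ ≤ x.p := (ih1 x hx).1
      omega

/-- Consequences of the check of the parameters. -/
structure CfgGood (C : LatCfg) : Prop where
  rd : 0 < C.rd
  rn : 0 < C.rn
  ln : 0 < C.ln
  l2 : 2 * C.ln ≤ C.ld
  d2 : 2 ≤ C.d
  Wd : C.d * C.R < C.Wd
  W : C.f * C.d < C.W
  f : C.f ≤ C.f * C.d + C.fS
  E1 : C.d * C.o ≤ C.E0
  E2 : C.Wd ≤ (C.E0 + C.d * C.o) + 1
  E3 : C.R ≤ C.E0 + C.o
  p1 : pw C.wp C.PL C.E0 ≤ 2 ^ C.fp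
  p2 : 2 ^ C.fp ≤ pw C.wp C.PU C.E0
  up : pwUp C C.E0 C.E0 = true
  dn : pwDn C C.E0 = true
  dst : dstOK C C.J = true

lemma cfgOK_good {C : LatCfg} (h : cfgOK C = true) : CfgGood C := by
  simp only [cfgOK, Bool.and_eq_true, Nat.ble_eq, Nat.blt_eq] at h
  obtain ⟨h1, h2, h3, h4, h5, h6, h7, h8, h9, h10, h11, h12, h13, h14, h15, h16, h17, h18⟩ := h
  have s : Nat.shiftLeft 1 C.fp = 2 ^ C.fp := by rw [shl_eq, one_mul]
  rw [s] at h14 h15
  exact ⟨h1, h2, h3, h6, h7, h8, h9, h10, h11, h12, h13, h14, h15, h16, h17, h18⟩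

/-! ### Power tables -/

/-- The lattice ratio. -/
noncomputable def rhoOf (C : LatCfg) : ℝ := (C.rn : ℝ) / C.rd

/-- The table entry number `i` bounds the power of the ratio. -/
def PwAt (C : LatCfg) (i : ℕ) : Prop :=
  (pw C.wp C.PL i : ℝ) ≤ 2 ^ C.fp * rhoOf C ^ ((i : ℤ) - C.E0) ∧
    2 ^ C.fp * rhoOf C ^ ((i : ℤ) - C.E0) ≤ (pw C.wp C.PU i : ℝ)

lemma rho_pos {C : LatCfg} (h : CfgGood C) : 0 < rhoOf C := by
  have h1 : (0 : ℝ) < C.rn := by exact_mod_cast h.rn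
  have h2 : (0 : ℝ) < C.rd := by exact_mod_cast h.rd
  exact div_pos h1 h2

lemma pw_up {C : LatCfg} (hC : CfgGood C) : ∀ (n i : ℕ), pwUp C n i = true → PwAt C i →
    ∀ k, k ≤ n → PwAt C (i + k)
  | 0, i, _, h0, k, hk => by
    have : k = 0 := by omega
    subst this
    simpa using h0
  | n + 1, i, h, h0, k, hk => by
    simp only [pwUp, Bool.and_eq_true, Nat.ble_eq] at h
    obtain ⟨h1, h2, h3⟩ := h
    rcases Nat.eq_zero_or_pos k with rfl | hkp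
    · simpa using h0
    have hr := rho_pos hC
    have hrd : (0 : ℝ) < C.rd := by exact_mod_cast hC.rd
    have hrn : (0 : ℝ) < C.rn := by exact_mod_cast hC.rn
    have hnext : PwAt C (i + 1) := by
      have h1' : (C.rn : ℝ) * pw C.wp C.PU i ≤ C.rd * pw C.wp C.PU (i + 1) := by exact_mod_cast h1
      have h2' : (C.rd : ℝ) * pw C.wp C.PL (i + 1) ≤ C.rn * pw C.wp C.PL i := by exact_mod_cast h2
      have e : (((i + 1 : ℕ) : ℤ) - C.E0) = ((i : ℤ) - C.E0) + 1 := by push_cast; ring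
      have hz : rhoOf C ^ (((i + 1 : ℕ) : ℤ) - C.E0) = rhoOf C ^ ((i : ℤ) - C.E0) * rhoOf C := by
        rw [e, zpow_add_one₀ hr.ne']
      constructor
      · rw [hz]
        have := h0.1
        have h3' : (pw C.wp C.PL (i + 1) : ℝ) ≤ rhoOf C * pw C.wp C.PL i := by
          simp only [rhoOf]
          rw [div_mul_eq_mul_div, le_div_iff₀ hrd]
          linarith
        have := mul_le_mul_of_nonneg_left this hr.le
        nlinarith
      · rw [hz]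
        have := h0.2
        have h3' : rhoOf C * pw C.wp C.PU i ≤ (pw C.wp C.PU (i + 1) : ℝ) := by
          simp only [rhoOf]
          rw [div_mul_eq_mul_div, div_le_iff₀ hrd]
          linarith
        have := mul_le_mul_of_nonneg_left this hr.le
        nlinarith
    have := pw_up hC n (i + 1) h3 hnext (k - 1) (by omega)
    have e : i + 1 + (k - 1) = i + k := by omega
    rwa [e] at this

lemma pw_dn {C : LatCfg} (hC : CfgGood C) : ∀ (i : ℕ), pwDn C i = true → PwAt C i →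
    ∀ k, k ≤ i → PwAt C k
  | 0, _, h0, k, hk => by
    have : k = 0 := by omega
    subst this
    exact h0
  | i + 1, h, h0, k, hk => by
    simp only [pwDn, Bool.and_eq_true, Nat.ble_eq] at h
    obtain ⟨h1, h2, h3⟩ := h
    rcases Nat.lt_or_eq_of_le hk with hk | rfl
    swap
    · exact h0
    have hr := rho_pos hC
    have hrd : (0 : ℝ) < C.rd := by exact_mod_cast hC.rd
    have hrn : (0 : ℝ) < C.rn := by exact_mod_cast hC.rn
    have hnext : PwAt C i := by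
      have h1' : (C.rd : ℝ) * pw C.wp C.PU (i + 1) ≤ C.rn * pw C.wp C.PU i := by exact_mod_cast h1
      have h2' : (C.rn : ℝ) * pw C.wp C.PL i ≤ C.rd * pw C.wp C.PL (i + 1) := by exact_mod_cast h2
      have e : (((i + 1 : ℕ) : ℤ) - C.E0) = ((i : ℤ) - C.E0) + 1 := by push_cast; ring
      have hz : rhoOf C ^ (((i + 1 : ℕ) : ℤ) - C.E0) = rhoOf C ^ ((i : ℤ) - C.E0) * rhoOf C := by
        rw [e, zpow_add_one₀ hr.ne']
      have h00 := h0.1
      have h01 := h0.2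
      rw [hz] at h00 h01
      have hzp : 0 < rhoOf C ^ ((i : ℤ) - C.E0) := zpow_pos hr _
      have hp : (0 : ℝ) < 2 ^ C.fp := by positivity
      constructor
      · have h3' : rhoOf C * pw C.wp C.PL i ≤ (pw C.wp C.PL (i + 1) : ℝ) := by
          simp only [rhoOf]
          rw [div_mul_eq_mul_div, div_le_iff₀ hrd]
          linarith
        have : rhoOf C * pw C.wp C.PL i ≤ rhoOf C * (2 ^ C.fp * rhoOf C ^ ((i : ℤ) - C.E0)) := by
          calc _ ≤ _ := h3'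
            _ ≤ _ := h00
            _ = _ := by ring
        exact le_of_mul_le_mul_left this hr
      · have h3' : (pw C.wp C.PU (i + 1) : ℝ) ≤ rhoOf C * pw C.wp C.PU i := by
          simp only [rhoOf]
          rw [div_mul_eq_mul_div, le_div_iff₀ hrd]
          linarith
        have : rhoOf C * (2 ^ C.fp * rhoOf C ^ ((i : ℤ) - C.E0)) ≤ rhoOf C * pw C.wp C.PU i := by
          calc _ = 2 ^ C.fp * (rhoOf C ^ ((i : ℤ) - C.E0) * rhoOf C) := by ring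
            _ ≤ _ := h01
            _ ≤ _ := h3'
        exact le_of_mul_le_mul_left this hr
    exact pw_dn hC i h3 hnext k (by omega)

lemma pw_at {C : LatCfg} (hC : CfgGood C) {i : ℕ} (hi : i ≤ 2 * C.E0) : PwAt C i := by
  have h0 : PwAt C C.E0 := by
    have h1 : (pw C.wp C.PL C.E0 : ℝ) ≤ 2 ^ C.fp := by exact_mod_cast hC.p1
    have h2 : (2 : ℝ) ^ C.fp ≤ pw C.wp C.PU C.E0 := by exact_mod_cast hC.p2
    simp only [PwAt, sub_self, zpow_zero, mul_one]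
    exact ⟨h1, h2⟩
  rcases le_total i C.E0 with h | h
  · exact pw_dn hC _ hC.dn h0 i h
  · have := pw_up hC C.E0 C.E0 hC.up h0 (i - C.E0) (by omega)
    have e : C.E0 + (i - C.E0) = i := by omega
    rwa [e] at this

/-! ### The entries of the table as inequalities between vectors -/

/-- A sublinear functional at a vector above a combination of three vectors. -/
lemma F_le_of_coord {F : W3 → ℝ} (hF : SubC F) {v x1 x2 x3 : W3} {t1 t2 t3 : ℝ} (h1 : 0 ≤ t1)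
    (h2 : 0 ≤ t2) (h3 : 0 ≤ t3) (n1 : NN x1) (n2 : NN x2) (n3 : NN x3)
    (hv : ∀ i, t1 * x1 i + t2 * x2 i + t3 * x3 i ≤ v i) :
    F v ≤ t1 * F x1 + t2 * F x2 + t3 * F x3 := by
  set a := t1 • x1 with ha
  set b := t2 • x2 with hb
  set c := t3 • x3 with hc
  have na : NN a := nn_smul h1 n1
  have nb : NN b := nn_smul h2 n2
  have nc : NN c := nn_smul h3 n3
  have nw : NN (v - (a + (b + c))) := by
    intro i
    have := hv i
    simp only [ha, hb, hc, Pi.sub_apply, Pi.add_apply, Pi.smul_apply, smul_eq_mul]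
    linarith
  have e : v = (a + (b + c)) + (v - (a + (b + c))) := by
    funext i
    simp
  have n2' : NN (b + c) := nn_add nb nc
  have n1' : NN (a + (b + c)) := nn_add na n2'
  have s1 := hF.add _ _ n1' nw
  have s2 := hF.add _ _ na n2'
  have s3 := hF.add _ _ nb nc
  have s4 := hF.nonpos nw
  rw [← e] at s1
  have e1 : F a = t1 * F x1 := hF.smul _ _ h1 n1
  have e2 : F b = t2 * F x2 := hF.smul _ _ h2 n2
  have e3 : F c = t3 * F x3 := hF.smul _ _ h3 n3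
  linarith

/-- The rearrangement with a given code. -/
def perm3 : ℕ → Equiv.Perm (Fin 3)
  | 0 => 1
  | 1 => s1
  | 2 => s2
  | 3 => s3
  | 4 => s4
  | _ => s5

lemma F_lat_act {F : W3 → ℝ} (hF : SubC F) (ρ : ℝ) (σ : Equiv.Perm (Fin 3)) (g : ℤ × ℤ) :
    F (lat ρ (act σ g)) = F (lat ρ g) := by
  rw [lat_act, hF.inv]

lemma upT_bound {C : LatCfg} (hC : CfgGood C) {x : ℕ} (hx : x ≤ C.R) :
    2 ^ C.fp * rhoOf C ^ ((x : ℤ) - C.o) ≤ (upT C x : ℝ) := by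
  have ho : C.o ≤ C.E0 := by
    have := hC.E1
    have h2 := hC.d2
    nlinarith
  have hi : x + (C.E0 - C.o) ≤ 2 * C.E0 := by
    have := hC.E3
    omega
  have := (pw_at hC hi).2
  have e : (((x + (C.E0 - C.o) : ℕ) : ℤ) - C.E0) = (x : ℤ) - C.o := by
    have : ((C.E0 - C.o : ℕ) : ℤ) = (C.E0 : ℤ) - C.o := by
      rw [Nat.cast_sub ho]
    push_cast
    rw [this]
    ring
  rw [e] at this
  exact this

lemma ee_gJ {C : LatCfg} {j : ℕ} (hs : dA C j + dB C j + dC C j = 3 * C.o) :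
    ee (gJ C j) 0 = (dA C j : ℤ) - C.o ∧ ee (gJ C j) 1 = (dB C j : ℤ) - C.o ∧
      ee (gJ C j) 2 = (dC C j : ℤ) - C.o := by
  have : (dA C j : ℤ) + dB C j + dC C j = 3 * C.o := by exact_mod_cast hs
  refine ⟨rfl, rfl, ?_⟩
  simp only [ee, gJ, gPt]
  show -((dA C j : ℤ) - C.o) - ((dB C j : ℤ) - C.o) = _
  linarith

lemma upTg_bound {C : LatCfg} (hC : CfgGood C) (hD : DstGood C C.J) {j : ℕ} (hj : j < C.J) (s : ℕ) :
    2 ^ C.fp * rhoOf C ^ (ee (act (perm3 s) (gJ C j)) 0) ≤ ((upTg C j s).1 : ℝ) ∧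
    2 ^ C.fp * rhoOf C ^ (ee (act (perm3 s) (gJ C j)) 1) ≤ ((upTg C j s).2.1 : ℝ) ∧
    2 ^ C.fp * rhoOf C ^ (ee (act (perm3 s) (gJ C j)) 2) ≤ ((upTg C j s).2.2 : ℝ) := by
  obtain ⟨e0, e1, e2⟩ := ee_gJ (hD.sum3 j hj)
  obtain ⟨b0, b1, b2⟩ := hD.bd j hj
  have u0 := upT_bound hC b0
  have u1 := upT_bound hC b1
  have u2 := upT_bound hC b2
  rw [← e0] at u0
  rw [← e1] at u1
  rw [← e2] at u2
  rw [ee_act, ee_act, ee_act]
  obtain _ | _ | _ | _ | _ | s := s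
  · exact ⟨u0, u1, u2⟩
  · exact ⟨u1, u2, u0⟩
  · exact ⟨u2, u0, u1⟩
  · exact ⟨u0, u2, u1⟩
  · exact ⟨u1, u0, u2⟩
  · exact ⟨u2, u1, u0⟩

/-- The eigenvalue of the channel of the computation. -/
noncomputable def lamOf (C : LatCfg) : ℝ := -((C.ln : ℝ) / C.ld)

/-- Coordinates of an entry. -/
def eA (C : LatCfg) (e : Ent) : ℕ := e.p % C.Wd
/-- Coordinates of an entry. -/
def eB (C : LatCfg) (e : Ent) : ℕ := e.p / C.Wd
/-- Coordinates of an entry. -/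
def eC (C : LatCfg) (e : Ent) : ℕ := 3 * C.d * C.o - (eA C e + eB C e)

/-- Consequences of the check of an entry. -/
structure EntGood (C : LatCfg) (e : Ent) : Prop where
  sum3 : eA C e + eB C e + eC C e = 3 * C.d * C.o
  ba : eB C e ≤ eA C e
  cb : eC C e ≤ eB C e
  m : e.m = mulOf (eA C e) (eB C e) (eC C e)
  mu : pw C.wp C.PU (eA C e + (C.E0 - C.d * C.o)) + (pw C.wp C.PU (eB C e + (C.E0 - C.d * C.o)) +
    pw C.wp C.PU (eC C e + (C.E0 - C.d * C.o))) ≤ e.mu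
  j1 : e.j1 < C.J
  j2 : e.j2 < C.J
  j3 : e.j3 < C.J
  i0 : 3 * C.ld * (tgSum C e).1 ≤ 2 ^ C.fS * ((C.ld + C.ln) *
      (pw C.wp C.PL (eB C e + (C.E0 - C.d * C.o)) + pw C.wp C.PL (eC C e + (C.E0 - C.d * C.o))) +
    (C.ld - 2 * C.ln) * pw C.wp C.PL (eA C e + (C.E0 - C.d * C.o)))
  i1 : 3 * C.ld * (tgSum C e).2.1 ≤ 2 ^ C.fS * ((C.ld + C.ln) *
      (pw C.wp C.PL (eA C e + (C.E0 - C.d * C.o)) + pw C.wp C.PL (eC C e + (C.E0 - C.d * C.o))) +
    (C.ld - 2 * C.ln) * pw C.wp C.PL (eB C e + (C.E0 - C.d * C.o)))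
  i2 : 3 * C.ld * (tgSum C e).2.2 ≤ 2 ^ C.fS * ((C.ld + C.ln) *
      (pw C.wp C.PL (eA C e + (C.E0 - C.d * C.o)) + pw C.wp C.PL (eB C e + (C.E0 - C.d * C.o))) +
    (C.ld - 2 * C.ln) * pw C.wp C.PL (eC C e + (C.E0 - C.d * C.o)))

lemma entOK_good {C : LatCfg} {e : Ent} (h : entOK C e = true) : EntGood C e := by
  unfold entOK at h
  simp only [Bool.and_eq_true, Nat.ble_eq, Nat.blt_eq, Nat.beq_eq, shl_eq, one_mul, Nat.add_eq,
    Nat.mul_eq, Nat.sub_eq] at h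
  obtain ⟨h1, h2, h3, h4, h5, h6, h7, h8, h9, h10, h11⟩ := h
  have e3 : eA C e + eB C e + eC C e = 3 * C.d * C.o := by
    have : eC C e = 3 * C.d * C.o - (eA C e + eB C e) := rfl
    have h1' : eA C e + eB C e ≤ 3 * C.d * C.o := h1
    omega
  exact ⟨e3, h2, h3, h4, h5, h6, h7, h8, h9, h10, h11⟩

lemma eA_lt {C : LatCfg} (hC : CfgGood C) (e : Ent) : eA C e < C.Wd := by
  apply Nat.mod_lt
  have := hC.Wd
  omega

lemma gOf_eq (C : LatCfg) (e : Ent) :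
    gOf C.Wd (C.d * C.o) e.p = ((eA C e : ℤ) - ((C.d * C.o : ℕ) : ℤ), (eB C e : ℤ) - ((C.d * C.o : ℕ) : ℤ)) := rfl

lemma ee_gOf {C : LatCfg} {e : Ent} (h : EntGood C e) :
    ee (gOf C.Wd (C.d * C.o) e.p) 0 = (eA C e : ℤ) - ((C.d * C.o : ℕ) : ℤ) ∧
    ee (gOf C.Wd (C.d * C.o) e.p) 1 = (eB C e : ℤ) - ((C.d * C.o : ℕ) : ℤ) ∧
    ee (gOf C.Wd (C.d * C.o) e.p) 2 = (eC C e : ℤ) - ((C.d * C.o : ℕ) : ℤ) := by
  have hs : (eA C e : ℤ) + eB C e + eC C e = 3 * ((C.d * C.o : ℕ) : ℤ) := by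
    have := h.sum3
    have e2 : 3 * C.d * C.o = 3 * (C.d * C.o) := by ring
    rw [e2] at this
    exact_mod_cast this
  refine ⟨rfl, rfl, ?_⟩
  show -((eA C e : ℤ) - ((C.d * C.o : ℕ) : ℤ)) - ((eB C e : ℤ) - ((C.d * C.o : ℕ) : ℤ)) = _
  linarith

lemma pow_bounds {C : LatCfg} (hC : CfgGood C) {x : ℕ} (hx : x < C.Wd) :
    (pw C.wp C.PL (x + (C.E0 - C.d * C.o)) : ℝ) ≤ 2 ^ C.fp * rhoOf C ^ ((x : ℤ) - ((C.d * C.o : ℕ) : ℤ)) ∧
    2 ^ C.fp * rhoOf C ^ ((x : ℤ) - ((C.d * C.o : ℕ) : ℤ)) ≤ (pw C.wp C.PU (x + (C.E0 - C.d * C.o)) : ℝ) := by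
  have hi : x + (C.E0 - C.d * C.o) ≤ 2 * C.E0 := by
    have := hC.E2
    have := hC.E1
    omega
  have h := pw_at hC hi
  have e : (((x + (C.E0 - C.d * C.o) : ℕ) : ℤ) - C.E0) = (x : ℤ) - ((C.d * C.o : ℕ) : ℤ) := by
    have : ((C.E0 - C.d * C.o : ℕ) : ℤ) = (C.E0 : ℤ) - ((C.d * C.o : ℕ) : ℤ) := by
      rw [Nat.cast_sub hC.E1]
    push_cast at this ⊢
    rw [this]
    ring
  simp only [PwAt, e] at h
  exact h

/-- The real form of the inequality of an entry. -/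
lemma entry_real {ld ln P K c1 c2 c3 U1 U2 U3 r1 r2 r3 L1 L2 L3 A1 A2 A3 : ℝ} (hl : 0 ≤ ln) (hl2 : 2 * ln ≤ ld)
    (hP : 0 < P) (hK : 0 ≤ K) (h1 : 0 ≤ c1) (h2 : 0 ≤ c2) (h3 : 0 ≤ c3)
    (H : 3 * ld * (c1 * U1 + (c2 * U2 + c3 * U3)) ≤ K * ((ld + ln) * (L2 + L3) + (ld - 2 * ln) * L1))
    (u1 : P * r1 ≤ U1) (u2 : P * r2 ≤ U2) (u3 : P * r3 ≤ U3)
    (l1 : L1 ≤ P * A1) (l2 : L2 ≤ P * A2) (l3 : L3 ≤ P * A3) :
    3 * ld * (c1 * r1 + c2 * r2 + c3 * r3) ≤ K * ((ld + ln) * (A2 + A3) + (ld - 2 * ln) * A1) := by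
  have hld : 0 ≤ ld := by linarith
  have a1 : P * (3 * ld * (c1 * r1 + c2 * r2 + c3 * r3)) ≤ 3 * ld * (c1 * U1 + (c2 * U2 + c3 * U3)) := by
    have b1 := mul_le_mul_of_nonneg_left u1 h1
    have b2 := mul_le_mul_of_nonneg_left u2 h2
    have b3 := mul_le_mul_of_nonneg_left u3 h3
    have : P * (c1 * r1 + c2 * r2 + c3 * r3) ≤ c1 * U1 + (c2 * U2 + c3 * U3) := by nlinarith
    have := mul_le_mul_of_nonneg_left this (by positivity : 0 ≤ 3 * ld)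
    nlinarith
  have a2 : K * ((ld + ln) * (L2 + L3) + (ld - 2 * ln) * L1) ≤
      P * (K * ((ld + ln) * (A2 + A3) + (ld - 2 * ln) * A1)) := by
    have b1 := mul_le_mul_of_nonneg_left l1 (by linarith : 0 ≤ ld - 2 * ln)
    have b2 := mul_le_mul_of_nonneg_left (add_le_add l2 l3) (by linarith : 0 ≤ ld + ln)
    have : (ld + ln) * (L2 + L3) + (ld - 2 * ln) * L1 ≤
        P * ((ld + ln) * (A2 + A3) + (ld - 2 * ln) * A1) := by nlinarith
    have := mul_le_mul_of_nonneg_left this hK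
    nlinarith
  have := H.trans a2
  have a3 := a1.trans this
  exact le_of_mul_le_mul_left a3 hP

lemma ld_pos {C : LatCfg} (hC : CfgGood C) : (0 : ℝ) < C.ld := by
  have := hC.ln
  have := hC.l2
  have : 0 < C.ld := by omega
  exact_mod_cast this

/-- The coordinates of the channel image of a lattice vector. -/
lemma pmap_lat_coord {C : LatCfg} (hC : CfgGood C) {g : ℤ × ℤ} {A0 A1 A2 : ℝ}
    (h0 : rhoOf C ^ ee g 0 = A0) (h1 : rhoOf C ^ ee g 1 = A1) (h2 : rhoOf C ^ ee g 2 = A2) :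
    pmap (lamOf C) (lat (rhoOf C) g) 0 = ((C.ld + C.ln) * (A1 + A2) + (C.ld - 2 * C.ln) * A0) / (9 * C.ld) ∧
    pmap (lamOf C) (lat (rhoOf C) g) 1 = ((C.ld + C.ln) * (A0 + A2) + (C.ld - 2 * C.ln) * A1) / (9 * C.ld) ∧
    pmap (lamOf C) (lat (rhoOf C) g) 2 = ((C.ld + C.ln) * (A0 + A1) + (C.ld - 2 * C.ln) * A2) / (9 * C.ld) := by
  have hld := ld_pos hC
  have hM : M3 (lat (rhoOf C) g) = (A0 + A1 + A2) / 3 := by
    simp only [M3, lat, h0, h1, h2]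
    ring
  simp only [pmap, hM, lamOf, lat, h0, h1, h2]
  refine ⟨?_, ?_, ?_⟩ <;> field_simp <;> ring

/-- An entry of the table as an inequality for a sublinear functional. -/
lemma F_entry {F : W3 → ℝ} (hF : SubC F) {C : LatCfg} (hC : CfgGood C) (hD : DstGood C C.J) {e : Ent}
    (he : EntGood C e) :
    F (pmap (lamOf C) (lat (rhoOf C) (gOf C.Wd (C.d * C.o) e.p))) ≤
      ((e.c1 : ℝ) * F (lat (rhoOf C) (gJ C e.j1)) + (e.c2 : ℝ) * F (lat (rhoOf C) (gJ C e.j2)) +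
        (e.c3 : ℝ) * F (lat (rhoOf C) (gJ C e.j3))) / 2 ^ C.fS := by
  have hr := rho_pos hC
  have hld := ld_pos hC
  have hK : (0 : ℝ) < 2 ^ C.fS := by positivity
  have hP : (0 : ℝ) < 2 ^ C.fp := by positivity
  have hln : (0 : ℝ) ≤ C.ln := by positivity
  have hl2 : (2 : ℝ) * C.ln ≤ C.ld := by exact_mod_cast hC.l2
  have ec : ((C.ld - 2 * C.ln : ℕ) : ℝ) = (C.ld : ℝ) - 2 * C.ln := by
    rw [Nat.cast_sub hC.l2]
    push_cast
    ring
  obtain ⟨e0, e1, e2⟩ := ee_gOf he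
  have lt_a := eA_lt hC e
  have lt_b : eB C e < C.Wd := by have := he.ba; omega
  have lt_c : eC C e < C.Wd := by have := he.cb; have := he.ba; omega
  obtain ⟨la, ua⟩ := pow_bounds hC lt_a
  obtain ⟨lb, ub⟩ := pow_bounds hC lt_b
  obtain ⟨lc, uc⟩ := pow_bounds hC lt_c
  rw [← e0] at la ua
  rw [← e1] at lb ub
  rw [← e2] at lc uc
  obtain ⟨t10, t11, t12⟩ := upTg_bound hC hD he.j1 e.s1
  obtain ⟨t20, t21, t22⟩ := upTg_bound hC hD he.j2 e.s2
  obtain ⟨t30, t31, t32⟩ := upTg_bound hC hD he.j3 e.s3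
  set g := gOf C.Wd (C.d * C.o) e.p with hg
  have hc1 : (0 : ℝ) ≤ e.c1 := by positivity
  have hc2 : (0 : ℝ) ≤ e.c2 := by positivity
  have hc3 : (0 : ℝ) ≤ e.c3 := by positivity
  have i0 : (3 * (C.ld : ℝ)) * (((tgSum C e).1 : ℕ) : ℝ) ≤ 2 ^ C.fS * (((C.ld : ℝ) + C.ln) *
      ((pw C.wp C.PL (eB C e + (C.E0 - C.d * C.o)) : ℝ) + pw C.wp C.PL (eC C e + (C.E0 - C.d * C.o))) +
      ((C.ld : ℝ) - 2 * C.ln) * pw C.wp C.PL (eA C e + (C.E0 - C.d * C.o))) := by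
    have := he.i0
    rw [← ec]
    exact_mod_cast this
  have i1 : (3 * (C.ld : ℝ)) * (((tgSum C e).2.1 : ℕ) : ℝ) ≤ 2 ^ C.fS * (((C.ld : ℝ) + C.ln) *
      ((pw C.wp C.PL (eA C e + (C.E0 - C.d * C.o)) : ℝ) + pw C.wp C.PL (eC C e + (C.E0 - C.d * C.o))) +
      ((C.ld : ℝ) - 2 * C.ln) * pw C.wp C.PL (eB C e + (C.E0 - C.d * C.o))) := by
    have := he.i1
    rw [← ec]
    exact_mod_cast this
  have i2 : (3 * (C.ld : ℝ)) * (((tgSum C e).2.2 : ℕ) : ℝ) ≤ 2 ^ C.fS * (((C.ld : ℝ) + C.ln) *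
      ((pw C.wp C.PL (eA C e + (C.E0 - C.d * C.o)) : ℝ) + pw C.wp C.PL (eB C e + (C.E0 - C.d * C.o))) +
      ((C.ld : ℝ) - 2 * C.ln) * pw C.wp C.PL (eC C e + (C.E0 - C.d * C.o))) := by
    have := he.i2
    rw [← ec]
    exact_mod_cast this
  have v0 : (((tgSum C e).1 : ℕ) : ℝ) = (e.c1 : ℝ) * ((upTg C e.j1 e.s1).1 : ℕ) +
      ((e.c2 : ℝ) * ((upTg C e.j2 e.s2).1 : ℕ) + (e.c3 : ℝ) * ((upTg C e.j3 e.s3).1 : ℕ)) := by
    show ((Nat.add (Nat.mul e.c1 _) (Nat.add (Nat.mul e.c2 _) (Nat.mul e.c3 _)) : ℕ) : ℝ) = _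
    simp only [Nat.add_eq, Nat.mul_eq]
    push_cast
    ring
  have v1 : (((tgSum C e).2.1 : ℕ) : ℝ) = (e.c1 : ℝ) * ((upTg C e.j1 e.s1).2.1 : ℕ) +
      ((e.c2 : ℝ) * ((upTg C e.j2 e.s2).2.1 : ℕ) + (e.c3 : ℝ) * ((upTg C e.j3 e.s3).2.1 : ℕ)) := by
    show ((Nat.add (Nat.mul e.c1 _) (Nat.add (Nat.mul e.c2 _) (Nat.mul e.c3 _)) : ℕ) : ℝ) = _
    simp only [Nat.add_eq, Nat.mul_eq]
    push_cast
    ring
  have v2 : (((tgSum C e).2.2 : ℕ) : ℝ) = (e.c1 : ℝ) * ((upTg C e.j1 e.s1).2.2 : ℕ) +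
      ((e.c2 : ℝ) * ((upTg C e.j2 e.s2).2.2 : ℕ) + (e.c3 : ℝ) * ((upTg C e.j3 e.s3).2.2 : ℕ)) := by
    show ((Nat.add (Nat.mul e.c1 _) (Nat.add (Nat.mul e.c2 _) (Nat.mul e.c3 _)) : ℕ) : ℝ) = _
    simp only [Nat.add_eq, Nat.mul_eq]
    push_cast
    ring
  rw [v0] at i0
  rw [v1] at i1
  rw [v2] at i2
  have r0 := entry_real hln hl2 hP hK.le hc1 hc2 hc3 i0 t10 t20 t30 la lb lc
  have r1 := entry_real hln hl2 hP hK.le hc1 hc2 hc3 i1 t11 t21 t31 lb la lc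
  have r2 := entry_real hln hl2 hP hK.le hc1 hc2 hc3 i2 t12 t22 t32 lc la lb
  obtain ⟨p0, p1, p2⟩ := pmap_lat_coord hC (g := g) rfl rfl rfl
  have key := F_le_of_coord hF (v := pmap (lamOf C) (lat (rhoOf C) g))
    (x1 := lat (rhoOf C) (act (perm3 e.s1) (gJ C e.j1)))
    (x2 := lat (rhoOf C) (act (perm3 e.s2) (gJ C e.j2)))
    (x3 := lat (rhoOf C) (act (perm3 e.s3) (gJ C e.j3)))
    (t1 := (e.c1 : ℝ) / 2 ^ C.fS) (t2 := (e.c2 : ℝ) / 2 ^ C.fS) (t3 := (e.c3 : ℝ) / 2 ^ C.fS)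
    (by positivity) (by positivity) (by positivity) (lat_nn hr _) (lat_nn hr _) (lat_nn hr _) ?_
  · rw [F_lat_act hF, F_lat_act hF, F_lat_act hF] at key
    calc _ ≤ _ := key
      _ = _ := by ring
  · intro i
    rcases (show i = 0 ∨ i = 1 ∨ i = 2 by fin_cases i <;> simp) with rfl | rfl | rfl
    · rw [p0, le_div_iff₀ (by positivity)]
      simp only [lat]
      have := r0
      have hK' : (2 : ℝ) ^ C.fS ≠ 0 := hK.ne'
      have e4 : ((e.c1 : ℝ) / 2 ^ C.fS * (1 / 3 * rhoOf C ^ ee (act (perm3 e.s1) (gJ C e.j1)) 0) +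
          (e.c2 : ℝ) / 2 ^ C.fS * (1 / 3 * rhoOf C ^ ee (act (perm3 e.s2) (gJ C e.j2)) 0) +
          (e.c3 : ℝ) / 2 ^ C.fS * (1 / 3 * rhoOf C ^ ee (act (perm3 e.s3) (gJ C e.j3)) 0)) * (9 * C.ld) =
          (3 * C.ld * ((e.c1 : ℝ) * rhoOf C ^ ee (act (perm3 e.s1) (gJ C e.j1)) 0 +
            (e.c2 : ℝ) * rhoOf C ^ ee (act (perm3 e.s2) (gJ C e.j2)) 0 +
            (e.c3 : ℝ) * rhoOf C ^ ee (act (perm3 e.s3) (gJ C e.j3)) 0)) / 2 ^ C.fS := by
        field_simp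
        ring
      rw [e4, div_le_iff₀ hK]
      linarith
    · rw [p1, le_div_iff₀ (by positivity)]
      simp only [lat]
      have := r1
      have hK' : (2 : ℝ) ^ C.fS ≠ 0 := hK.ne'
      have e4 : ((e.c1 : ℝ) / 2 ^ C.fS * (1 / 3 * rhoOf C ^ ee (act (perm3 e.s1) (gJ C e.j1)) 1) +
          (e.c2 : ℝ) / 2 ^ C.fS * (1 / 3 * rhoOf C ^ ee (act (perm3 e.s2) (gJ C e.j2)) 1) +
          (e.c3 : ℝ) / 2 ^ C.fS * (1 / 3 * rhoOf C ^ ee (act (perm3 e.s3) (gJ C e.j3)) 1)) * (9 * C.ld) =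
          (3 * C.ld * ((e.c1 : ℝ) * rhoOf C ^ ee (act (perm3 e.s1) (gJ C e.j1)) 1 +
            (e.c2 : ℝ) * rhoOf C ^ ee (act (perm3 e.s2) (gJ C e.j2)) 1 +
            (e.c3 : ℝ) * rhoOf C ^ ee (act (perm3 e.s3) (gJ C e.j3)) 1)) / 2 ^ C.fS := by
        field_simp
        ring
      rw [e4, div_le_iff₀ hK]
      linarith
    · rw [p2, le_div_iff₀ (by positivity)]
      simp only [lat]
      have := r2
      have hK' : (2 : ℝ) ^ C.fS ≠ 0 := hK.ne'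
      have e4 : ((e.c1 : ℝ) / 2 ^ C.fS * (1 / 3 * rhoOf C ^ ee (act (perm3 e.s1) (gJ C e.j1)) 2) +
          (e.c2 : ℝ) / 2 ^ C.fS * (1 / 3 * rhoOf C ^ ee (act (perm3 e.s2) (gJ C e.j2)) 2) +
          (e.c3 : ℝ) / 2 ^ C.fS * (1 / 3 * rhoOf C ^ ee (act (perm3 e.s3) (gJ C e.j3)) 2)) * (9 * C.ld) =
          (3 * C.ld * ((e.c1 : ℝ) * rhoOf C ^ ee (act (perm3 e.s1) (gJ C e.j1)) 2 +
            (e.c2 : ℝ) * rhoOf C ^ ee (act (perm3 e.s2) (gJ C e.j2)) 2 +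
            (e.c3 : ℝ) * rhoOf C ^ ee (act (perm3 e.s3) (gJ C e.j3)) 2)) / 2 ^ C.fS := by
        field_simp
        ring
      rw [e4, div_le_iff₀ hK]
      linarith

/-- The entry of the extreme ray as an inequality for a sublinear functional. -/
lemma F_vtx {F : W3 → ℝ} (hF : SubC F) {C : LatCfg} (hC : CfgGood C) (hD : DstGood C C.J) {v : Ent}
    (hv : vtxOK C v = true) :
    F (pmap (lamOf C) del0) ≤
      ((v.c1 : ℝ) * F (lat (rhoOf C) (gJ C v.j1)) + (v.c2 : ℝ) * F (lat (rhoOf C) (gJ C v.j2)) +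
        (v.c3 : ℝ) * F (lat (rhoOf C) (gJ C v.j3))) / 2 ^ C.fS := by
  unfold vtxOK at hv
  simp only [Bool.and_eq_true, Nat.ble_eq, Nat.blt_eq, shl_eq, one_mul, Nat.add_eq,
    Nat.mul_eq, Nat.sub_eq] at hv
  obtain ⟨j1, j2, j3, i0, i1, i2⟩ := hv
  have hr := rho_pos hC
  have hld := ld_pos hC
  have hK : (0 : ℝ) < 2 ^ C.fS := by positivity
  have hP : (0 : ℝ) < 2 ^ C.fp := by positivity
  have ec : ((C.ld - 2 * C.ln : ℕ) : ℝ) = (C.ld : ℝ) - 2 * C.ln := by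
    rw [Nat.cast_sub hC.l2]
    push_cast
    ring
  obtain ⟨t10, t11, t12⟩ := upTg_bound hC hD j1 v.s1
  obtain ⟨t20, t21, t22⟩ := upTg_bound hC hD j2 v.s2
  obtain ⟨t30, t31, t32⟩ := upTg_bound hC hD j3 v.s3
  have hc1 : (0 : ℝ) ≤ v.c1 := by positivity
  have hc2 : (0 : ℝ) ≤ v.c2 := by positivity
  have hc3 : (0 : ℝ) ≤ v.c3 := by positivity
  have v0 : (((tgSum C v).1 : ℕ) : ℝ) = (v.c1 : ℝ) * ((upTg C v.j1 v.s1).1 : ℕ) +
      ((v.c2 : ℝ) * ((upTg C v.j2 v.s2).1 : ℕ) + (v.c3 : ℝ) * ((upTg C v.j3 v.s3).1 : ℕ)) := by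
    show ((Nat.add (Nat.mul v.c1 _) (Nat.add (Nat.mul v.c2 _) (Nat.mul v.c3 _)) : ℕ) : ℝ) = _
    simp only [Nat.add_eq, Nat.mul_eq]
    push_cast
    ring
  have v1 : (((tgSum C v).2.1 : ℕ) : ℝ) = (v.c1 : ℝ) * ((upTg C v.j1 v.s1).2.1 : ℕ) +
      ((v.c2 : ℝ) * ((upTg C v.j2 v.s2).2.1 : ℕ) + (v.c3 : ℝ) * ((upTg C v.j3 v.s3).2.1 : ℕ)) := by
    show ((Nat.add (Nat.mul v.c1 _) (Nat.add (Nat.mul v.c2 _) (Nat.mul v.c3 _)) : ℕ) : ℝ) = _
    simp only [Nat.add_eq, Nat.mul_eq]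
    push_cast
    ring
  have v2 : (((tgSum C v).2.2 : ℕ) : ℝ) = (v.c1 : ℝ) * ((upTg C v.j1 v.s1).2.2 : ℕ) +
      ((v.c2 : ℝ) * ((upTg C v.j2 v.s2).2.2 : ℕ) + (v.c3 : ℝ) * ((upTg C v.j3 v.s3).2.2 : ℕ)) := by
    show ((Nat.add (Nat.mul v.c1 _) (Nat.add (Nat.mul v.c2 _) (Nat.mul v.c3 _)) : ℕ) : ℝ) = _
    simp only [Nat.add_eq, Nat.mul_eq]
    push_cast
    ring
  have i0' : (C.ld : ℝ) * (((tgSum C v).1 : ℕ) : ℝ) ≤ 2 ^ (C.fS + C.fp) * ((C.ld : ℝ) - 2 * C.ln) := by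
    rw [← ec]
    exact_mod_cast i0
  have i1' : (C.ld : ℝ) * (((tgSum C v).2.1 : ℕ) : ℝ) ≤ 2 ^ (C.fS + C.fp) * ((C.ld : ℝ) + C.ln) := by
    exact_mod_cast i1
  have i2' : (C.ld : ℝ) * (((tgSum C v).2.2 : ℕ) : ℝ) ≤ 2 ^ (C.fS + C.fp) * ((C.ld : ℝ) + C.ln) := by
    exact_mod_cast i2
  rw [v0] at i0'
  rw [v1] at i1'
  rw [v2] at i2'
  rw [pow_add] at i0' i1' i2'
  have aux : ∀ {r1 r2 r3 U1 U2 U3 T : ℝ}, 2 ^ C.fp * r1 ≤ U1 → 2 ^ C.fp * r2 ≤ U2 → 2 ^ C.fp * r3 ≤ U3 →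
      (C.ld : ℝ) * ((v.c1 : ℝ) * U1 + ((v.c2 : ℝ) * U2 + (v.c3 : ℝ) * U3)) ≤ 2 ^ C.fS * 2 ^ C.fp * T →
      ((v.c1 : ℝ) / 2 ^ C.fS) * (1 / 3 * r1) + ((v.c2 : ℝ) / 2 ^ C.fS) * (1 / 3 * r2) +
        ((v.c3 : ℝ) / 2 ^ C.fS) * (1 / 3 * r3) ≤ T / (3 * C.ld) := by
    intro r1 r2 r3 U1 U2 U3 T u1 u2 u3 H
    have b1 := mul_le_mul_of_nonneg_left u1 hc1
    have b2 := mul_le_mul_of_nonneg_left u2 hc2
    have b3 := mul_le_mul_of_nonneg_left u3 hc3
    have a1 : (2 : ℝ) ^ C.fp * ((v.c1 : ℝ) * r1 + (v.c2 : ℝ) * r2 + (v.c3 : ℝ) * r3) ≤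
        (v.c1 : ℝ) * U1 + ((v.c2 : ℝ) * U2 + (v.c3 : ℝ) * U3) := by
      have e0 : (2 : ℝ) ^ C.fp * ((v.c1 : ℝ) * r1 + (v.c2 : ℝ) * r2 + (v.c3 : ℝ) * r3) =
          (v.c1 : ℝ) * (2 ^ C.fp * r1) + (v.c2 : ℝ) * (2 ^ C.fp * r2) + (v.c3 : ℝ) * (2 ^ C.fp * r3) := by
        ring
      rw [e0]
      linarith
    have a2 := mul_le_mul_of_nonneg_left a1 hld.le
    have a3 : (2 : ℝ) ^ C.fp * ((C.ld : ℝ) * ((v.c1 : ℝ) * r1 + (v.c2 : ℝ) * r2 + (v.c3 : ℝ) * r3)) ≤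
        2 ^ C.fp * (2 ^ C.fS * T) := by
      have e1 : (2 : ℝ) ^ C.fp * ((C.ld : ℝ) * ((v.c1 : ℝ) * r1 + (v.c2 : ℝ) * r2 + (v.c3 : ℝ) * r3)) =
          (C.ld : ℝ) * ((2 : ℝ) ^ C.fp * ((v.c1 : ℝ) * r1 + (v.c2 : ℝ) * r2 + (v.c3 : ℝ) * r3)) := by ring
      have e2 : (2 : ℝ) ^ C.fp * (2 ^ C.fS * T) = 2 ^ C.fS * 2 ^ C.fp * T := by ring
      rw [e1, e2]
      exact a2.trans H
    have a4 := le_of_mul_le_mul_left a3 hP
    rw [le_div_iff₀ (by positivity)]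
    have e : (((v.c1 : ℝ) / 2 ^ C.fS) * (1 / 3 * r1) + ((v.c2 : ℝ) / 2 ^ C.fS) * (1 / 3 * r2) +
        ((v.c3 : ℝ) / 2 ^ C.fS) * (1 / 3 * r3)) * (3 * C.ld) =
        ((C.ld : ℝ) * ((v.c1 : ℝ) * r1 + (v.c2 : ℝ) * r2 + (v.c3 : ℝ) * r3)) / 2 ^ C.fS := by
      field_simp
    rw [e, div_le_iff₀ hK]
    linarith
  have r0 := aux t10 t20 t30 i0'
  have r1 := aux t11 t21 t31 i1'
  have r2 := aux t12 t22 t32 i2'
  have key := F_le_of_coord hF (v := pmap (lamOf C) del0)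
    (x1 := lat (rhoOf C) (act (perm3 v.s1) (gJ C v.j1)))
    (x2 := lat (rhoOf C) (act (perm3 v.s2) (gJ C v.j2)))
    (x3 := lat (rhoOf C) (act (perm3 v.s3) (gJ C v.j3)))
    (t1 := (v.c1 : ℝ) / 2 ^ C.fS) (t2 := (v.c2 : ℝ) / 2 ^ C.fS) (t3 := (v.c3 : ℝ) / 2 ^ C.fS)
    (by positivity) (by positivity) (by positivity) (lat_nn hr _) (lat_nn hr _) (lat_nn hr _) ?_
  · rw [F_lat_act hF, F_lat_act hF, F_lat_act hF] at key
    calc _ ≤ _ := key
      _ = _ := by ring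
  · have hM : M3 del0 = 1 := by simp [M3, del0]
    have p0 : pmap (lamOf C) del0 0 = ((C.ld : ℝ) - 2 * C.ln) / (3 * C.ld) := by
      simp only [pmap, hM, lamOf, del0, if_true]
      field_simp
      ring
    have p1 : pmap (lamOf C) del0 1 = ((C.ld : ℝ) + C.ln) / (3 * C.ld) := by
      simp only [pmap, hM, lamOf, del0]
      simp
      field_simp
    have p2 : pmap (lamOf C) del0 2 = ((C.ld : ℝ) + C.ln) / (3 * C.ld) := by
      simp only [pmap, hM, lamOf, del0]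
      simp
      field_simp
    intro i
    rcases (show i = 0 ∨ i = 1 ∨ i = 2 by fin_cases i <;> simp) with rfl | rfl | rfl
    · rw [p0]
      exact r0
    · rw [p1]
      exact r1
    · rw [p2]
      exact r2

lemma M3_lat_le {C : LatCfg} (hC : CfgGood C) {e : Ent} (he : EntGood C e) :
    M3 (lat (rhoOf C) (gOf C.Wd (C.d * C.o) e.p)) ≤ (e.mu : ℝ) / (3 * 2 ^ C.fp) := by
  obtain ⟨e0, e1, e2⟩ := ee_gOf he
  have lt_a := eA_lt hC e
  have lt_b : eB C e < C.Wd := by have := he.ba; omega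
  have lt_c : eC C e < C.Wd := by have := he.cb; have := he.ba; omega
  obtain ⟨la, ua⟩ := pow_bounds hC lt_a
  obtain ⟨lb, ub⟩ := pow_bounds hC lt_b
  obtain ⟨lc, uc⟩ := pow_bounds hC lt_c
  rw [← e0] at ua
  rw [← e1] at ub
  rw [← e2] at uc
  have hmu : ((pw C.wp C.PU (eA C e + (C.E0 - C.d * C.o)) : ℕ) : ℝ) +
      (pw C.wp C.PU (eB C e + (C.E0 - C.d * C.o)) + pw C.wp C.PU (eC C e + (C.E0 - C.d * C.o))) ≤ e.mu := by
    exact_mod_cast he.mu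
  have hP : (0 : ℝ) < 2 ^ C.fp := by positivity
  rw [le_div_iff₀ (by positivity)]
  simp only [M3, lat]
  nlinarith

lemma mulR3_shift (a b c t : ℤ) : mulR3 (a - t) (b - t) (c - t) = mulR3 a b c := by
  simp only [mulR3, sub_lt_sub_iff_right, sub_left_inj]

lemma mulOf_eq {a b c : ℕ} (h1 : b ≤ a) (h2 : c ≤ b) : mulOf a b c = mulR3 a b c := by
  unfold mulOf mulR3
  simp only [Nat.blt_eq, Nat.cast_lt, Nat.cast_inj]
  by_cases h : b < a <;> by_cases h' : c < b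
  · simp [h, h']
  · have : c = b := by omega
    simp [h, h', this]
  · have : b = a := by omega
    subst this
    simp [h']
  · have e1 : b = a := by omega
    have e2 : c = b := by omega
    subst e1
    subst e2
    simp

lemma mul_eq_mulR {C : LatCfg} {e : Ent} (he : EntGood C e) :
    e.m = mulR (gOf C.Wd (C.d * C.o) e.p) := by
  have hs : (eA C e : ℤ) + eB C e + eC C e = 3 * ((C.d * C.o : ℕ) : ℤ) := by
    have := he.sum3
    have e2 : 3 * C.d * C.o = 3 * (C.d * C.o) := by ring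
    rw [e2] at this
    exact_mod_cast this
  rw [he.m, mulOf_eq he.ba he.cb]
  have ez : -((eA C e : ℤ) - ((C.d * C.o : ℕ) : ℤ)) - ((eB C e : ℤ) - ((C.d * C.o : ℕ) : ℤ)) =
      (eC C e : ℤ) - ((C.d * C.o : ℕ) : ℤ) := by linarith
  show _ = mulR3 ((eA C e : ℤ) - ((C.d * C.o : ℕ) : ℤ)) ((eB C e : ℤ) - ((C.d * C.o : ℕ) : ℤ))
    (-((eA C e : ℤ) - ((C.d * C.o : ℕ) : ℤ)) - ((eB C e : ℤ) - ((C.d * C.o : ℕ) : ℤ)))
  rw [ez, mulR3_shift]

/-! ### The accumulator -/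

/-- The contributions of an entry to the slots of the accumulator. -/
def contrib (J : ℕ) (e : Ent) (v : ℕ) : List (ℕ × ℕ) :=
  [(e.j1, v * e.m * e.c1), (e.j2, v * e.m * e.c2), (e.j3, v * e.m * e.c3), (J, v * e.m * e.mu),
    (J + 1, v * e.m * (e.c1 + (e.c2 + (e.c3 + e.mu))))]

/-- The contributions of the entry of the extreme ray. -/
def contribV (J dv : ℕ) (v : Ent) : List (ℕ × ℕ) :=
  [(v.j1, dv * v.c1), (v.j2, dv * v.c2), (v.j3, dv * v.c3), (J + 1, dv * (v.c1 + (v.c2 + v.c3)))]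

lemma slotAdd_eq (wa J v : ℕ) (e : Ent) : slotAdd wa J v e = encP wa (contrib J e v) := by
  simp only [slotAdd, contrib, encP_cons, encP_nil, shl_eq, Nat.add_eq, Nat.mul_eq, Nat.succ_eq_add_one,
    add_zero]

lemma vtxAdd_eq (wa J dv : ℕ) (v : Ent) : vtxAdd wa J dv v = encP wa (contribV J dv v) := by
  simp only [vtxAdd, contribV, encP_cons, encP_nil, shl_eq, Nat.add_eq, Nat.mul_eq, Nat.succ_eq_add_one,
    add_zero]

lemma digAt_dig (W Z k : ℕ) : dig W Z k = digAt W Z k := dig_eq W Z k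

lemma digAt_piece (W Z st n k : ℕ) (hk : k < n) : digAt W (piece W Z st n) k = digAt W Z (st + k) :=
  piece_digit W Z st n k hk

lemma sumEnts_eq (W wa J R st Z : ℕ) (es : List Ent)
    (h : ∀ e ∈ es, digAt W R (e.p - st) = digAt W Z e.p) :
    sumEnts W (Nat.sub (Nat.shiftLeft 1 W) 1) wa J R st es =
      encP wa (es.flatMap (fun e => contrib J e (digAt W Z e.p))) := by
  induction es with
  | nil => rfl
  | cons e es ih =>
    simp only [sumEnts, List.flatMap_cons, encP_append]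
    rw [← ih (fun e' he' => h e' (by simp [he']))]
    have e1 : Nat.land (Nat.shiftRight R (Nat.mul W (Nat.sub e.p st))) (Nat.sub (Nat.shiftLeft 1 W) 1) =
        digAt W R (e.p - st) := digAt_dig W R (e.p - st)
    rw [e1, h e (by simp), slotAdd_eq]
    rfl

lemma sumSegs_eq (W wa J B st Z : ℕ) (ss : List Seg)
    (h : ∀ s ∈ ss, ∀ e ∈ s.es, digAt W (piece W B (s.st - st) s.ln) (e.p - s.st) = digAt W Z e.p) :
    sumSegs W (Nat.sub (Nat.shiftLeft 1 W) 1) wa J B st ss =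
      encP wa ((ss.flatMap (fun s => s.es)).flatMap (fun e => contrib J e (digAt W Z e.p))) := by
  induction ss with
  | nil => rfl
  | cons s ss ih =>
    simp only [sumSegs, List.flatMap_cons, List.flatMap_append, encP_append]
    rw [← ih (fun s' hs' => h s' (by simp [hs']))]
    have := sumEnts_eq W wa J (piece W B (s.st - st) s.ln) s.st Z s.es (h s (by simp))
    rw [← this]
    rfl

lemma rangeOK_sound {T : List Blk} (h : rangeOK T = true) : ∀ b ∈ T, ∀ s ∈ b.ss, b.st ≤ s.st ∧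
    s.st + s.ln ≤ b.st + b.ln ∧ ∀ e ∈ s.es, s.st ≤ e.p ∧ e.p < s.st + s.ln := by
  intro b hb s hs
  simp only [rangeOK, List.all_eq_true, Bool.and_eq_true, Nat.ble_eq, Nat.blt_eq] at h
  obtain ⟨h1, h2, h3⟩ := h b hb s hs
  exact ⟨h1, h2, h3⟩

lemma sumBlks_eq (W wa J Z : ℕ) (T : List Blk) (hT : rangeOK T = true) :
    sumBlks W (Nat.sub (Nat.shiftLeft 1 W) 1) wa J Z T =
      encP wa ((flatT T).flatMap (fun e => contrib J e (digAt W Z e.p))) := by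
  have hR := rangeOK_sound hT
  induction T with
  | nil => rfl
  | cons b bs ih =>
    have hbs : rangeOK bs = true := by
      simp only [rangeOK, List.all_cons, Bool.and_eq_true] at hT ⊢
      exact hT.2
    simp only [sumBlks, flatT, List.flatMap_cons, List.flatMap_append, encP_append]
    have h2 := ih hbs (fun b' hb' => hR b' (by simp [hb']))
    simp only [flatT] at h2
    rw [← h2]
    have := sumSegs_eq W wa J (piece W Z b.st b.ln) b.st Z b.ss (by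
      intro s hs e he
      obtain ⟨h1, h2, h3⟩ := hR b (by simp) s hs
      obtain ⟨h4, h5⟩ := h3 e he
      rw [digAt_piece W _ _ _ _ (by omega), digAt_piece W _ _ _ _ (by omega)]
      congr 1
      omega)
    rw [← this]
    rfl

/-- Positions of a list of slots and their total at the top. -/
lemma coefP_mul_le (W : ℕ) (l : List (ℕ × ℕ)) (q : ℕ) : coefP l q * 2 ^ (W * q) ≤ encP W l := by
  induction l with
  | nil => simp [coefP, encP]
  | cons a l ih =>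
    rw [coefP_cons, encP_cons, add_mul]
    split_ifs with h
    · subst h
      omega
    · omega

/-- The slots other than the top are at most the top slot. -/
def TopOK (J : ℕ) (l : List (ℕ × ℕ)) : Prop := ∀ q, coefP l q ≤ coefP l (J + 1)

lemma TopOK.append {J : ℕ} {l l' : List (ℕ × ℕ)} (h : TopOK J l) (h' : TopOK J l') : TopOK J (l ++ l') := by
  intro q
  rw [coefP_append, coefP_append]
  exact add_le_add (h q) (h' q)

lemma topOK_contrib (J : ℕ) (e : Ent) (v : ℕ) : TopOK J (contrib J e v) := by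
  intro q
  by_cases hq : q = J + 1
  · subst hq
    exact le_rfl
  simp only [contrib, coefP_cons, coefP_nil]
  have e0 : v * e.m * (e.c1 + (e.c2 + (e.c3 + e.mu))) =
      v * e.m * e.c1 + (v * e.m * e.c2 + (v * e.m * e.c3 + v * e.m * e.mu)) := by
    ring
  rw [e0]
  have h1 : ∀ (p A : ℕ), (if p = q then A else 0) ≤ A := fun p A => by split_ifs <;> omega
  have t1 := h1 e.j1 (v * e.m * e.c1)
  have t2 := h1 e.j2 (v * e.m * e.c2)
  have t3 := h1 e.j3 (v * e.m * e.c3)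
  have t4 := h1 J (v * e.m * e.mu)
  have t5 : (if J + 1 = q then v * e.m * e.c1 + (v * e.m * e.c2 + (v * e.m * e.c3 + v * e.m * e.mu)) else 0) = 0 :=
    if_neg (fun h => hq h.symm)
  rw [t5, if_pos trivial]
  omega

lemma topOK_contribV (J dv : ℕ) (v : Ent) : TopOK J (contribV J dv v) := by
  intro q
  by_cases hq : q = J + 1
  · subst hq
    exact le_rfl
  simp only [contribV, coefP_cons, coefP_nil]
  have e0 : dv * (v.c1 + (v.c2 + v.c3)) = dv * v.c1 + (dv * v.c2 + dv * v.c3) := by ring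
  rw [e0]
  have h1 : ∀ (p A : ℕ), (if p = q then A else 0) ≤ A := fun p A => by split_ifs <;> omega
  have t1 := h1 v.j1 (dv * v.c1)
  have t2 := h1 v.j2 (dv * v.c2)
  have t3 := h1 v.j3 (dv * v.c3)
  have t5 : (if J + 1 = q then dv * v.c1 + (dv * v.c2 + dv * v.c3) else 0) = 0 :=
    if_neg (fun h => hq h.symm)
  rw [t5, if_pos trivial]
  omega

lemma topOK_flat (J : ℕ) (val : Ent → ℕ) (E : List Ent) :
    TopOK J (E.flatMap (fun e => contrib J e (val e))) := by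
  induction E with
  | nil => intro q; simp [coefP]
  | cons e E ih =>
    simp only [List.flatMap_cons]
    exact (topOK_contrib J e _).append ih

/-- The digit of the accumulator is the slot, if the top slot does not overflow. -/
lemma acc_digit {wa J : ℕ} {l : List (ℕ × ℕ)} (hl : TopOK J l)
    (h1 : encP wa l / 2 ^ (wa * (J + 1)) < 2 ^ wa)
    (q : ℕ) : dig wa (encP wa l) q = coefP l q := by
  have h2 : coefP l (J + 1) < 2 ^ wa := by
    have := coefP_mul_le wa l (J + 1)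
    have h3 : coefP l (J + 1) ≤ encP wa l / 2 ^ (wa * (J + 1)) := by
      rw [Nat.le_div_iff_mul_le (by positivity)]
      exact this
    omega
  rw [digAt_dig]
  exact digit_encP wa l (fun q => lt_of_le_of_lt (hl q) h2) q

end Vale.Agent.Lib.P154Anti
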