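import Vale.Agent.Lib.P154Anti.Kron
import Vale.Agent.Lib.P154Anti.LatChk

/-!
The meaning of the computations of `LatChk`: finite laws with natural coordinates and their
Kronecker encoding.
-/

namespace Vale.Agent.Lib.P154Anti

open Vale.Agent.Lib.P154

/-- A law with natural (offset) coordinates. -/
abbrev RL := List ((ℕ × ℕ) × ℕ)

/-- The product of two raw laws. -/
def rawProd (l l' : RL) : RL :=
  l.flatMap (fun p => l'.map (fun q => ((p.1.1 + q.1.1, p.1.2 + q.1.2), p.2 * q.2)))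

/-- Powers of a raw law, with `k + 1` factors. -/
def rawPow (l : RL) : ℕ → RL
  | 0 => l
  | k + 1 => rawProd (rawPow l k) l

/-- The finite law of a raw law, shifting the coordinates by `t`. -/
def ofRaw (t : ℕ) (l : RL) : Lw := l.map (fun p => (((p.1.1 : ℤ) - t, (p.1.2 : ℤ) - t), p.2))

lemma ofRaw_nil (t : ℕ) : ofRaw t [] = [] := rfl

lemma ofRaw_cons (t : ℕ) (p : (ℕ × ℕ) × ℕ) (l : RL) :
    ofRaw t (p :: l) = (((p.1.1 : ℤ) - t, (p.1.2 : ℤ) - t), p.2) :: ofRaw t l := rfl

lemma ofRaw_append (t : ℕ) (l l' : RL) : ofRaw t (l ++ l') = ofRaw t l ++ ofRaw t l' := by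
  simp [ofRaw]

lemma ofRaw_prod (t t' : ℕ) (l l' : RL) :
    Lprod (ofRaw t l) (ofRaw t' l') = ofRaw (t + t') (rawProd l l') := by
  induction l with
  | nil => simp [Lprod, ofRaw, rawProd]
  | cons p l ih =>
    have e1 : Lprod (ofRaw t (p :: l)) (ofRaw t' l') =
        (ofRaw t' l').map (fun q => ((((p.1.1 : ℤ) - t, (p.1.2 : ℤ) - t) + q.1, p.2 * q.2))) ++
          Lprod (ofRaw t l) (ofRaw t' l') := by
      simp [Lprod, ofRaw_cons]
    have e2 : rawProd (p :: l) l' =
        l'.map (fun q => ((p.1.1 + q.1.1, p.1.2 + q.1.2), p.2 * q.2)) ++ rawProd l l' := by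
      simp [rawProd]
    rw [e1, e2, ofRaw_append, ih]
    congr 1
    simp only [ofRaw, List.map_map]
    apply List.map_congr_left
    intro q _
    simp only [Function.comp, Prod.mk_add_mk, Prod.mk.injEq, and_true]
    push_cast
    constructor <;> ring

lemma ofRaw_pow (o : ℕ) (l : RL) : ∀ k, Lpow (ofRaw o l) k = ofRaw ((k + 1) * o) (rawPow l k)
  | 0 => by simp [Lpow, rawPow]
  | k + 1 => by
    simp only [Lpow, rawPow]
    rw [ofRaw_pow o l k, ofRaw_prod]
    congr 1
    ring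

/-- Positions of a raw law. -/
def posL (Wd : ℕ) (l : RL) : List (ℕ × ℕ) := l.map (fun p => (p.1.1 + Wd * p.1.2, p.2))

lemma encP_append (W : ℕ) (l l' : List (ℕ × ℕ)) : encP W (l ++ l') = encP W l + encP W l' := by
  simp [encP]

lemma encP_nil (W : ℕ) : encP W [] = 0 := rfl

lemma encP_cons (W : ℕ) (p : ℕ × ℕ) (l : List (ℕ × ℕ)) :
    encP W (p :: l) = p.2 * 2 ^ (W * p.1) + encP W l := by
  simp [encP]

lemma coefP_nil (q : ℕ) : coefP [] q = 0 := rfl

lemma coefP_cons (p : ℕ × ℕ) (l : List (ℕ × ℕ)) (q : ℕ) :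
    coefP (p :: l) q = (if p.1 = q then p.2 else 0) + coefP l q := by
  simp [coefP]

lemma coefP_append (l l' : List (ℕ × ℕ)) (q : ℕ) : coefP (l ++ l') q = coefP l q + coefP l' q := by
  simp [coefP]

lemma totP_cons (p : ℕ × ℕ) (l : List (ℕ × ℕ)) : totP (p :: l) = p.2 + totP l := by
  simp [totP]

lemma totP_append (l l' : List (ℕ × ℕ)) : totP (l ++ l') = totP l + totP l' := by
  simp [totP]

lemma encP_posL_prod (W Wd : ℕ) (l l' : RL) :
    encP W (posL Wd (rawProd l l')) = encP W (posL Wd l) * encP W (posL Wd l') := by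
  induction l with
  | nil => simp [rawProd, posL, encP]
  | cons p l ih =>
    have e2 : rawProd (p :: l) l' =
        l'.map (fun q => ((p.1.1 + q.1.1, p.1.2 + q.1.2), p.2 * q.2)) ++ rawProd l l' := by
      simp [rawProd]
    rw [e2]
    simp only [posL, List.map_append, List.map_cons]
    rw [encP_append, encP_cons]
    simp only [posL] at ih
    rw [ih, add_mul]
    congr 1
    clear ih e2
    induction l' with
    | nil => simp [encP]
    | cons q l' ih' =>
      simp only [List.map_cons]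
      rw [encP_cons, encP_cons, ih', mul_add]
      congr 1
      simp only [mul_add, pow_add]
      ring

lemma encP_posL_pow (W Wd : ℕ) (l : RL) :
    ∀ k, encP W (posL Wd (rawPow l k)) = encP W (posL Wd l) ^ (k + 1)
  | 0 => by simp [rawPow]
  | k + 1 => by
    simp only [rawPow]
    rw [encP_posL_prod, encP_posL_pow W Wd l k]
    ring

lemma totP_posL_prod (Wd : ℕ) (l l' : RL) :
    totP (posL Wd (rawProd l l')) = totP (posL Wd l) * totP (posL Wd l') := by
  induction l with
  | nil => simp [rawProd, posL, totP]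
  | cons p l ih =>
    have e2 : rawProd (p :: l) l' =
        l'.map (fun q => ((p.1.1 + q.1.1, p.1.2 + q.1.2), p.2 * q.2)) ++ rawProd l l' := by
      simp [rawProd]
    rw [e2]
    simp only [posL, List.map_append, List.map_cons]
    rw [totP_append, totP_cons]
    simp only [posL] at ih
    rw [ih, add_mul]
    congr 1
    clear ih e2
    induction l' with
    | nil => simp [totP]
    | cons q l' ih' =>
      simp only [List.map_cons]
      rw [totP_cons, totP_cons, ih']
      simp only [mul_add]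

lemma totP_posL_pow (Wd : ℕ) (l : RL) :
    ∀ k, totP (posL Wd (rawPow l k)) = totP (posL Wd l) ^ (k + 1)
  | 0 => by simp [rawPow]
  | k + 1 => by
    simp only [rawPow]
    rw [totP_posL_prod, totP_posL_pow Wd l k]
    ring

/-- All coordinates of a raw law are at most `B`. -/
def BdR (B : ℕ) (l : RL) : Prop := ∀ p ∈ l, p.1.1 ≤ B ∧ p.1.2 ≤ B

lemma BdR.prod {B B' : ℕ} {l l' : RL} (h : BdR B l) (h' : BdR B' l') : BdR (B + B') (rawProd l l') := by
  intro p hp
  simp only [rawProd, List.mem_flatMap, List.mem_map] at hp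
  obtain ⟨a, ha, b, hb, rfl⟩ := hp
  have h1 := h a ha
  have h2 := h' b hb
  simp only
  omega

lemma BdR.pow {B : ℕ} {l : RL} (h : BdR B l) : ∀ k, BdR ((k + 1) * B) (rawPow l k)
  | 0 => by simpa [rawPow] using h
  | k + 1 => by
    have := (BdR.pow h k).prod h
    have e : (k + 1 + 1) * B = (k + 1) * B + B := by ring
    rw [e]
    exact this

/-! ### The law of the packed masses -/

/-- The raw orbit of a triple of coordinates, each point with mass `q`. -/
def rawOrb (a b c q : ℕ) : RL :=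
  [((a, b), q), ((b, c), q), ((c, a), q), ((a, c), q), ((b, a), q), ((c, b), q)]

/-- The raw law of the packed masses. -/
def rawQ (C : LatCfg) (Q : ℕ) : ℕ → RL
  | 0 => []
  | j + 1 => rawOrb (dA C j) (dB C j) (dC C j) (dig C.fq Q j) ++ rawQ C Q j

lemma orbP_eq (W Wd a b c q : ℕ) :
    q * orbP W Wd a b c = encP W (posL Wd (rawOrb a b c q)) := by
  have s : ∀ x, Nat.shiftLeft 1 x = 2 ^ x := fun x => by
    have := Nat.shiftLeft_eq 1 x
    rw [one_mul] at this
    exact this
  simp only [orbP, s, rawOrb, posL, List.map_cons, List.map_nil, encP_cons, encP_nil, ps]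
  show q * (_ + (_ + (_ + (_ + (_ + _))))) = _
  simp only [Nat.add_eq, Nat.mul_eq]
  ring

lemma encB_eq (C : LatCfg) (Q : ℕ) : ∀ n, encB C Q n = encP C.W (posL C.Wd (rawQ C Q n))
  | 0 => rfl
  | j + 1 => by
    simp only [encB, rawQ]
    have e : posL C.Wd (rawOrb (dA C j) (dB C j) (dC C j) (dig C.fq Q j) ++ rawQ C Q j) =
        posL C.Wd (rawOrb (dA C j) (dB C j) (dC C j) (dig C.fq Q j)) ++ posL C.Wd (rawQ C Q j) := by
      simp [posL]
    rw [e, encP_append, ← orbP_eq, ← encB_eq C Q j]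
    rfl

lemma totP_rawQ (C : LatCfg) (Q : ℕ) : ∀ n, totP (posL C.Wd (rawQ C Q n)) = 6 * totQ C Q n
  | 0 => rfl
  | j + 1 => by
    have e : posL C.Wd (rawQ C Q (j + 1)) =
        posL C.Wd (rawOrb (dA C j) (dB C j) (dC C j) (dig C.fq Q j)) ++ posL C.Wd (rawQ C Q j) := by
      simp [posL, rawQ]
    rw [e, totP_append, totP_rawQ C Q j]
    simp only [posL, rawOrb, List.map_cons, List.map_nil, totP_cons]
    simp only [totQ, totP]
    simp only [Nat.add_eq, List.map_nil, List.sum_nil]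
    ring

/-! ### Symmetry of the law -/

lemma univ_perm : (Finset.univ : Finset (Equiv.Perm (Fin 3))) = {1, s1, s2, s3, s4, s5} := by
  decide

lemma sum_perm (h : Equiv.Perm (Fin 3) → ℝ) :
    ∑ σ, h σ = h 1 + (h s1 + (h s2 + (h s3 + (h s4 + h s5)))) := by
  rw [univ_perm]
  rw [Finset.sum_insert (by decide), Finset.sum_insert (by decide), Finset.sum_insert (by decide),
    Finset.sum_insert (by decide), Finset.sum_insert (by decide), Finset.sum_singleton]

lemma act_s1 (g : ℤ × ℤ) : act s1 g = (g.2, -g.1 - g.2) := rfl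
lemma act_s2 (g : ℤ × ℤ) : act s2 g = (-g.1 - g.2, g.1) := rfl
lemma act_s3 (g : ℤ × ℤ) : act s3 g = (g.1, -g.1 - g.2) := rfl
lemma act_s4 (g : ℤ × ℤ) : act s4 g = (g.2, g.1) := rfl
lemma act_s5 (g : ℤ × ℤ) : act s5 g = (-g.1 - g.2, g.2) := rfl

/-- The point of a raw triple. -/
def gPt (o a b : ℕ) : ℤ × ℤ := ((a : ℤ) - o, (b : ℤ) - o)

lemma Lsum_rawOrb (o a b c q : ℕ) (h : a + b + c = 3 * o) (f : ℤ × ℤ → ℝ) :
    Lsum (ofRaw o (rawOrb a b c q)) f = (q : ℝ) * ∑ σ, f (act σ (gPt o a b)) := by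
  have hc : (c : ℤ) - o = -((a : ℤ) - o) - ((b : ℤ) - o) := by
    have : (a : ℤ) + b + c = 3 * o := by exact_mod_cast h
    linarith
  rw [sum_perm, act_one, act_s1, act_s2, act_s3, act_s4, act_s5]
  simp only [ofRaw, rawOrb, List.map_cons, List.map_nil, Lsum_cons, Lsum_nil, gPt, hc, add_zero]
  ring

/-- The point of a class. -/
def gJ (C : LatCfg) (j : ℕ) : ℤ × ℤ := gPt C.o (dA C j) (dB C j)

lemma dig_eq (w Q j : ℕ) : dig w Q j = Q / 2 ^ (w * j) % 2 ^ w := by
  have e0 : Nat.sub (Nat.shiftLeft 1 w) 1 = 2 ^ w - 1 := by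
    have := Nat.shiftLeft_eq 1 w
    rw [one_mul] at this
    show (1 <<< w) - 1 = _
    rw [this]
  simp only [dig]
  rw [e0]
  show (Q >>> (w * j)) &&& (2 ^ w - 1) = _
  rw [Nat.and_two_pow_sub_one_eq_mod, Nat.shiftRight_eq_div_pow]

/-- The conditions on the classes. -/
structure DstGood (C : LatCfg) (n : ℕ) : Prop where
  sum3 : ∀ j, j < n → dA C j + dB C j + dC C j = 3 * C.o
  bd : ∀ j, j < n → dA C j ≤ C.R ∧ dB C j ≤ C.R ∧ dC C j ≤ C.R

lemma dstOK_good (C : LatCfg) : ∀ n, dstOK C n = true → DstGood C n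
  | 0, _ => ⟨fun _ h => absurd h (Nat.not_lt_zero _), fun _ h => absurd h (Nat.not_lt_zero _)⟩
  | n + 1, h => by
    simp only [dstOK, Bool.and_eq_true, Nat.ble_eq] at h
    obtain ⟨h1, h2, h3, h4, h5⟩ := h
    have ih := dstOK_good C n h5
    have hs : dA C n + dB C n + dC C n = 3 * C.o := by
      have : dC C n = 3 * C.o - (dA C n + dB C n) := rfl
      have h3' : dA C n + dB C n ≤ 3 * C.o := h3
      omega
    constructor
    · intro j hj
      rcases Nat.lt_succ_iff_lt_or_eq.mp hj with hj | rfl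
      · exact ih.sum3 j hj
      · exact hs
    · intro j hj
      rcases Nat.lt_succ_iff_lt_or_eq.mp hj with hj | rfl
      · exact ih.bd j hj
      · exact ⟨h1, h2, h4⟩

lemma Lsum_rawQ (C : LatCfg) (Q : ℕ) {n : ℕ} (h : DstGood C n) (f : ℤ × ℤ → ℝ) :
    Lsum (ofRaw C.o (rawQ C Q n)) f =
      ∑ j ∈ Finset.range n, (dig C.fq Q j : ℝ) * ∑ σ, f (act σ (gJ C j)) := by
  induction n with
  | zero => simp [rawQ, ofRaw]
  | succ n ih =>
    have h' : DstGood C n := ⟨fun j hj => h.sum3 j (by omega), fun j hj => h.bd j (by omega)⟩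
    simp only [rawQ]
    rw [ofRaw_append, Lsum_append, Lsum_rawOrb _ _ _ _ _ (h.sum3 n (by omega)), ih h',
      Finset.sum_range_succ]
    rw [add_comm]
    rfl

lemma sum_act_mul (τ : Equiv.Perm (Fin 3)) (f : ℤ × ℤ → ℝ) (g : ℤ × ℤ) :
    ∑ σ : Equiv.Perm (Fin 3), f (act τ (act σ g)) = ∑ σ, f (act σ g) := by
  simp only [act_act]
  exact Equiv.sum_comp (Equiv.mulRight τ) (fun σ => f (act σ g))

lemma symL_rawQ (C : LatCfg) (Q : ℕ) {n : ℕ} (h : DstGood C n) : SymL (ofRaw C.o (rawQ C Q n)) := by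
  intro τ f
  rw [Lsum_rawQ C Q h, Lsum_rawQ C Q h]
  apply Finset.sum_congr rfl
  intro j _
  rw [sum_act_mul]

lemma BdR_rawQ (C : LatCfg) (Q : ℕ) {n : ℕ} (h : DstGood C n) : BdR C.R (rawQ C Q n) := by
  induction n with
  | zero => intro p hp; simp [rawQ] at hp
  | succ n ih =>
    have h' : DstGood C n := ⟨fun j hj => h.sum3 j (by omega), fun j hj => h.bd j (by omega)⟩
    intro p hp
    simp only [rawQ, List.mem_append] at hp
    rcases hp with hp | hp
    · obtain ⟨h1, h2, h3⟩ := h.bd n (by omega)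
      simp only [rawOrb, List.mem_cons, List.not_mem_nil, or_false] at hp
      rcases hp with rfl | rfl | rfl | rfl | rfl | rfl <;> exact ⟨by assumption, by assumption⟩
    · exact ih h' p hp

/-! ### Reading the representatives -/

/-- The multiplicity of a sorted triple in terms of the three coordinates. -/
def mulR3 (x y z : ℤ) : ℕ :=
  if y < x then (if z < y then 6 else if z = y then 3 else 0)
  else if y = x then (if z < y then 3 else if z = y then 1 else 0) else 0

/-- The multiplicity of a lattice point, zero if it is not sorted. -/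
def mulR (g : ℤ × ℤ) : ℕ := mulR3 g.1 g.2 (-g.1 - g.2)

set_option maxHeartbeats 4000000 in
lemma mulR3_sum (a b c : ℤ) :
    mulR3 a b c + (mulR3 b c a + (mulR3 c a b + (mulR3 a c b + (mulR3 b a c + mulR3 c b a)))) = 6 := by
  unfold mulR3
  split_ifs <;> omega

lemma sum_mulR (g : ℤ × ℤ) : ∑ σ : Equiv.Perm (Fin 3), ((mulR (act σ g) : ℕ) : ℝ) = 6 := by
  rw [sum_perm, act_one, act_s1, act_s2, act_s3, act_s4, act_s5]
  have h := mulR3_sum g.1 g.2 (-g.1 - g.2)
  have e1 : mulR (g.2, -g.1 - g.2) = mulR3 g.2 (-g.1 - g.2) g.1 := by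
    simp only [mulR]
    congr 1
    ring
  have e2 : mulR (-g.1 - g.2, g.1) = mulR3 (-g.1 - g.2) g.1 g.2 := by
    simp only [mulR]
    congr 1
    ring
  have e3 : mulR (g.1, -g.1 - g.2) = mulR3 g.1 (-g.1 - g.2) g.2 := by
    simp only [mulR]
    congr 1
    ring
  have e4 : mulR (g.2, g.1) = mulR3 g.2 g.1 (-g.1 - g.2) := by
    simp only [mulR]
    congr 1
    ring
  have e5 : mulR (-g.1 - g.2, g.2) = mulR3 (-g.1 - g.2) g.2 g.1 := by
    simp only [mulR]
    congr 1
    ring
  have e0 : mulR g = mulR3 g.1 g.2 (-g.1 - g.2) := rfl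
  rw [e0, e1, e2, e3, e4, e5]
  exact_mod_cast h

/-- For a symmetric law and an invariant function, only the sorted points matter. -/
lemma Lsum_mulR {L : Lw} (hL : SymL L) {f : ℤ × ℤ → ℝ}
    (hf : ∀ (σ : Equiv.Perm (Fin 3)) g, f (act σ g) = f g) :
    Lsum L f = Lsum L (fun g => (mulR g : ℝ) * f g) := by
  have h1 : ∀ σ : Equiv.Perm (Fin 3), Lsum L (fun g => (mulR (act σ g) : ℝ) * f g) =
      Lsum L (fun g => (mulR g : ℝ) * f g) := by
    intro σ
    have := hL σ (fun g => (mulR g : ℝ) * f g)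
    simp only [hf] at this
    exact this
  have h2 : Lsum L (fun g => ∑ σ : Equiv.Perm (Fin 3), (mulR (act σ g) : ℝ) * f g) =
      ∑ σ : Equiv.Perm (Fin 3), Lsum L (fun g => (mulR (act σ g) : ℝ) * f g) :=
    Lsum_finset Finset.univ L (fun σ g => (mulR (act σ g) : ℝ) * f g)
  simp only [h1, ← Finset.sum_mul, sum_mulR] at h2
  simp only [Finset.sum_const, Finset.card_univ, Fintype.card_perm, Fintype.card_fin, nsmul_eq_mul] at h2
  rw [Lsum_mul_left L 6 f] at h2
  have e : ((Nat.factorial 3 : ℕ) : ℝ) = 6 := by norm_num [Nat.factorial]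
  rw [e] at h2
  linarith

/-- The point at a position. -/
def gOf (Wd t p : ℕ) : ℤ × ℤ := (((p % Wd : ℕ) : ℤ) - t, ((p / Wd : ℕ) : ℤ) - t)

lemma read_one {Wd t a b q : ℕ} (ha : a < Wd) {f : ℤ × ℤ → ℝ} (hf : ∀ g, f g ≤ 0) {E : List Ent}
    (hE : E.Pairwise (fun e e' => e.p < e'.p))
    (hm : ∀ e ∈ E, e.m = mulR (gOf Wd t e.p)) :
    (q : ℝ) * ((mulR ((a : ℤ) - t, (b : ℤ) - t) : ℝ) * f ((a : ℤ) - t, (b : ℤ) - t)) ≤
      (E.map (fun e => (e.m : ℝ) * (((if a + Wd * b = e.p then q else 0 : ℕ)) : ℝ) *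
        f (gOf Wd t e.p))).sum := by
  have hg : gOf Wd t (a + Wd * b) = ((a : ℤ) - t, (b : ℤ) - t) := by
    have hW : 0 < Wd := by omega
    have h1 : (a + Wd * b) % Wd = a := by
      rw [Nat.add_mul_mod_self_left, Nat.mod_eq_of_lt ha]
    have h2 : (a + Wd * b) / Wd = b := by
      rw [Nat.add_mul_div_left _ _ hW, Nat.div_eq_of_lt ha, zero_add]
    simp only [gOf, h1, h2]
  induction E with
  | nil =>
    simp only [List.map_nil, List.sum_nil]
    have := hf ((a : ℤ) - t, (b : ℤ) - t)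
    have h1 : (0 : ℝ) ≤ (q : ℝ) * (mulR ((a : ℤ) - t, (b : ℤ) - t) : ℝ) := by positivity
    nlinarith
  | cons e E ih =>
    simp only [List.map_cons, List.sum_cons]
    rw [List.pairwise_cons] at hE
    by_cases h : a + Wd * b = e.p
    · have hzero : (E.map (fun e => (e.m : ℝ) * (((if a + Wd * b = e.p then q else 0 : ℕ)) : ℝ) *
          f (gOf Wd t e.p))).sum = 0 := by
        apply List.sum_eq_zero
        intro x hx
        obtain ⟨e', he', rfl⟩ := List.mem_map.mp hx
        have := hE.1 e' he'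
        have hne : a + Wd * b ≠ e'.p := by omega
        simp [hne]
      rw [hzero, add_zero]
      have h1 := hm e (by simp)
      rw [if_pos h, h1, ← h, hg]
      apply le_of_eq
      ring
    · rw [if_neg h]
      simp only [Nat.cast_zero, mul_zero, zero_mul, zero_add]
      exact ih hE.2 (fun e' he' => hm e' (by simp [he']))

lemma read_all {Wd t : ℕ} {l : RL} (hl : ∀ p ∈ l, p.1.1 < Wd) {f : ℤ × ℤ → ℝ} (hf : ∀ g, f g ≤ 0)
    {E : List Ent} (hE : E.Pairwise (fun e e' => e.p < e'.p))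
    (hm : ∀ e ∈ E, e.m = mulR (gOf Wd t e.p)) :
    Lsum (ofRaw t l) (fun g => (mulR g : ℝ) * f g) ≤
      (E.map (fun e => (e.m : ℝ) * (coefP (posL Wd l) e.p : ℝ) * f (gOf Wd t e.p))).sum := by
  induction l with
  | nil =>
    simp only [ofRaw_nil, Lsum_nil, posL, List.map_nil, coefP_nil, Nat.cast_zero, mul_zero, zero_mul]
    simp
  | cons p l ih =>
    rw [ofRaw_cons, Lsum_cons]
    have h1 := read_one (q := p.2) (b := p.1.2) (hl p (by simp)) hf hE hm
    have h2 := ih (fun p' hp' => hl p' (by simp [hp']))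
    have e : (E.map (fun e => (e.m : ℝ) * (coefP (posL Wd (p :: l)) e.p : ℝ) * f (gOf Wd t e.p))).sum =
        (E.map (fun e => (e.m : ℝ) * (((if p.1.1 + Wd * p.1.2 = e.p then p.2 else 0 : ℕ)) : ℝ) *
          f (gOf Wd t e.p))).sum +
        (E.map (fun e => (e.m : ℝ) * (coefP (posL Wd l) e.p : ℝ) * f (gOf Wd t e.p))).sum := by
      rw [← List.sum_map_add]
      apply congrArg
      apply List.map_congr_left
      intro e _
      have : posL Wd (p :: l) = (p.1.1 + Wd * p.1.2, p.2) :: posL Wd l := rfl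
      rw [this, coefP_cons]
      push_cast
      ring
    rw [e]
    linarith

end Vale.Agent.Lib.P154Anti
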