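import Vale.Agent.Lib.P154Anti.LatStep

/-!
The lattice computation on the tree, for a channel with negative eigenvalue.
-/

namespace Vale.Agent.Lib.P154Anti

open Vale.Agent.Lib.P154

section channel

variable {lam : ℝ}

lemma potts_nonneg' (h0 : -1 / 2 ≤ lam) (h1 : lam ≤ 1) (i j : Fin 3) : 0 ≤ potts 3 lam i j := by
  simp only [potts]
  push_cast
  split_ifs <;> linarith

lemma leafLaw_nonneg' {d : ℕ} (h0 : -1 / 2 ≤ lam) (h1 : lam ≤ 1) : ∀ (n : ℕ) (i : Fin 3)
    (ξ : (Fin n → Fin d) → Fin 3), 0 ≤ leafLaw 3 d lam n i ξ := by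
  intro n
  induction n with
  | zero =>
    intro i ξ
    simp only [leafLaw]
    split_ifs <;> norm_num
  | succ n ih =>
    intro i ξ
    simp only [leafLaw]
    exact Finset.prod_nonneg (fun c _ => Finset.sum_nonneg
      (fun k _ => mul_nonneg (potts_nonneg' h0 h1 i k) (ih k _)))

variable {d : ℕ}

lemma xn_nn' (h0 : -1 / 2 ≤ lam) (h1 : lam ≤ 1) (n : ℕ) (ξ : (Fin n → Fin d) → Fin 3) :
    NN (xn d lam n ξ) := fun i =>
  mul_nonneg (by norm_num) (leafLaw_nonneg' h0 h1 n i ξ)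

lemma yn_nn' (h0 : -1 / 2 ≤ lam) (h1 : lam ≤ 1) (n : ℕ) (ξ : (Fin n → Fin d) → Fin 3) :
    NN (yn d lam n ξ) := fun i =>
  mul_nonneg (by norm_num) (Finset.sum_nonneg (fun j _ =>
    mul_nonneg (potts_nonneg' h0 h1 i j) (leafLaw_nonneg' h0 h1 n j ξ)))

lemma yn_fam' (h0 : -1 / 2 ≤ lam) (h1 : lam ≤ 1) (n : ℕ) : Fam (yn d lam n) where
  nn := yn_nn' h0 h1 n
  sym := by
    intro σ F
    simp only [yn_comp]
    exact Equiv.sum_comp (colourAct n σ⁻¹) (fun ξ => F (yn d lam n ξ))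
  mass := by
    simp only [M3_yn]
    exact sum_xn_mass n

lemma yn_eq_pmap (n : ℕ) (ξ : (Fin n → Fin d) → Fin 3) : yn d lam n ξ = pmap lam (xn d lam n ξ) := by
  funext i
  rw [yn_eq]
  rfl

end channel

/-- The coordinates of the merged messages have total one third. -/
lemma xk_coord {Ω : Type} [Fintype Ω] {y : Ω → W3} (hy : Fam y) (i : Fin 3) :
    ∀ k, ∑ ξ, xk y k ξ i = 1 / 3
  | 0 => by
    rw [sum_fin_one]
    simp only [xk_zero]
    exact hy.coord i
  | k + 1 => by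
    rw [sum_cons]
    simp only [xk_succ, mrg]
    have : ∀ ξ' : Fin (k + 1) → Ω, ∑ ω, 3 * (xk y k ξ' i * y ω i) = xk y k ξ' i := by
      intro ξ'
      rw [← Finset.mul_sum, ← Finset.mul_sum, hy.coord i]
      ring
    simp only [this]
    exact xk_coord hy i k

/-- Domination of the messages seen from above at depth `n`, for all channels between the one of the
computation and the trivial one. -/
def InvL (C : LatCfg) (k n Q : ℕ) : Prop :=
  ∀ lam : ℝ, lamOf C ≤ lam → lam ≤ 0 → Dom (rhoOf C) (yn (k + 2) lam n) (lawQ C Q) (2 ^ C.f)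

lemma lam_bounds {C : LatCfg} (hC : CfgGood C) : -1 / 2 ≤ lamOf C ∧ lamOf C < 0 := by
  have hld := ld_pos hC
  have hl2 : (2 : ℝ) * C.ln ≤ C.ld := by exact_mod_cast hC.l2
  have hlnp : (0 : ℝ) < C.ln := by exact_mod_cast hC.ln
  constructor
  · simp only [lamOf]
    rw [neg_div, neg_le_neg_iff, div_le_iff₀ hld]
    linarith
  · simp only [lamOf]
    have : 0 < (C.ln : ℝ) / C.ld := by positivity
    linarith

/-- The start of the computation. -/
lemma invL_zero {C : LatCfg} (hD : DstGood C C.J) (hC : CfgGood C) (k n : ℕ) : InvL C k n 0 := by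
  intro lam h0 h1 F hF
  have hb := lam_bounds hC
  have hd : ∑ ξ, F (yn (k + 2) lam n ξ) ≤ 0 :=
    Finset.sum_nonpos (fun ξ _ => hF.nonpos (yn_nn' (by linarith [hb.1]) (by linarith) n ξ))
  refine hd.trans (le_of_eq ?_)
  rw [Lsum_lawQ hD 0 hF]
  have : ∀ j, dig C.fq 0 j = 0 := by
    intro j
    rw [dig_eq]
    simp
  simp [this]

/-- One level on the tree. -/
theorem invL_step {C : LatCfg} {T : List Blk} {v : Ent} {Q U Q' k n : ℕ} (hd : C.d = k + 2)
    (hT : tableOK C T v = true) (hL : lvlOK C T v Q U Q' = true) (hI : InvL C k n Q) :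
    InvL C k (n + 1) Q' := by
  intro lam h0 h1 F hF
  have hC := (tableOK_good hT).cfg
  obtain ⟨hb0, hb1⟩ := lam_bounds hC
  have hl0 : -1 / 2 ≤ lam := by linarith
  have hl1 : lam ≤ 1 := by linarith
  have hy := yn_fam' (d := k + 2) hl0 hl1 n
  have hk : C.d - 1 = k + 1 := by omega
  have e1 : ∑ ξ, F (yn (k + 2) lam (n + 1) ξ) =
      ∑ ξ', F (pmap lam (xk (yn (k + 2) lam n) (k + 1) ξ')) := by
    simp only [yn_eq_pmap (n + 1), xn_succ]
    exact Equiv.sum_comp (splitEquiv (k + 2) n) (fun ξ' => F (pmap lam (xk (yn (k + 2) lam n) (k + 1) ξ')))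
  rw [e1]
  have hsound : ∀ m, C.d - 1 = m → ∑ ξ', F (pmap (lamOf C) (xk (yn (k + 2) lam n) m ξ')) ≤
      Lsum (lawQ C Q') (fun g => F (lat (rhoOf C) g)) / 2 ^ C.f := by
    intro m hm
    subst hm
    exact lvl_sound hT hL hy (hI lam h0 h1) hF
  have h2 := hsound (k + 1) hk
  refine le_trans ?_ h2
  have hmu : lam = (lam / lamOf C) * lamOf C := by
    rw [div_mul_cancel₀ _ hb1.ne]
  have hmu0 : 0 ≤ lam / lamOf C := div_nonneg_of_nonpos h1 hb1.le
  have hmu1 : lam / lamOf C ≤ 1 := by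
    rw [div_le_one_of_neg hb1]
    exact h0
  have := chan_mono (x := fun ξ' => xk (yn (k + 2) lam n) (k + 1) ξ')
    (fun ξ' => xk_nn hy.nn _ ξ') (fun i => xk_coord hy i (k + 1)) hF.add hF.smul hb0 (by linarith) hmu0 hmu1
  rw [← hmu] at this
  exact this

end Vale.Agent.Lib.P154Anti
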