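import Vale.Agent.Lib.P154Anti.DomE
import Vale.Agent.Lib.P154Anti.LatChkE
import Vale.Agent.Lib.P154Anti.LatTree

/-!
The meaning of the computations of `LatChkE`: finite laws on the lattice with zero coordinates and their
encoding by two tensors.
-/

namespace Vale.Agent.Lib.P154Anti

open Vale.Agent.Lib.P154

/-- A law with natural (offset) coordinates and sets of vanishing coordinates. -/
abbrev RE := List (((ℕ × ℕ) × Finset (Fin 3)) × ℕ)

/-- The product of two raw laws. -/
def rawProdE (l l' : RE) : RE :=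
  l.flatMap (fun p => l'.map (fun q =>
    (((p.1.1.1 + q.1.1.1, p.1.1.2 + q.1.1.2), p.1.2 ∪ q.1.2), p.2 * q.2)))

/-- Powers of a raw law, with `k + 1` factors. -/
def rawPowE (l : RE) : ℕ → RE
  | 0 => l
  | k + 1 => rawProdE (rawPowE l k) l

/-- The finite law of a raw law, shifting the coordinates by `t`. -/
def ofRawE (t : ℕ) (l : RE) : LwE :=
  l.map (fun p => ((((p.1.1.1 : ℤ) - t, (p.1.1.2 : ℤ) - t), p.1.2), p.2))

lemma ofRawE_cons (t : ℕ) (p : ((ℕ × ℕ) × Finset (Fin 3)) × ℕ) (l : RE) :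
    ofRawE t (p :: l) = ((((p.1.1.1 : ℤ) - t, (p.1.1.2 : ℤ) - t), p.1.2), p.2) :: ofRawE t l := rfl

lemma ofRawE_append (t : ℕ) (l l' : RE) : ofRawE t (l ++ l') = ofRawE t l ++ ofRawE t l' := by
  simp [ofRawE]

lemma ofRawE_prod (t t' : ℕ) (l l' : RE) :
    LprodE (ofRawE t l) (ofRawE t' l') = ofRawE (t + t') (rawProdE l l') := by
  induction l with
  | nil => simp [LprodE, ofRawE, rawProdE]
  | cons p l ih =>
    have e1 : LprodE (ofRawE t (p :: l)) (ofRawE t' l') =
        (ofRawE t' l').map (fun q => (addE (((p.1.1.1 : ℤ) - t, (p.1.1.2 : ℤ) - t), p.1.2) q.1, p.2 * q.2)) ++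
          LprodE (ofRawE t l) (ofRawE t' l') := by
      simp [LprodE, ofRawE_cons]
    have e2 : rawProdE (p :: l) l' =
        l'.map (fun q => (((p.1.1.1 + q.1.1.1, p.1.1.2 + q.1.1.2), p.1.2 ∪ q.1.2), p.2 * q.2)) ++
          rawProdE l l' := by
      simp [rawProdE]
    rw [e1, e2, ofRawE_append, ih]
    congr 1
    simp only [ofRawE, List.map_map]
    apply List.map_congr_left
    intro q _
    simp only [Function.comp, addE, Prod.mk_add_mk, Prod.mk.injEq, and_true]
    push_cast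
    constructor <;> ring

lemma ofRawE_pow (o : ℕ) (l : RE) : ∀ k, LpowE (ofRawE o l) k = ofRawE ((k + 1) * o) (rawPowE l k)
  | 0 => by simp [LpowE, rawPowE]
  | k + 1 => by
    simp only [LpowE, rawPowE]
    rw [ofRawE_pow o l k, ofRawE_prod]
    congr 1
    ring

/-- All coordinates of a raw law are at most `B`. -/
def BdE (B : ℕ) (l : RE) : Prop := ∀ p ∈ l, p.1.1.1 ≤ B ∧ p.1.1.2 ≤ B

lemma BdE.prod {B B' : ℕ} {l l' : RE} (h : BdE B l) (h' : BdE B' l') : BdE (B + B') (rawProdE l l') := by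
  intro p hp
  simp only [rawProdE, List.mem_flatMap, List.mem_map] at hp
  obtain ⟨a, ha, b, hb, rfl⟩ := hp
  have h1 := h a ha
  have h2 := h' b hb
  simp only
  omega

lemma BdE.pow {B : ℕ} {l : RE} (h : BdE B l) : ∀ k, BdE ((k + 1) * B) (rawPowE l k)
  | 0 => by simpa [rawPowE] using h
  | k + 1 => by
    have := (BdE.pow h k).prod h
    have e : (k + 1 + 1) * B = (k + 1) * B + B := by ring
    rw [e]
    exact this

/-! ### Selection of masks -/

/-- The positions of the entries with mask in `S`. -/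
def selE (S : Finset (Fin 3)) (Wd : ℕ) (l : RE) : List (ℕ × ℕ) :=
  (l.filter (fun p => decide (p.1.2 ⊆ S))).map (fun p => (p.1.1.1 + Wd * p.1.1.2, p.2))

/-- The positions of the entries with mask exactly the first coordinate. -/
def selX (Wd : ℕ) (l : RE) : List (ℕ × ℕ) :=
  (l.filter (fun p => decide (p.1.2 = {0}))).map (fun p => (p.1.1.1 + Wd * p.1.1.2, p.2))

lemma selE_nil (S : Finset (Fin 3)) (Wd : ℕ) : selE S Wd [] = [] := rfl

lemma selE_append (S : Finset (Fin 3)) (Wd : ℕ) (l l' : RE) :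
    selE S Wd (l ++ l') = selE S Wd l ++ selE S Wd l' := by
  simp [selE]

lemma selE_cons_pos {S : Finset (Fin 3)} (Wd : ℕ) {p : ((ℕ × ℕ) × Finset (Fin 3)) × ℕ} (l : RE)
    (h : p.1.2 ⊆ S) : selE S Wd (p :: l) = (p.1.1.1 + Wd * p.1.1.2, p.2) :: selE S Wd l := by
  simp [selE, h]

lemma selE_cons_neg {S : Finset (Fin 3)} (Wd : ℕ) {p : ((ℕ × ℕ) × Finset (Fin 3)) × ℕ} (l : RE)
    (h : ¬ p.1.2 ⊆ S) : selE S Wd (p :: l) = selE S Wd l := by
  simp [selE, h]

lemma selX_cons_pos (Wd : ℕ) {p : ((ℕ × ℕ) × Finset (Fin 3)) × ℕ} (l : RE)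
    (h : p.1.2 = {0}) : selX Wd (p :: l) = (p.1.1.1 + Wd * p.1.1.2, p.2) :: selX Wd l := by
  simp [selX, h]

lemma selX_cons_neg (Wd : ℕ) {p : ((ℕ × ℕ) × Finset (Fin 3)) × ℕ} (l : RE)
    (h : ¬ p.1.2 = {0}) : selX Wd (p :: l) = selX Wd l := by
  simp [selX, h]

lemma encP_sel_map (W Wd : ℕ) (S : Finset (Fin 3)) (a b c : ℕ) (m : Finset (Fin 3)) (l : RE) :
    encP W (selE S Wd (l.map (fun q => (((a + q.1.1.1, b + q.1.1.2), m ∪ q.1.2), c * q.2)))) =
      (if m ⊆ S then c * 2 ^ (W * (a + Wd * b)) else 0) * encP W (selE S Wd l) := by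
  induction l with
  | nil => simp [selE, encP]
  | cons q l ih =>
    simp only [List.map_cons]
    by_cases hq : q.1.2 ⊆ S
    · by_cases hm : m ⊆ S
      · rw [selE_cons_pos Wd _ (by simpa using Finset.union_subset hm hq), selE_cons_pos Wd _ hq,
          encP_cons, encP_cons, ih]
        simp only [if_pos hm, mul_add]
        congr 1
        simp only [mul_add, pow_add]
        ring
      · rw [selE_cons_neg Wd _ (by
            intro h
            exact hm ((Finset.union_subset_iff.mp h).1)), ih]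
        simp [if_neg hm]
    · rw [selE_cons_neg Wd _ (by
          intro h
          exact hq ((Finset.union_subset_iff.mp h).2)), selE_cons_neg Wd _ hq, ih]

lemma encP_sel_prod (W Wd : ℕ) (S : Finset (Fin 3)) (l l' : RE) :
    encP W (selE S Wd (rawProdE l l')) = encP W (selE S Wd l) * encP W (selE S Wd l') := by
  induction l with
  | nil => simp [rawProdE, selE, encP]
  | cons p l ih =>
    have e2 : rawProdE (p :: l) l' =
        l'.map (fun q => (((p.1.1.1 + q.1.1.1, p.1.1.2 + q.1.1.2), p.1.2 ∪ q.1.2), p.2 * q.2)) ++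
          rawProdE l l' := by
      simp [rawProdE]
    rw [e2, selE_append, encP_append, ih, encP_sel_map]
    by_cases hm : p.1.2 ⊆ S
    · rw [selE_cons_pos Wd _ hm, encP_cons, if_pos hm]
      ring
    · rw [selE_cons_neg Wd _ hm, if_neg hm]
      ring

lemma encP_sel_pow (W Wd : ℕ) (S : Finset (Fin 3)) (l : RE) :
    ∀ k, encP W (selE S Wd (rawPowE l k)) = encP W (selE S Wd l) ^ (k + 1)
  | 0 => by simp [rawPowE]
  | k + 1 => by
    simp only [rawPowE]
    rw [encP_sel_prod, encP_sel_pow W Wd S l k]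
    ring

lemma totP_eq_encP (l : List (ℕ × ℕ)) : totP l = encP 0 l := by
  simp [totP, encP]

lemma encP_split (W Wd : ℕ) (l : RE) :
    encP W (selE {0} Wd l) = encP W (selE ∅ Wd l) + encP W (selX Wd l) := by
  induction l with
  | nil => rfl
  | cons p l ih =>
    by_cases h0 : p.1.2 = ∅
    · rw [selE_cons_pos Wd _ (by simp [h0]), selE_cons_pos Wd _ (by simp [h0]),
        selX_cons_neg Wd _ (by simp [h0]), encP_cons, encP_cons, ih]
      ring
    · by_cases h1 : p.1.2 = {0}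
      · rw [selE_cons_pos Wd _ (by simp [h1]), selE_cons_neg Wd _ (by simp [h1]),
          selX_cons_pos Wd _ h1, encP_cons, encP_cons, ih]
        ring
      · rw [selE_cons_neg Wd _ (by
            intro h
            rcases Finset.subset_singleton_iff.mp h with h | h
            · exact h0 h
            · exact h1 h),
          selE_cons_neg Wd _ (by
            intro h
            exact h0 (Finset.subset_empty.mp h)),
          selX_cons_neg Wd _ h1, ih]

/-! ### Reading the representatives -/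

/-- The multiplicity of a pair of coordinates. -/
def mulB (b c : ℤ) : ℕ := if c < b then 6 else if c = b then 3 else 0

lemma mulB_swap (b c : ℤ) : mulB b c + mulB c b = 6 := by
  unfold mulB
  split_ifs <;> omega

/-- The multiplicity of a point with zero first coordinate. -/
def mulX (g : ℤ × ℤ) : ℕ := mulB g.2 (-g.1 - g.2)

/-- The multiplicity of a point with a set of vanishing coordinates. -/
def mulE (γ : GE) : ℕ :=
  if γ.2 = ∅ then mulR γ.1 else if γ.2 = {0} then mulX γ.1 else 0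

lemma actM_empty (σ : Equiv.Perm (Fin 3)) : actM σ ∅ = ∅ := by
  ext i
  simp [mem_actM]

lemma act_zero (σ : Equiv.Perm (Fin 3)) : act σ (0, 0) = (0, 0) := by
  have h : ∀ i, ee ((0 : ℤ), (0 : ℤ)) i = 0 := by
    intro i
    fin_cases i <;> simp [ee]
  simp [act, h]

private lemma masks_big : ∀ s : Finset (Fin 3), s ≠ ∅ → s ≠ {0} → s ≠ {1} → s ≠ {2} →
    ∀ σ ∈ ({1, s1, s2, s3, s4, s5} : Finset (Equiv.Perm (Fin 3))), actM σ s ≠ ∅ ∧ actM σ s ≠ {0} := by
  decide

private lemma masks_0 : actM 1 ({0} : Finset (Fin 3)) = {0} ∧ actM s3 ({0} : Finset (Fin 3)) = {0} ∧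
    actM s1 ({0} : Finset (Fin 3)) = {2} ∧ actM s2 ({0} : Finset (Fin 3)) = {1} ∧
    actM s4 ({0} : Finset (Fin 3)) = {1} ∧ actM s5 ({0} : Finset (Fin 3)) = {2} := by
  decide

private lemma masks_1 : actM 1 ({1} : Finset (Fin 3)) = {1} ∧ actM s3 ({1} : Finset (Fin 3)) = {2} ∧
    actM s1 ({1} : Finset (Fin 3)) = {0} ∧ actM s2 ({1} : Finset (Fin 3)) = {2} ∧
    actM s4 ({1} : Finset (Fin 3)) = {0} ∧ actM s5 ({1} : Finset (Fin 3)) = {1} := by
  decide

private lemma masks_2 : actM 1 ({2} : Finset (Fin 3)) = {2} ∧ actM s3 ({2} : Finset (Fin 3)) = {1} ∧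
    actM s1 ({2} : Finset (Fin 3)) = {1} ∧ actM s2 ({2} : Finset (Fin 3)) = {0} ∧
    actM s4 ({2} : Finset (Fin 3)) = {2} ∧ actM s5 ({2} : Finset (Fin 3)) = {0} := by
  decide

private lemma ne_facts : ((2 : Fin 3) ≠ 1) ∧ ({1} : Finset (Fin 3)) ≠ ∅ ∧ ({2} : Finset (Fin 3)) ≠ ∅ ∧
    ({0} : Finset (Fin 3)) ≠ ∅ ∧ ({1} : Finset (Fin 3)) ≠ {0} ∧ ({2} : Finset (Fin 3)) ≠ {0} := by
  decide

/-- The multiplicities of the rearrangements of a point add up to at most six. -/
lemma sum_mulE (g : ℤ × ℤ) (s : Finset (Fin 3)) :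
    ∑ σ : Equiv.Perm (Fin 3), ((mulE (actE σ (g, s)) : ℕ) : ℝ) ≤ 6 := by
  obtain ⟨-, n1, n2, n0, n10, n20⟩ := ne_facts
  by_cases h0 : s = ∅
  · subst h0
    have : ∀ σ : Equiv.Perm (Fin 3), mulE (actE σ (g, ∅)) = mulR (act σ g) := by
      intro σ
      simp [mulE, actE, actM_empty]
    simp only [this]
    rw [sum_mulR]
  by_cases h1 : s = {0}
  · subst h1
    obtain ⟨m1, m2, m3, m4, m5, m6⟩ := masks_0
    rw [sum_perm]
    simp only [mulE, actE, m1, m2, m3, m4, m5, m6, if_neg n0, if_neg n1, if_neg n2, if_neg n10, if_neg n20,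
      if_true, mulX, act_one, act_s3]
    have := mulB_swap g.2 (-g.1 - g.2)
    have e : -g.1 - (-g.1 - g.2) = g.2 := by ring
    rw [e]
    have h' : ((mulB g.2 (-g.1 - g.2) : ℕ) : ℝ) + (mulB (-g.1 - g.2) g.2 : ℕ) = 6 := by
      exact_mod_cast this
    push_cast
    linarith
  by_cases h2 : s = {1}
  · subst h2
    obtain ⟨m1, m2, m3, m4, m5, m6⟩ := masks_1
    rw [sum_perm]
    simp only [mulE, actE, m1, m2, m3, m4, m5, m6, if_neg n0, if_neg n1, if_neg n2, if_neg n10, if_neg n20,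
      if_true, mulX, act_s1, act_s4]
    have := mulB_swap g.1 (-g.1 - g.2)
    have e : -g.2 - (-g.1 - g.2) = g.1 := by ring
    have e' : -g.2 - g.1 = -g.1 - g.2 := by ring
    rw [e, e']
    have h' : ((mulB g.1 (-g.1 - g.2) : ℕ) : ℝ) + (mulB (-g.1 - g.2) g.1 : ℕ) = 6 := by
      exact_mod_cast this
    push_cast
    linarith
  by_cases h3 : s = {2}
  · subst h3
    obtain ⟨m1, m2, m3, m4, m5, m6⟩ := masks_2
    rw [sum_perm]
    simp only [mulE, actE, m1, m2, m3, m4, m5, m6, if_neg n0, if_neg n1, if_neg n2, if_neg n10, if_neg n20,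
      if_true, mulX, act_s2, act_s5]
    have := mulB_swap g.1 g.2
    have e : -(-g.1 - g.2) - g.1 = g.2 := by ring
    have e' : -(-g.1 - g.2) - g.2 = g.1 := by ring
    rw [e, e']
    have h' : ((mulB g.1 g.2 : ℕ) : ℝ) + (mulB g.2 g.1 : ℕ) = 6 := by
      exact_mod_cast this
    push_cast
    linarith
  · have hb := masks_big s h0 h1 h2 h3
    have : ∀ σ : Equiv.Perm (Fin 3), mulE (actE σ (g, s)) = 0 := by
      intro σ
      have hσ : σ ∈ ({1, s1, s2, s3, s4, s5} : Finset (Equiv.Perm (Fin 3))) := by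
        rw [← univ_perm]
        exact Finset.mem_univ σ
      obtain ⟨a1, a2⟩ := hb σ hσ
      simp [mulE, actE, a1, a2]
    simp [this]

/-- For a symmetric law and an invariant nonpositive function, only the sorted points matter. -/
lemma LsumE_mulE {L : LwE} (hL : SymE L) {f : GE → ℝ}
    (hf : ∀ (σ : Equiv.Perm (Fin 3)) γ, f (actE σ γ) = f γ) (hn : ∀ γ, f γ ≤ 0) :
    LsumE L f ≤ LsumE L (fun γ => (mulE γ : ℝ) * f γ) := by
  have h1 : ∀ σ : Equiv.Perm (Fin 3), LsumE L (fun γ => (mulE (actE σ γ) : ℝ) * f γ) =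
      LsumE L (fun γ => (mulE γ : ℝ) * f γ) := by
    intro σ
    have := hL σ (fun γ => (mulE γ : ℝ) * f γ)
    simp only [hf] at this
    exact this
  have h2 : LsumE L (fun γ => ∑ σ : Equiv.Perm (Fin 3), (mulE (actE σ γ) : ℝ) * f γ) =
      ∑ σ : Equiv.Perm (Fin 3), LsumE L (fun γ => (mulE (actE σ γ) : ℝ) * f γ) :=
    LsumE_finset Finset.univ L (fun σ γ => (mulE (actE σ γ) : ℝ) * f γ)
  simp only [h1] at h2
  simp only [Finset.sum_const, Finset.card_univ, Fintype.card_perm, Fintype.card_fin, nsmul_eq_mul] at h2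
  have e : ((Nat.factorial 3 : ℕ) : ℝ) = 6 := by norm_num [Nat.factorial]
  rw [e] at h2
  have h3 : LsumE L (fun γ => 6 * f γ) ≤ LsumE L (fun γ => ∑ σ : Equiv.Perm (Fin 3), (mulE (actE σ γ) : ℝ) * f γ) := by
    apply LsumE_le
    intro γ
    rw [← Finset.sum_mul]
    have := sum_mulE γ.1 γ.2
    exact mul_le_mul_of_nonpos_right this (hn γ)
  rw [LsumE_mul_left, h2] at h3
  linarith

lemma read_oneX {Wd t a b q : ℕ} (ha : a < Wd) {f : ℤ × ℤ → ℝ} (hf : ∀ g, f g ≤ 0) {E : List Ent}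
    (hE : E.Pairwise (fun e e' => e.p < e'.p))
    (hm : ∀ e ∈ E, e.m = mulX (gOf Wd t e.p)) :
    (q : ℝ) * ((mulX ((a : ℤ) - t, (b : ℤ) - t) : ℝ) * f ((a : ℤ) - t, (b : ℤ) - t)) ≤
      (E.map (fun e => (e.m : ℝ) * (((if a + Wd * b = e.p then q else 0 : ℕ)) : ℝ) *
        f (gOf Wd t e.p))).sum := by
  have hg : gOf Wd t (a + Wd * b) = ((a : ℤ) - t, (b : ℤ) - t) := by
    have hW : 0 < Wd := by omega
    have h1 : (a + Wd * b) % Wd = a := by
      rw [Nat.add_mul_mod_self_left, Nat.mod_eq_of_lt ha]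
    have h2 : (a + Wd * b) / Wd = b := by
      rw [Nat.add_mul_div_left _ _ hW, Nat.div_eq_of_lt ha, zero_add]
    simp only [gOf, h1, h2]
  induction E with
  | nil =>
    simp only [List.map_nil, List.sum_nil]
    have := hf ((a : ℤ) - t, (b : ℤ) - t)
    have h1 : (0 : ℝ) ≤ (q : ℝ) * (mulX ((a : ℤ) - t, (b : ℤ) - t) : ℝ) := by positivity
    nlinarith
  | cons e E ih =>
    simp only [List.map_cons, List.sum_cons]
    rw [List.pairwise_cons] at hE
    by_cases h : a + Wd * b = e.p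
    · have hzero : (E.map (fun e => (e.m : ℝ) * (((if a + Wd * b = e.p then q else 0 : ℕ)) : ℝ) *
          f (gOf Wd t e.p))).sum = 0 := by
        apply List.sum_eq_zero
        intro x hx
        obtain ⟨e', he', rfl⟩ := List.mem_map.mp hx
        have := hE.1 e' he'
        have hne : a + Wd * b ≠ e'.p := by omega
        simp [hne]
      rw [hzero, add_zero]
      have h1 := hm e (by simp)
      rw [if_pos h, h1, ← h, hg]
      apply le_of_eq
      ring
    · rw [if_neg h]
      simp only [Nat.cast_zero, mul_zero, zero_mul, zero_add]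
      exact ih hE.2 (fun e' he' => hm e' (by simp [he']))

lemma read_allE {Wd t : ℕ} {l : RE} (hl : ∀ p ∈ l, p.1.1.1 < Wd) {f : GE → ℝ} (hf : ∀ γ, f γ ≤ 0)
    {EI EE : List Ent} (hI : EI.Pairwise (fun e e' => e.p < e'.p))
    (hmI : ∀ e ∈ EI, e.m = mulR (gOf Wd t e.p))
    (hX : EE.Pairwise (fun e e' => e.p < e'.p))
    (hmX : ∀ e ∈ EE, e.m = mulX (gOf Wd t e.p)) :
    LsumE (ofRawE t l) (fun γ => (mulE γ : ℝ) * f γ) ≤
      (EI.map (fun e => (e.m : ℝ) * (coefP (selE ∅ Wd l) e.p : ℝ) * f (gOf Wd t e.p, ∅))).sum +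
      (EE.map (fun e => (e.m : ℝ) * (coefP (selX Wd l) e.p : ℝ) * f (gOf Wd t e.p, {0}))).sum := by
  induction l with
  | nil =>
    simp [ofRawE, selE, selX, coefP]
  | cons p l ih =>
    rw [ofRawE_cons, LsumE_cons]
    have h2 := ih (fun p' hp' => hl p' (by simp [hp']))
    have sumI : ∀ (lst : List (ℕ × ℕ)) (a : ℕ × ℕ),
        (EI.map (fun e => (e.m : ℝ) * (coefP (a :: lst) e.p : ℝ) * f (gOf Wd t e.p, ∅))).sum =
        (EI.map (fun e => (e.m : ℝ) * (((if a.1 = e.p then a.2 else 0 : ℕ)) : ℝ) * f (gOf Wd t e.p, ∅))).sum +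
        (EI.map (fun e => (e.m : ℝ) * (coefP lst e.p : ℝ) * f (gOf Wd t e.p, ∅))).sum := by
      intro lst a
      rw [← List.sum_map_add]
      apply congrArg
      apply List.map_congr_left
      intro e _
      rw [coefP_cons]
      push_cast
      ring
    have sumX : ∀ (lst : List (ℕ × ℕ)) (a : ℕ × ℕ),
        (EE.map (fun e => (e.m : ℝ) * (coefP (a :: lst) e.p : ℝ) * f (gOf Wd t e.p, {0}))).sum =
        (EE.map (fun e => (e.m : ℝ) * (((if a.1 = e.p then a.2 else 0 : ℕ)) : ℝ) * f (gOf Wd t e.p, {0}))).sum +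
        (EE.map (fun e => (e.m : ℝ) * (coefP lst e.p : ℝ) * f (gOf Wd t e.p, {0}))).sum := by
      intro lst a
      rw [← List.sum_map_add]
      apply congrArg
      apply List.map_congr_left
      intro e _
      rw [coefP_cons]
      push_cast
      ring
    by_cases h0 : p.1.2 = ∅
    · have h1 := read_one (q := p.2) (b := p.1.1.2) (hl p (by simp))
        (f := fun g => f (g, ∅)) (fun g => hf _) hI hmI
      rw [selE_cons_pos Wd _ (by simp [h0]), selX_cons_neg Wd _ (by simp [h0]), sumI]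
      have hmul : mulE (((p.1.1.1 : ℤ) - t, (p.1.1.2 : ℤ) - t), (∅ : Finset (Fin 3))) = mulR ((p.1.1.1 : ℤ) - t, (p.1.1.2 : ℤ) - t) := by
        simp [mulE]
      simp only [h0, hmul]
      linarith
    · by_cases hx : p.1.2 = {0}
      · have h1 := read_oneX (q := p.2) (b := p.1.1.2) (hl p (by simp))
          (f := fun g => f (g, {0})) (fun g => hf _) hX hmX
        rw [selE_cons_neg Wd _ (by
            intro h
            exact h0 (Finset.subset_empty.mp h)), selX_cons_pos Wd _ hx, sumX]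
        have : mulE (((p.1.1.1 : ℤ) - t, (p.1.1.2 : ℤ) - t), ({0} : Finset (Fin 3))) = mulX ((p.1.1.1 : ℤ) - t, (p.1.1.2 : ℤ) - t) := by
          simp [mulE]
        simp only [hx, this]
        linarith
      · rw [selE_cons_neg Wd _ (by
            intro h
            exact h0 (Finset.subset_empty.mp h)), selX_cons_neg Wd _ hx]
        have : mulE (((p.1.1.1 : ℤ) - t, (p.1.1.2 : ℤ) - t), p.1.2) = 0 := by
          simp [mulE, h0, hx]
        simp only [this]
        simp only [Nat.cast_zero, zero_mul, mul_zero, zero_add]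
        exact h2

/-! ### The law of the packed masses -/

/-- The interior part of a law. -/
def lift0 (l : RL) : RE := l.map (fun p => ((p.1, ∅), p.2))

/-- The orbit of the class of rays, each point with mass `q`. -/
def rayOrb (o q : ℕ) : RE :=
  [(((o, o), {0}), q), (((o, o), {0}), q), (((o, o), {1}), q), (((o, o), {1}), q),
    (((o, o), {2}), q), (((o, o), {2}), q)]

/-- The raw law of the packed masses, with the class of rays. -/
def rawE (C : LatCfg) (Q : ℕ) : RE := lift0 (rawQ C Q C.J) ++ rayOrb C.o (dig C.fq Q C.J)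

/-- The child law with packed masses `Q`. -/
def lawE (C : LatCfg) (Q : ℕ) : LwE := ofRawE C.o (rawE C Q)

/-- The point of the class of rays. -/
def rayG : GE := ((0, 0), {0})

lemma selE_lift0 (S : Finset (Fin 3)) (Wd : ℕ) (l : RL) : selE S Wd (lift0 l) = posL Wd l := by
  simp only [selE, lift0, posL, List.map_map]
  rw [List.filter_map, List.map_map]
  have : ((fun p : ((ℕ × ℕ) × Finset (Fin 3)) × ℕ => decide (p.1.2 ⊆ S)) ∘
      fun p : (ℕ × ℕ) × ℕ => ((p.1, (∅ : Finset (Fin 3))), p.2)) = fun _ => true := by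
    funext p
    simp
  rw [this, List.filter_true]
  rfl

lemma selE_empty_ray (Wd o q : ℕ) : selE ∅ Wd (rayOrb o q) = [] := by
  have h : ∀ i : Fin 3, ¬ (({i} : Finset (Fin 3)) ⊆ ∅) := by decide
  simp [selE, rayOrb]

lemma selE_zero_ray (Wd o q : ℕ) :
    selE {0} Wd (rayOrb o q) = [(o + Wd * o, q), (o + Wd * o, q)] := by
  have h1 : ¬ (({1} : Finset (Fin 3)) ⊆ {0}) := by decide
  have h2 : ¬ (({2} : Finset (Fin 3)) ⊆ {0}) := by decide
  simp [selE, rayOrb]

lemma encI_eq (C : LatCfg) (Q : ℕ) : encI C Q = encP C.W (selE ∅ C.Wd (rawE C Q)) := by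
  rw [rawE, selE_append, selE_lift0, selE_empty_ray, List.append_nil]
  exact encB_eq C Q C.J

lemma encS_eq (C : LatCfg) (Q : ℕ) : encS C Q = encP C.W (selE {0} C.Wd (rawE C Q)) := by
  rw [rawE, selE_append, selE_lift0, selE_zero_ray, encP_append, ← encB_eq]
  simp only [encS, encI, encP_cons, encP_nil, ps, shl_eq, Nat.add_eq, Nat.mul_eq]
  ring

lemma LsumE_lift0 (t : ℕ) (l : RL) (f : GE → ℝ) :
    LsumE (ofRawE t (lift0 l)) f = Lsum (ofRaw t l) (fun g => f (g, ∅)) := by
  induction l with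
  | nil => rfl
  | cons p l ih =>
    have e : lift0 (p :: l) = ((p.1, ∅), p.2) :: lift0 l := rfl
    rw [e, ofRawE_cons, LsumE_cons, ih, ofRaw_cons, Lsum_cons]

lemma LsumE_ray (o q : ℕ) (f : GE → ℝ) :
    LsumE (ofRawE o (rayOrb o q)) f = (q : ℝ) * ∑ σ, f (actE σ rayG) := by
  obtain ⟨m1, m2, m3, m4, m5, m6⟩ := masks_0
  rw [sum_perm]
  simp only [actE, rayG, act_zero, m1, m2, m3, m4, m5, m6]
  simp only [ofRawE, rayOrb, List.map_cons, List.map_nil, LsumE_cons, LsumE_nil, sub_self]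
  ring

/-- The integral against the law in terms of the classes. -/
lemma LsumE_lawE (C : LatCfg) (Q : ℕ) (f : GE → ℝ) :
    LsumE (lawE C Q) f = Lsum (ofRaw C.o (rawQ C Q C.J)) (fun g => f (g, ∅)) +
      (dig C.fq Q C.J : ℝ) * ∑ σ, f (actE σ rayG) := by
  rw [lawE, rawE, ofRawE_append, LsumE_append, LsumE_lift0, LsumE_ray]

lemma symE_lawE (C : LatCfg) (Q : ℕ) (h : DstGood C C.J) : SymE (lawE C Q) := by
  intro τ f
  rw [LsumE_lawE, LsumE_lawE]
  congr 1
  · have := symL_rawQ C Q h τ (fun g => f (g, ∅))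
    simp only [actE, actM_empty]
    exact this
  · congr 1
    simp only [actE_act]
    exact Equiv.sum_comp (Equiv.mulRight τ) (fun σ => f (actE σ rayG))

lemma BdE_lawE (C : LatCfg) (Q : ℕ) (h : DstGood C C.J) (ho : C.o ≤ C.R) : BdE C.R (rawE C Q) := by
  intro p hp
  simp only [rawE, List.mem_append] at hp
  rcases hp with hp | hp
  · simp only [lift0, List.mem_map] at hp
    obtain ⟨a, ha, rfl⟩ := hp
    exact BdR_rawQ C Q h a ha
  · simp only [rayOrb, List.mem_cons, List.not_mem_nil, or_false] at hp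
    rcases hp with rfl | rfl | rfl | rfl | rfl | rfl <;> exact ⟨ho, ho⟩

lemma totP_sel_rawE (C : LatCfg) (Q : ℕ) :
    totP (selE {0} C.Wd (rawE C Q)) = 6 * totQ C Q C.J + 2 * dig C.fq Q C.J := by
  rw [rawE, selE_append, selE_lift0, selE_zero_ray, totP_append, totP_rawQ]
  simp only [totP_cons, totP]
  simp
  ring

end Vale.Agent.Lib.P154Anti
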