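import Vale.Agent.Lib.P154Anti.LatMain

/-!
One level of the lattice computation: from the domination of the children to the domination of
the parents.
-/

namespace Vale.Agent.Lib.P154Anti

open Vale.Agent.Lib.P154

/-- The child law with packed masses `Q`. -/
def lawQ (C : LatCfg) (Q : ℕ) : Lw := ofRaw C.o (rawQ C Q C.J)

/-- The tensor of the product law. -/
def ZOf (C : LatCfg) (Q : ℕ) : ℕ := Nat.pow (encB C Q C.J) C.d

lemma coef_digit {C : LatCfg} (hC : CfgGood C) {Q : ℕ} (htot : 6 * totQ C Q C.J ≤ 2 ^ C.f) (p : ℕ) :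
    digAt C.W (ZOf C Q) p = coefP (posL C.Wd (rawPow (rawQ C Q C.J) (C.d - 1))) p := by
  have hd : C.d - 1 + 1 = C.d := by have := hC.d2; omega
  have e1 : ZOf C Q = encP C.W (posL C.Wd (rawPow (rawQ C Q C.J) (C.d - 1))) := by
    rw [encP_posL_pow, hd, ← encB_eq]
    rfl
  rw [e1]
  apply digit_encP
  intro q
  refine lt_of_le_of_lt (coefP_le_tot _ q) ?_
  rw [totP_posL_pow, hd, totP_rawQ]
  calc (6 * totQ C Q C.J) ^ C.d ≤ (2 ^ C.f) ^ C.d := Nat.pow_le_pow_left htot _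
    _ = 2 ^ (C.f * C.d) := by rw [pow_mul]
    _ < 2 ^ C.W := Nat.pow_lt_pow_right (by norm_num) hC.W

/-- The bound for the merged messages of `d` children. -/
theorem merged_bound {C : LatCfg} (hC : CfgGood C) (hD : DstGood C C.J) {E : List Ent}
    (hE : E.Pairwise (fun e e' => e.p < e'.p)) (hG' : ∀ e ∈ E, EntGood C e) {Q : ℕ}
    (htot : 6 * totQ C Q C.J ≤ 2 ^ C.f) {Ω : Type} [Fintype Ω] {y : Ω → W3} (hy : Fam y)
    (hDom : Dom (rhoOf C) y (lawQ C Q) (2 ^ C.f)) {G : W3 → ℝ} (hG : SubC G) :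
    ∑ ξ, G (xk y (C.d - 1) ξ) ≤
      (E.map (fun e => (e.m : ℝ) * (digAt C.W (ZOf C Q) e.p : ℝ) *
        G (lat (rhoOf C) (gOf C.Wd (C.d * C.o) e.p)))).sum / 2 ^ (C.f * C.d) := by
  have hr := rho_pos hC
  have hd : C.d - 1 + 1 = C.d := by have := hC.d2; omega
  have hsym : SymL (lawQ C Q) := symL_rawQ C Q hD
  have h1 := Dom.xk hr (s := 2 ^ C.f) (by positivity) hy hsym hDom (C.d - 1) G hG
  have e0 : ((2 : ℝ) ^ C.f) ^ (C.d - 1 + 1) = 2 ^ (C.f * C.d) := by rw [hd, ← pow_mul]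
  rw [e0] at h1
  refine h1.trans ?_
  apply div_le_div_of_nonneg_right _ (by positivity)
  have hinv : ∀ (σ : Equiv.Perm (Fin 3)) g, G (lat (rhoOf C) (act σ g)) = G (lat (rhoOf C) g) :=
    fun σ g => F_lat_act hG _ σ g
  rw [Lsum_mulR (hsym.pow (C.d - 1)) hinv]
  have e2 : Lpow (lawQ C Q) (C.d - 1) = ofRaw (C.d * C.o) (rawPow (rawQ C Q C.J) (C.d - 1)) := by
    simp only [lawQ]
    rw [ofRaw_pow, hd]
  rw [e2]
  have hl : ∀ p ∈ rawPow (rawQ C Q C.J) (C.d - 1), p.1.1 < C.Wd := by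
    intro p hp
    have := (BdR.pow (BdR_rawQ C Q hD) (C.d - 1)) p hp
    rw [hd] at this
    have h2 := hC.Wd
    omega
  have := read_all (Wd := C.Wd) (t := C.d * C.o) hl
    (f := fun g => G (lat (rhoOf C) g)) (fun g => hG.nonpos (lat_nn hr g)) hE
    (fun e he => mul_eq_mulR (hG' e he))
  refine this.trans (le_of_eq ?_)
  apply congrArg
  apply List.map_congr_left
  intro e _
  rw [coef_digit hC htot]

/-- The value of a list of slots against a weight. -/
noncomputable def evS (l : List (ℕ × ℕ)) (h : ℕ → ℝ) : ℝ := (l.map (fun p => (p.2 : ℝ) * h p.1)).sum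

lemma evS_nil (h : ℕ → ℝ) : evS [] h = 0 := rfl

lemma evS_cons (p : ℕ × ℕ) (l : List (ℕ × ℕ)) (h : ℕ → ℝ) :
    evS (p :: l) h = (p.2 : ℝ) * h p.1 + evS l h := by
  simp [evS]

lemma evS_append (l l' : List (ℕ × ℕ)) (h : ℕ → ℝ) : evS (l ++ l') h = evS l h + evS l' h := by
  simp [evS]

lemma evS_flatMap {α : Type} (E : List α) (f : α → List (ℕ × ℕ)) (h : ℕ → ℝ) :
    evS (E.flatMap f) h = (E.map (fun e => evS (f e) h)).sum := by
  induction E with
  | nil => rfl
  | cons e E ih =>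
    simp only [List.flatMap_cons, evS_append, List.map_cons, List.sum_cons, ih]

lemma evS_eq_sum (l : List (ℕ × ℕ)) (h : ℕ → ℝ) {N : ℕ} (hN : ∀ p ∈ l, p.1 < N) :
    evS l h = ∑ j ∈ Finset.range N, (coefP l j : ℝ) * h j := by
  induction l with
  | nil => simp [evS, coefP]
  | cons a l ih =>
    rw [evS_cons, ih (fun p hp => hN p (by simp [hp]))]
    simp only [coefP_cons]
    push_cast
    simp only [add_mul, Finset.sum_add_distrib]
    congr 1
    rw [Finset.sum_eq_single a.1]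
    · simp
    · intro b _ hb
      simp [Ne.symm hb]
    · intro hh
      exact absurd (Finset.mem_range.mpr (hN a (by simp))) hh

lemma chkQ_sound (C : LatCfg) (S0 Acc Q' : ℕ) : ∀ n, chkQ C S0 Acc Q' n = true →
    ∀ j, j < n → dig C.fq Q' j * S0 ≤ dig C.wa Acc j
  | 0, _, j, hj => absurd hj (Nat.not_lt_zero _)
  | n + 1, h, j, hj => by
    simp only [chkQ, Bool.and_eq_true, Nat.ble_eq] at h
    rcases Nat.lt_or_eq_of_le (Nat.le_of_lt_succ hj) with hj | rfl
    · exact chkQ_sound C S0 Acc Q' n h.2 j hj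
    · exact h.1

/-- The integral of a functional against the law with masses `Q`. -/
lemma Lsum_lawQ {C : LatCfg} (hD : DstGood C C.J) (Q : ℕ) {F : W3 → ℝ} (hF : SubC F) :
    Lsum (lawQ C Q) (fun g => F (lat (rhoOf C) g)) =
      6 * ∑ j ∈ Finset.range C.J, (dig C.fq Q j : ℝ) * F (lat (rhoOf C) (gJ C j)) := by
  simp only [lawQ]
  rw [Lsum_rawQ C Q hD, Finset.mul_sum]
  apply Finset.sum_congr rfl
  intro j _
  simp only [F_lat_act hF]
  simp only [Finset.sum_const, Finset.card_univ, Fintype.card_perm, Fintype.card_fin, nsmul_eq_mul]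
  have e : ((Nat.factorial 3 : ℕ) : ℝ) = 6 := by norm_num [Nat.factorial]
  rw [e]
  ring

/-- Consequences of the check of a table. -/
structure TableGood (C : LatCfg) (T : List Blk) (v : Ent) : Prop where
  cfg : CfgGood C
  dst : DstGood C C.J
  vtx : vtxOK C v = true
  rng : rangeOK T = true
  pw : (flatT T).Pairwise (fun e e' => e.p < e'.p)
  ent : ∀ e ∈ flatT T, EntGood C e

lemma tableOK_good {C : LatCfg} {T : List Blk} {v : Ent} (h : tableOK C T v = true) : TableGood C T v := by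
  simp only [tableOK, Bool.and_eq_true] at h
  obtain ⟨h1, h2, h3, h4⟩ := h
  have hC := cfgOK_good h1
  obtain ⟨i1, i2⟩ := incrOK_sound C _ _ h4
  exact ⟨hC, dstOK_good C _ hC.dst, h2, h3, i2, fun e he => entOK_good (i1 e he).2⟩

/-- Consequences of the check of a level. -/
structure LvlGood (C : LatCfg) (T : List Blk) (v : Ent) (Q U Q' : ℕ) : Prop where
  tot : 6 * totQ C Q C.J ≤ 2 ^ C.f
  one : U ≤ 2 ^ (C.f * C.d)
  top : encP C.wa (contribV C.J (2 ^ (C.f * C.d) - U) v ++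
      (flatT T).flatMap (fun e => contrib C.J e (digAt C.W (ZOf C Q) e.p))) / 2 ^ (C.wa * (C.J + 1)) < 2 ^ C.wa
  mass : dig C.wa (encP C.wa (contribV C.J (2 ^ (C.f * C.d) - U) v ++
      (flatT T).flatMap (fun e => contrib C.J e (digAt C.W (ZOf C Q) e.p)))) C.J ≤ U * 3 * 2 ^ C.fp
  chk : ∀ j, j < C.J → dig C.fq Q' j * (6 * 2 ^ (C.f * C.d + C.fS - C.f)) ≤
    dig C.wa (encP C.wa (contribV C.J (2 ^ (C.f * C.d) - U) v ++
      (flatT T).flatMap (fun e => contrib C.J e (digAt C.W (ZOf C Q) e.p)))) j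

lemma lvlOK_good {C : LatCfg} {T : List Blk} {v : Ent} {Q U Q' : ℕ} (hT : TableGood C T v)
    (h : lvlOK C T v Q U Q' = true) : LvlGood C T v Q U Q' := by
  have hacc : Nat.add (vtxAdd C.wa C.J (Nat.sub (Nat.shiftLeft 1 (Nat.mul C.f C.d)) U) v)
      (sumBlks C.W (Nat.sub (Nat.shiftLeft 1 C.W) 1) C.wa C.J (Nat.pow (encB C Q C.J) C.d) T) =
      encP C.wa (contribV C.J (2 ^ (C.f * C.d) - U) v ++
      (flatT T).flatMap (fun e => contrib C.J e (digAt C.W (ZOf C Q) e.p))) := by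
    rw [encP_append, ← vtxAdd_eq, ← sumBlks_eq _ _ _ _ _ hT.rng]
    simp only [shl_eq, one_mul, Nat.mul_eq, Nat.sub_eq]
    rfl
  unfold lvlOK at h
  simp only [hacc] at h
  simp only [Bool.and_eq_true, Nat.ble_eq, shl_eq, one_mul, Nat.mul_eq, Nat.sub_eq, Nat.add_eq] at h
  obtain ⟨h1, h2, h3, h4, h5⟩ := h
  have h3' : encP C.wa (contribV C.J (2 ^ (C.f * C.d) - U) v ++
      (flatT T).flatMap (fun e => contrib C.J e (digAt C.W (ZOf C Q) e.p))) / 2 ^ (C.wa * (C.J + 1)) < 2 ^ C.wa := by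
    simpa [shr_eq, Nat.shiftRight_eq_div_pow, Nat.shiftLeft_eq] using h3
  exact ⟨h1, h2, h3', h4, chkQ_sound C _ _ Q' _ h5⟩

/-- The weight used for the value of a functional on the slots. -/
noncomputable def phiH (C : LatCfg) (F : W3 → ℝ) (j : ℕ) : ℝ :=
  if j < C.J then F (lat (rhoOf C) (gJ C j)) else 0

lemma evS_contrib_phi {C : LatCfg} (F : W3 → ℝ) {e : Ent} (he : EntGood C e) (v : ℕ) :
    evS (contrib C.J e v) (phiH C F) = (v : ℝ) * e.m * ((e.c1 : ℝ) * F (lat (rhoOf C) (gJ C e.j1)) +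
      (e.c2 : ℝ) * F (lat (rhoOf C) (gJ C e.j2)) + (e.c3 : ℝ) * F (lat (rhoOf C) (gJ C e.j3))) := by
  simp only [contrib, evS_cons, evS_nil, phiH, if_pos he.j1, if_pos he.j2, if_pos he.j3]
  simp only [lt_self_iff_false, if_false, Nat.not_lt.mpr (Nat.le_succ C.J)]
  push_cast
  ring

lemma evS_contribV_phi {C : LatCfg} (F : W3 → ℝ) {v : Ent} (j1 : v.j1 < C.J) (j2 : v.j2 < C.J)
    (j3 : v.j3 < C.J) (dv : ℕ) :
    evS (contribV C.J dv v) (phiH C F) = (dv : ℝ) * ((v.c1 : ℝ) * F (lat (rhoOf C) (gJ C v.j1)) +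
      (v.c2 : ℝ) * F (lat (rhoOf C) (gJ C v.j2)) + (v.c3 : ℝ) * F (lat (rhoOf C) (gJ C v.j3))) := by
  simp only [contribV, evS_cons, evS_nil, phiH, if_pos j1, if_pos j2, if_pos j3]
  simp only [Nat.not_lt.mpr (Nat.le_succ C.J), if_false]
  push_cast
  ring

lemma coefP_contrib_J {C : LatCfg} {e : Ent} (he : EntGood C e) (v : ℕ) :
    coefP (contrib C.J e v) C.J = v * e.m * e.mu := by
  simp only [contrib, coefP_cons, coefP_nil, if_neg (Nat.ne_of_lt he.j1), if_neg (Nat.ne_of_lt he.j2),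
    if_neg (Nat.ne_of_lt he.j3), if_true]
  simp

lemma coefP_contribV_J {C : LatCfg} {v : Ent} (j1 : v.j1 < C.J) (j2 : v.j2 < C.J)
    (j3 : v.j3 < C.J) (dv : ℕ) : coefP (contribV C.J dv v) C.J = 0 := by
  simp only [contribV, coefP_cons, coefP_nil, if_neg (Nat.ne_of_lt j1), if_neg (Nat.ne_of_lt j2),
    if_neg (Nat.ne_of_lt j3)]
  simp

lemma coefP_flat_J {C : LatCfg} {E : List Ent} (hE : ∀ e ∈ E, EntGood C e) (val : Ent → ℕ) :
    coefP (E.flatMap (fun e => contrib C.J e (val e))) C.J = (E.map (fun e => val e * e.m * e.mu)).sum := by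
  induction E with
  | nil => rfl
  | cons e E ih =>
    simp only [List.flatMap_cons, coefP_append, List.map_cons, List.sum_cons]
    rw [ih (fun e' he' => hE e' (by simp [he'])), coefP_contrib_J (hE e (by simp))]

lemma pos_contrib_lt {C : LatCfg} {e : Ent} (he : EntGood C e) (v : ℕ) :
    ∀ p ∈ contrib C.J e v, p.1 < C.J + 2 := by
  intro p hp
  simp only [contrib, List.mem_cons, List.not_mem_nil, or_false] at hp
  have h1 := he.j1
  have h2 := he.j2
  have h3 := he.j3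
  rcases hp with rfl | rfl | rfl | rfl | rfl <;> simp only <;> omega

lemma pos_contribV_lt {C : LatCfg} {v : Ent} (j1 : v.j1 < C.J) (j2 : v.j2 < C.J)
    (j3 : v.j3 < C.J) (dv : ℕ) : ∀ p ∈ contribV C.J dv v, p.1 < C.J + 2 := by
  intro p hp
  simp only [contribV, List.mem_cons, List.not_mem_nil, or_false] at hp
  rcases hp with rfl | rfl | rfl | rfl <;> simp only <;> omega

/-- One level of the computation. -/
theorem lvl_sound {C : LatCfg} {T : List Blk} {v : Ent} {Q U Q' : ℕ} (hT : tableOK C T v = true)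
    (hL : lvlOK C T v Q U Q' = true) {Ω : Type} [Fintype Ω] {y : Ω → W3} (hy : Fam y)
    (hDom : Dom (rhoOf C) y (lawQ C Q) (2 ^ C.f)) {F : W3 → ℝ} (hF : SubC F) :
    ∑ ξ, F (pmap (lamOf C) (xk y (C.d - 1) ξ)) ≤
      Lsum (lawQ C Q') (fun g => F (lat (rhoOf C) g)) / 2 ^ C.f := by
  have hTG := tableOK_good hT
  have hLG := lvlOK_good hTG hL
  have hC := hTG.cfg
  have hD := hTG.dst
  have hr := rho_pos hC
  have hld := ld_pos hC
  have hl2 : (2 : ℝ) * C.ln ≤ C.ld := by exact_mod_cast hC.l2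
  have hln : (0 : ℝ) ≤ C.ln := by positivity
  have hlam0 : -1 / 2 ≤ lamOf C := by
    simp only [lamOf]
    rw [neg_div, neg_le_neg_iff, div_le_iff₀ hld]
    linarith
  have hlam1 : lamOf C ≤ 1 := by
    have : 0 ≤ (C.ln : ℝ) / C.ld := by positivity
    simp only [lamOf]
    linarith
  set E := flatT T with hEdef
  have hEG := hTG.ent
  set Z := ZOf C Q with hZ
  set c := F (pmap (lamOf C) del0) with hc
  set D : ℝ := 2 ^ (C.f * C.d) with hDdef
  set K : ℝ := 2 ^ C.fS with hKdef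
  set P : ℝ := 2 ^ C.fp with hPdef
  have hDp : 0 < D := by positivity
  have hKp : 0 < K := by positivity
  have hPp : 0 < P := by positivity
  have hc0 : c ≤ 0 := hF.nonpos (pmap_nn hlam0 hlam1 del0_nn)
  -- the functional on the product law
  have hG := subC_chan hF hlam0 hlam1
  have hm := merged_bound hC hD hTG.pw hEG hLG.tot hy hDom hG
  have hx0 : ∀ ξ, NN (xk y (C.d - 1) ξ) := fun ξ => xk_nn hy.nn _ ξ
  have hmass := mass_xk hy (C.d - 1)
  have e1 : ∑ ξ, (F (pmap (lamOf C) (xk y (C.d - 1) ξ)) - M3 (xk y (C.d - 1) ξ) * F (pmap (lamOf C) del0)) =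
      ∑ ξ, F (pmap (lamOf C) (xk y (C.d - 1) ξ)) - c := by
    rw [Finset.sum_sub_distrib, ← Finset.sum_mul, hmass, one_mul]
  rw [e1] at hm
  -- the values of the entries
  set val : Ent → ℕ := fun e => digAt C.W Z e.p with hval
  set Phi : Ent → ℝ := fun e => (e.c1 : ℝ) * F (lat (rhoOf C) (gJ C e.j1)) +
      (e.c2 : ℝ) * F (lat (rhoOf C) (gJ C e.j2)) + (e.c3 : ℝ) * F (lat (rhoOf C) (gJ C e.j3)) with hPhi
  have h2 : (E.map (fun e => (e.m : ℝ) * (val e : ℝ) *
        (F (pmap (lamOf C) (lat (rhoOf C) (gOf C.Wd (C.d * C.o) e.p))) -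
          M3 (lat (rhoOf C) (gOf C.Wd (C.d * C.o) e.p)) * c))).sum ≤
      (E.map (fun e => evS (contrib C.J e (val e)) (phiH C F) / K -
        c * (((val e * e.m * e.mu : ℕ) : ℝ) / (3 * P)))).sum := by
    apply List.sum_le_sum
    intro e he
    have hg := hEG e he
    have a1 := F_entry hF hC hD hg
    have a2 := M3_lat_le hC hg
    rw [evS_contrib_phi F hg]
    have hx : (0 : ℝ) ≤ (e.m : ℝ) * (val e : ℝ) := by positivity
    have a3 := mul_le_mul_of_nonneg_left (sub_le_sub a1 (mul_le_mul_of_nonpos_right a2 hc0)) hx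
    refine a3.trans (le_of_eq ?_)
    simp only [hPhi, ← hKdef, ← hPdef]
    push_cast
    ring
  have e3 : (E.map (fun e => evS (contrib C.J e (val e)) (phiH C F) / K -
        c * (((val e * e.m * e.mu : ℕ) : ℝ) / (3 * P)))).sum =
      evS (E.flatMap (fun e => contrib C.J e (val e))) (phiH C F) / K -
        c * (((E.map (fun e => val e * e.m * e.mu)).sum : ℕ) : ℝ) / (3 * P) := by
    rw [evS_flatMap]
    clear h2
    induction E with
    | nil => simp
    | cons e E ih =>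
      simp only [List.map_cons, List.sum_cons]
      rw [ih]
      push_cast
      ring
  rw [e3] at h2
  -- the slots
  obtain ⟨j1, j2, j3, -, -, -⟩ : v.j1 < C.J ∧ v.j2 < C.J ∧ v.j3 < C.J ∧ True ∧ True ∧ True := by
    have := hTG.vtx
    unfold vtxOK at this
    simp only [Bool.and_eq_true, Nat.blt_eq] at this
    exact ⟨this.1, this.2.1, this.2.2.1, trivial, trivial, trivial⟩
  set dv := 2 ^ (C.f * C.d) - U with hdv
  set Lm := E.flatMap (fun e => contrib C.J e (val e)) with hLm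
  set l := contribV C.J dv v ++ Lm with hl
  have hTop : TopOK C.J l := (topOK_contribV _ _ _).append (topOK_flat _ _ _)
  have hdig := acc_digit hTop hLG.top
  have hmassU := hLG.mass
  rw [hdig] at hmassU
  have hchk : ∀ j, j < C.J → dig C.fq Q' j * (6 * 2 ^ (C.f * C.d + C.fS - C.f)) ≤ coefP l j := by
    intro j hj
    have := hLG.chk j hj
    rwa [hdig] at this
  have hcoefJ : coefP l C.J = (E.map (fun e => val e * e.m * e.mu)).sum := by
    rw [hl, coefP_append, coefP_contribV_J j1 j2 j3, zero_add, hLm, coefP_flat_J hEG]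
  rw [hcoefJ] at hmassU
  set Mb := (E.map (fun e => val e * e.m * e.mu)).sum with hMb
  have hMbR : (Mb : ℝ) / (3 * P) ≤ U := by
    rw [div_le_iff₀ (by positivity)]
    have : (Mb : ℝ) ≤ (U : ℝ) * 3 * 2 ^ C.fp := by exact_mod_cast hmassU
    rw [hPdef]
    linarith
  have hUD : (U : ℝ) ≤ D := by
    have := hLG.one
    rw [hDdef]
    exact_mod_cast this
  have hdvR : (dv : ℝ) = D - U := by
    rw [hdv, Nat.cast_sub hLG.one]
    push_cast
    rfl
  set X := evS Lm (phiH C F) with hX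
  set PhiV := (v.c1 : ℝ) * F (lat (rhoOf C) (gJ C v.j1)) + (v.c2 : ℝ) * F (lat (rhoOf C) (gJ C v.j2)) +
      (v.c3 : ℝ) * F (lat (rhoOf C) (gJ C v.j3)) with hPhiV
  have hvt : c ≤ PhiV / K := F_vtx hF hC hD hTG.vtx
  have hmain : ∑ ξ, F (pmap (lamOf C) (xk y (C.d - 1) ξ)) ≤ evS l (phiH C F) / (K * D) := by
    have h3 : ∑ ξ, F (pmap (lamOf C) (xk y (C.d - 1) ξ)) - c ≤ (X / K - c * (Mb : ℝ) / (3 * P)) / D :=
      hm.trans (div_le_div_of_nonneg_right h2 hDp.le)
    have h4 : -(c * (Mb : ℝ) / (3 * P)) ≤ -(c * U) := by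
      have : c * (Mb : ℝ) / (3 * P) = c * ((Mb : ℝ) / (3 * P)) := by ring
      rw [this]
      have := mul_le_mul_of_nonpos_left hMbR hc0
      linarith
    have h5 : (X / K - c * (Mb : ℝ) / (3 * P)) / D ≤ (X / K - c * U) / D := by
      apply div_le_div_of_nonneg_right _ hDp.le
      linarith
    have h6 : c + (X / K - c * U) / D = c * ((dv : ℝ) / D) + X / (K * D) := by
      rw [hdvR]
      field_simp
      ring
    have h7 : c * ((dv : ℝ) / D) ≤ PhiV / K * ((dv : ℝ) / D) :=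
      mul_le_mul_of_nonneg_right hvt (by rw [hdvR]; apply div_nonneg <;> linarith)
    have e5 : evS l (phiH C F) = (dv : ℝ) * PhiV + X := by
      rw [hl, evS_append, evS_contribV_phi F j1 j2 j3]
    rw [e5]
    have h8 : ((dv : ℝ) * PhiV + X) / (K * D) = PhiV / K * ((dv : ℝ) / D) + X / (K * D) := by
      field_simp
    rw [h8]
    linarith
  refine hmain.trans ?_
  -- the sum over classes
  have hpos : ∀ p ∈ l, p.1 < C.J + 2 := by
    intro p hp
    rw [hl, List.mem_append] at hp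
    rcases hp with hp | hp
    · exact pos_contribV_lt j1 j2 j3 _ p hp
    · rw [hLm, List.mem_flatMap] at hp
      obtain ⟨e, he, hp⟩ := hp
      exact pos_contrib_lt (hEG e he) _ p hp
  rw [evS_eq_sum l _ hpos, Finset.sum_range_succ, Finset.sum_range_succ]
  have p1 : phiH C F C.J = 0 := by simp [phiH]
  have p2 : phiH C F (C.J + 1) = 0 := by simp [phiH]
  rw [p1, p2, mul_zero, mul_zero, add_zero, add_zero, Lsum_lawQ hD Q' hF]
  have hS : (6 * 2 ^ (C.f * C.d + C.fS - C.f) : ℝ) / (K * D) = 6 / 2 ^ C.f := by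
    have e7 : (2 : ℝ) ^ (C.f * C.d + C.fS - C.f) * 2 ^ C.f = K * D := by
      rw [← pow_add, Nat.sub_add_cancel hC.f, pow_add, hKdef, hDdef]
      ring
    rw [← e7]
    field_simp
  have hsum : ∑ j ∈ Finset.range C.J, (coefP l j : ℝ) * phiH C F j ≤
      (6 * 2 ^ (C.f * C.d + C.fS - C.f) : ℝ) *
        ∑ j ∈ Finset.range C.J, (dig C.fq Q' j : ℝ) * F (lat (rhoOf C) (gJ C j)) := by
    rw [Finset.mul_sum]
    apply Finset.sum_le_sum
    intro j hj
    have hj' := Finset.mem_range.mp hj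
    have hn : F (lat (rhoOf C) (gJ C j)) ≤ 0 := hF.nonpos (lat_nn hr _)
    have h1 : ((dig C.fq Q' j : ℝ) * (6 * 2 ^ (C.f * C.d + C.fS - C.f))) ≤ (coefP l j : ℝ) := by
      exact_mod_cast hchk j hj'
    have := mul_le_mul_of_nonpos_right h1 hn
    simp only [phiH, if_pos hj']
    calc _ ≤ _ := this
      _ = _ := by ring
  calc (∑ j ∈ Finset.range C.J, (coefP l j : ℝ) * phiH C F j) / (K * D)
      ≤ ((6 * 2 ^ (C.f * C.d + C.fS - C.f) : ℝ) *
        ∑ j ∈ Finset.range C.J, (dig C.fq Q' j : ℝ) * F (lat (rhoOf C) (gJ C j))) / (K * D) :=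
        div_le_div_of_nonneg_right hsum (by positivity)
    _ = (6 * 2 ^ (C.f * C.d + C.fS - C.f) : ℝ) / (K * D) *
        ∑ j ∈ Finset.range C.J, (dig C.fq Q' j : ℝ) * F (lat (rhoOf C) (gJ C j)) := by ring
    _ = _ := by
      rw [hS]
      ring

end Vale.Agent.Lib.P154Anti
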