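import Vale.Agent.Lib.P154Anti.LatLvl3
import Vale.Agent.Lib.P154Anti.LatStep2

/-!
One level of the lattice computation organised in cells.
-/

namespace Vale.Agent.Lib.P154Anti

open Vale.Agent.Lib.P154

/-- Consequences of the checks of the parameters and of the tables. -/
structure Good3 (C : LatCfg) (P : Par3) (TI TE : Tab3) (v : Ent) (vc : ℕ) : Prop where
  cfg : CfgGood C
  wide : (C.f + 1) * C.d < C.W
  oR : C.o ≤ C.R
  dst : DstGood C C.J
  sh1 : P.sh ≤ C.f * C.d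
  sh2 : P.sh ≤ C.W
  f1 : C.f ≤ (C.f * C.d - P.sh) + C.fS
  fc1 : C.f ≤ P.fc
  fc2 : P.fc ≤ C.f + 1
  top : P.Cm * 2 ^ ((P.fc * C.d - P.sh) + 1) < 2 ^ C.wa
  Lq0 : 0 < P.Lq
  ncJ : C.J + 1 ≤ P.nc * P.Lq
  rows : rowsOK P.Lq P.rows = true
  perm : List.isPerm (allTrip3 P.L 0 P.rows) (msort (trLe C.Wd) (orbTrip C C.J)) = true
  vtx : vtxOK2 C P.Cm v vc = true
  rI : rangeOK3 TI = true
  rE : rangeOK3 TE = true
  pwI : (sortedE TI).Pairwise (fun e e' => e.p < e'.p)
  entI : ∀ e ∈ sortedE TI, EntGood C e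
  cmI : ∀ e ∈ sortedE TI, e.m * (e.c1 + (e.c2 + e.c3)) ≤ P.Cm
  pwE : (sortedE TE).Pairwise (fun e e' => e.p < e'.p)
  entE : ∀ e ∈ sortedE TE, EntGoodE C e
  cmE : ∀ e ∈ sortedE TE, e.m * (e.c1 + (e.c2 + e.c3)) ≤ P.Cm

lemma good3 {C : LatCfg} {P : Par3} {TI TE : Tab3} {v : Ent} {vc : ℕ} (h1 : cfgOKE C = true)
    (h2 : parOK3 C P = true) (h3 : tableOK3 C P.Cm TI TE v vc = true) :
    Good3 C P TI TE v vc := by
  simp only [cfgOKE, Bool.and_eq_true, Nat.ble_eq, Nat.blt_eq, Nat.mul_eq, Nat.add_eq] at h1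
  obtain ⟨c1, c2, c3⟩ := h1
  have hC := cfgOK_good c1
  simp only [parOK3, Bool.and_eq_true, Nat.ble_eq, Nat.blt_eq, shl_eq, one_mul, Nat.mul_eq, Nat.add_eq,
    Nat.sub_eq, Nat.succ_eq_add_one] at h2
  obtain ⟨p1, p2, p3, p4, p5, p6, p7, p8, p9, p10⟩ := h2
  simp only [tableOK3, Bool.and_eq_true] at h3
  obtain ⟨t1, t2, t3, t4, t5, t6, t7⟩ := h3
  obtain ⟨i1, i2⟩ := incrOK_sound C _ _ t4
  obtain ⟨j1, j2⟩ := incrOKE_sound C _ _ t6
  have hcm : ∀ {T : Tab3}, cmOK3 P.Cm (tabEnts T) = true → ∀ e ∈ sortedE T, e.m * (e.c1 + (e.c2 + e.c3)) ≤ P.Cm := by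
    intro T h e he
    simp only [cmOK3, List.all_eq_true, Nat.ble_eq, Nat.mul_eq, Nat.add_eq] at h
    exact h e (mem_sortedE.mp he)
  exact ⟨hC, c2, c3, dstOK_good C _ hC.dst, p1, p2, p3, p4, p5, p6, p7, p8, p9, p10, t1, t2, t3, i2,
    fun e he => entOK_good (i1 e he).2, hcm t5, j2, fun e he => entOKE_good (j1 e he).2, hcm t7⟩

attribute [local irreducible] sortedE msort in
set_option maxHeartbeats 1000000 in
/-- One level of the computation. -/
theorem lvl_sound3 {C : LatCfg} {P : Par3} {TI TE : Tab3} {v : Ent} {vc Q U Q' : ℕ}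
    (hG2 : Good3 C P TI TE v vc)
    (hL : lvlOK3 C P TI TE v vc Q U Q' = true) {Ω : Type} [Fintype Ω] {y : Ω → W3} (hy : Fam y)
    (hDom : DomE (rhoOf C) y (lawE C Q) (2 ^ C.f)) {F : W3 → ℝ} (hF : SubC F) :
    ∑ ξ, F (pmap (lamOf C) (xk y (C.d - 1) ξ)) ≤
      LsumE (lawE C Q') (fun γ => F (vecE (rhoOf C) γ)) / 2 ^ C.f := by
  have hC := hG2.cfg
  have hD := hG2.dst
  have hr := rho_pos hC
  have hld := ld_pos hC
  obtain ⟨hlam0, hlam1'⟩ := lam_bounds hC
  have hlam1 : lamOf C ≤ 1 := by linarith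
  set EI := sortedE TI with hEI
  set EE := sortedE TE with hEE
  set ZI := ZIof C Q with hZI
  set ZE := ZEof C Q with hZE
  set fd1 := C.f * C.d - P.sh with hfd1
  -- the accumulator
  have hsh : P.sh ≤ C.W := hG2.sh2
  have hAllEnc := allEnc3_encI (C := C) (P := P) hG2.rows hG2.perm Q
  have hacc : Nat.add (vtxAdd2 C.wa C.J (Nat.sub (Nat.shiftLeft 1 (Nat.sub (Nat.mul C.f C.d) P.sh)) U) v vc)
      (Nat.add (clsTab3 C.W P.sh (Nat.sub (Nat.shiftLeft 1 (Nat.sub C.W P.sh)) 1) C.wa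
          (Nat.pow (allEnc3 C P.Lq Q P.L P.rows) C.d) TI)
        (clsTab3 C.W P.sh (Nat.sub (Nat.shiftLeft 1 (Nat.sub C.W P.sh)) 1) C.wa
          (Nat.sub (Nat.pow (encS2 C Q (allEnc3 C P.Lq Q P.L P.rows)) C.d) (Nat.pow (allEnc3 C P.Lq Q P.L P.rows) C.d)) TE)) =
      encP C.wa (contribV2 C.J (2 ^ fd1 - U) v vc ++
        (EI.flatMap (fun e => contribC e (digAt C.W ZI e.p / 2 ^ P.sh)) ++
          EE.flatMap (fun e => contribC e (digAt C.W ZE e.p / 2 ^ P.sh)))) := by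
    rw [encP_append, encP_append, ← vtxAdd2_eq]
    rw [hAllEnc, encS2_encI]
    have h1 := clsTab3_eq hsh C.wa ZI hG2.rI
    have h2 := clsTab3_eq hsh C.wa ZE hG2.rE
    rw [encP_perm _ ((tabEnts_perm TI).flatMap_right _).symm] at h1
    rw [encP_perm _ ((tabEnts_perm TE).flatMap_right _).symm] at h2
    rw [hEI, hEE, ← h1, ← h2]
    simp only [shl_eq, one_mul, Nat.mul_eq, Nat.sub_eq]
    rfl
  have hMI : gTab3 C.W P.sh (Nat.sub (Nat.shiftLeft 1 (Nat.sub C.W P.sh)) 1)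
      (Nat.pow (allEnc3 C P.Lq Q P.L P.rows) C.d) (fun e => Nat.mul e.m e.mu) TI =
      (EI.map (fun e => digAt C.W ZI e.p / 2 ^ P.sh * e.m * e.mu)).sum := by
    rw [hAllEnc]
    have h1 := gTab3_eq hsh ZI (fun e => Nat.mul e.m e.mu) hG2.rI
    rw [((tabEnts_perm TI).map _).sum_eq.symm] at h1
    refine h1.trans ?_
    apply congrArg
    apply List.map_congr_left
    intro e _
    show _ * (e.m * e.mu) = _
    ring
  have hME : gTab3 C.W P.sh (Nat.sub (Nat.shiftLeft 1 (Nat.sub C.W P.sh)) 1)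
      (Nat.sub (Nat.pow (encS2 C Q (allEnc3 C P.Lq Q P.L P.rows)) C.d) (Nat.pow (allEnc3 C P.Lq Q P.L P.rows) C.d))
      (fun e => Nat.mul e.m e.mu) TE =
      (EE.map (fun e => digAt C.W ZE e.p / 2 ^ P.sh * e.m * e.mu)).sum := by
    rw [hAllEnc, encS2_encI]
    have h1 := gTab3_eq hsh ZE (fun e => Nat.mul e.m e.mu) hG2.rE
    rw [((tabEnts_perm TE).map _).sum_eq.symm] at h1
    refine h1.trans ?_
    apply congrArg
    apply List.map_congr_left
    intro e _
    show _ * (e.m * e.mu) = _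
    ring
  have hL' := hL
  unfold lvlOK3 at hL'
  simp only [hacc, hMI, hME] at hL'
  simp only [Bool.and_eq_true, Nat.ble_eq, shl_eq, one_mul, Nat.mul_eq, Nat.sub_eq, Nat.add_eq] at hL'
  obtain ⟨htotc0, hone, hmassU, hchk0⟩ := hL'
  have htotc : 6 * totE C Q ≤ 2 ^ P.fc := by
    have e1 : totE C Q ≤ totCh C P.Lq Q P.nc := by
      rw [← totCh_eq]
      exact totQ_mono C Q hG2.ncJ
    have e2 : 6 * totE C Q ≤ 6 * totCh C P.Lq Q P.nc := Nat.mul_le_mul_left _ e1
    exact e2.trans htotc0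
  have hfcf : 2 ^ P.fc ≤ 2 ^ (C.f + 1) := Nat.pow_le_pow_right (by norm_num) hG2.fc2
  have htot : 6 * totE C Q ≤ 2 ^ (C.f + 1) := htotc.trans hfcf
  have hW := hG2.wide
  set l := contribV2 C.J (2 ^ fd1 - U) v vc ++
        (slots2 EI (fun e => digAt C.W ZI e.p / 2 ^ P.sh) ++
          slots2 EE (fun e => digAt C.W ZE e.p / 2 ^ P.sh)) with hl
  set c := F (pmap (lamOf C) del0) with hc
  set D1 : ℝ := 2 ^ fd1 with hD1
  set K : ℝ := 2 ^ C.fS with hKdef
  set Pw : ℝ := 2 ^ C.fp with hPdef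
  set Sc : ℝ := 2 ^ P.sh with hSc
  have hD1p : 0 < D1 := by positivity
  have hKp : 0 < K := by positivity
  have hPp : 0 < Pw := by positivity
  have hScp : 0 < Sc := by positivity
  have hDeq : (2 : ℝ) ^ (C.f * C.d) = Sc * D1 := by
    have e : C.f * C.d = P.sh + fd1 := by
      have := hG2.sh1
      omega
    rw [hSc, hD1, ← pow_add, ← e]
  have hc0 : c ≤ 0 := hF.nonpos (pmap_nn hlam0 hlam1 del0_nn)
  have hG := subC_chan hF hlam0 hlam1
  have hm := merged_boundE hC hG2.wide hG2.oR hD hG2.pwI hG2.entI hG2.pwE hG2.entE htot hy hDom hG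
  have hmass := mass_xk hy (C.d - 1)
  have e1 : ∑ ξ, (F (pmap (lamOf C) (xk y (C.d - 1) ξ)) - M3 (xk y (C.d - 1) ξ) * F (pmap (lamOf C) del0)) =
      ∑ ξ, F (pmap (lamOf C) (xk y (C.d - 1) ξ)) - c := by
    rw [Finset.sum_sub_distrib, ← Finset.sum_mul, hmass, one_mul]
  rw [e1] at hm
  set valI : Ent → ℕ := fun e => digAt C.W ZI e.p / 2 ^ P.sh with hvalI
  set valE : Ent → ℕ := fun e => digAt C.W ZE e.p / 2 ^ P.sh with hvalE
  have hjI : ∀ e ∈ EI, e.j1 < C.J ∧ e.j2 < C.J ∧ e.j3 < C.J := fun e he =>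
    ⟨(hG2.entI e he).j1, (hG2.entI e he).j2, (hG2.entI e he).j3⟩
  have hjE : ∀ e ∈ EE, e.j1 < C.J ∧ e.j2 < C.J ∧ e.j3 < C.J := fun e he =>
    ⟨(hG2.entE e he).j1, (hG2.entE e he).j2, (hG2.entE e he).j3⟩
  -- lowering the digits
  have lowI : ∀ e ∈ EI, (e.m : ℝ) * (digAt C.W ZI e.p : ℝ) *
      (F (pmap (lamOf C) (lat (rhoOf C) (gOf C.Wd (C.d * C.o) e.p))) -
        M3 (lat (rhoOf C) (gOf C.Wd (C.d * C.o) e.p)) * c) ≤
      Sc * ((e.m : ℝ) * (valI e : ℝ) *
      (F (pmap (lamOf C) (lat (rhoOf C) (gOf C.Wd (C.d * C.o) e.p))) -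
        M3 (lat (rhoOf C) (gOf C.Wd (C.d * C.o) e.p)) * c)) := by
    intro e _
    have hn := hG.nonpos (lat_nn hr (gOf C.Wd (C.d * C.o) e.p))
    have hv : (valI e : ℝ) * Sc ≤ (digAt C.W ZI e.p : ℝ) := by
      have : valI e * 2 ^ P.sh ≤ digAt C.W ZI e.p := Nat.div_mul_le_self _ _
      rw [hSc]
      exact_mod_cast this
    have hm0 : (0 : ℝ) ≤ e.m := by positivity
    have := mul_le_mul_of_nonpos_right (mul_le_mul_of_nonneg_left hv hm0) hn
    calc _ ≤ _ := this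
      _ = _ := by ring
  have lowE : ∀ e ∈ EE, (e.m : ℝ) * (digAt C.W ZE e.p : ℝ) *
      (F (pmap (lamOf C) (vecE (rhoOf C) (gOf C.Wd (C.d * C.o) e.p, {0}))) -
        M3 (vecE (rhoOf C) (gOf C.Wd (C.d * C.o) e.p, {0})) * c) ≤
      Sc * ((e.m : ℝ) * (valE e : ℝ) *
      (F (pmap (lamOf C) (vecE (rhoOf C) (gOf C.Wd (C.d * C.o) e.p, {0}))) -
        M3 (vecE (rhoOf C) (gOf C.Wd (C.d * C.o) e.p, {0})) * c)) := by
    intro e _
    have hn := hG.nonpos (vecE_nn hr (gOf C.Wd (C.d * C.o) e.p, {0}))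
    have hv : (valE e : ℝ) * Sc ≤ (digAt C.W ZE e.p : ℝ) := by
      have : valE e * 2 ^ P.sh ≤ digAt C.W ZE e.p := Nat.div_mul_le_self _ _
      rw [hSc]
      exact_mod_cast this
    have hm0 : (0 : ℝ) ≤ e.m := by positivity
    have := mul_le_mul_of_nonpos_right (mul_le_mul_of_nonneg_left hv hm0) hn
    calc _ ≤ _ := this
      _ = _ := by ring
  have sum_low : ∀ {E : List Ent} {a b : Ent → ℝ}, (∀ e ∈ E, a e ≤ Sc * b e) →
      (E.map a).sum ≤ Sc * (E.map b).sum := by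
    intro E a b h
    induction E with
    | nil => simp
    | cons e E ih =>
      simp only [List.map_cons, List.sum_cons, mul_add]
      exact add_le_add (h e (by simp)) (ih (fun e' he' => h e' (by simp [he'])))
  have h2I := sum_slots2 (C := C) (F := F) (E := EI) (val := valI) (c := c) (K := K) (P := Pw)
    (a := fun e => (e.m : ℝ) * (valI e : ℝ) *
      (F (pmap (lamOf C) (lat (rhoOf C) (gOf C.Wd (C.d * C.o) e.p))) -
        M3 (lat (rhoOf C) (gOf C.Wd (C.d * C.o) e.p)) * c)) (by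
    intro e he
    have hg := hG2.entI e he
    have a1 := F_entry hF hC hD hg
    have a2 := M3_lat_le hC hg
    rw [evS_contrib2 F hg.j1 hg.j2 hg.j3]
    have hx : (0 : ℝ) ≤ (e.m : ℝ) * (valI e : ℝ) := by positivity
    have a3 := mul_le_mul_of_nonneg_left (sub_le_sub a1 (mul_le_mul_of_nonpos_right a2 hc0)) hx
    refine a3.trans (le_of_eq ?_)
    simp only [← hKdef, ← hPdef]
    push_cast
    ring)
  have h2E := sum_slots2 (C := C) (F := F) (E := EE) (val := valE) (c := c) (K := K) (P := Pw)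
    (a := fun e => (e.m : ℝ) * (valE e : ℝ) *
      (F (pmap (lamOf C) (vecE (rhoOf C) (gOf C.Wd (C.d * C.o) e.p, {0}))) -
        M3 (vecE (rhoOf C) (gOf C.Wd (C.d * C.o) e.p, {0})) * c)) (by
    intro e he
    have hg := hG2.entE e he
    have a1 := F_entryE hF hC hD hg
    have a2 := M3_latE_le hC hg
    rw [evS_contrib2 F hg.j1 hg.j2 hg.j3]
    have hx : (0 : ℝ) ≤ (e.m : ℝ) * (valE e : ℝ) := by positivity
    have a3 := mul_le_mul_of_nonneg_left (sub_le_sub a1 (mul_le_mul_of_nonpos_right a2 hc0)) hx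
    refine a3.trans (le_of_eq ?_)
    simp only [← hKdef, ← hPdef]
    push_cast
    ring)
  -- the slots
  obtain ⟨vj1, vj2, vj3⟩ : v.j1 < C.J ∧ v.j2 < C.J ∧ v.j3 < C.J := by
    have := hG2.vtx
    unfold vtxOK2 at this
    simp only [Bool.and_eq_true, Nat.blt_eq] at this
    exact ⟨this.1, this.2.1, this.2.2.1⟩
  set dv := 2 ^ fd1 - U with hdv
  set LI := slots2 EI valI with hLI
  set LE := slots2 EE valE with hLE
  -- no overflow
  set lC := contribV2 C.J dv v vc ++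
    (EI.flatMap (fun e => contribC e (valI e)) ++ EE.flatMap (fun e => contribC e (valE e))) with hlC
  have hnooverflow : ∀ q, coefP lC q < 2 ^ C.wa := by
    intro q
    refine lt_of_le_of_lt (coefP_le_tot _ q) (lt_of_le_of_lt ?_ hG2.top)
    have t0 : totP (contribV2 C.J dv v vc) ≤ dv * P.Cm := by
      have hv := hG2.vtx
      unfold vtxOK2 at hv
      simp only [Bool.and_eq_true, Nat.ble_eq, Nat.add_eq] at hv
      have hv2 := hv.2.2.2.2.2.2
      simp only [contribV2, totP_cons, totP]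
      simp
      calc dv * v.c1 + (dv * v.c2 + (dv * v.c3 + dv * vc)) = dv * (v.c1 + (v.c2 + (v.c3 + vc))) := by ring
        _ ≤ _ := Nat.mul_le_mul_left _ hv2
    have t1 := totP_slotsC hG2.cmI valI
    have t2 := totP_slotsC hG2.cmE valE
    -- the total of the digits
    set lp := rawPowE (rawE C Q) (C.d - 1) with hlp
    have sI : (EI.map (fun e => digAt C.W ZI e.p)).sum ≤ totP (selE ∅ C.Wd lp) := by
      have := sum_coef_le (selE ∅ C.Wd lp) hG2.pwI
      refine le_of_eq_of_le ?_ this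
      apply congrArg
      apply List.map_congr_left
      intro e _
      exact digit_I hC hW htot e.p
    have sE : (EE.map (fun e => digAt C.W ZE e.p)).sum ≤ totP (selX C.Wd lp) := by
      have := sum_coef_le (selX C.Wd lp) hG2.pwE
      refine le_of_eq_of_le ?_ this
      apply congrArg
      apply List.map_congr_left
      intro e _
      exact digit_X hC hW htot e.p
    have hd : C.d - 1 + 1 = C.d := by have := hC.d2; omega
    have sT : totP (selE ∅ C.Wd lp) + totP (selX C.Wd lp) ≤ 2 ^ (P.fc * C.d) := by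
      have e2 : totP (selE ∅ C.Wd lp) + totP (selX C.Wd lp) = totP (selE {0} C.Wd lp) := by
        rw [totP_eq_encP, totP_eq_encP, totP_eq_encP, encP_split]
      rw [e2, totP_eq_encP, encP_sel_pow, hd, ← totP_eq_encP, totP_sel_rawE]
      have h1 : 6 * totQ C Q C.J + 2 * dig C.fq Q C.J ≤ 2 ^ P.fc := by
        have e : totE C Q = dig C.fq Q C.J + totQ C Q C.J := rfl
        rw [e] at htotc
        omega
      calc (6 * totQ C Q C.J + 2 * dig C.fq Q C.J) ^ C.d ≤ (2 ^ P.fc) ^ C.d := Nat.pow_le_pow_left h1 _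
        _ = _ := by rw [pow_mul]
    have hshfc : P.sh ≤ P.fc * C.d := by
      have := hG2.sh1
      have := hG2.fc1
      have h3 : C.f * C.d ≤ P.fc * C.d := Nat.mul_le_mul_right _ this
      omega
    have sV : (EI.map valI).sum + (EE.map valE).sum ≤ 2 ^ (P.fc * C.d - P.sh) := by
      have a1 := sum_div_le EI (fun e => digAt C.W ZI e.p) (2 ^ P.sh)
      have a2 := sum_div_le EE (fun e => digAt C.W ZE e.p) (2 ^ P.sh)
      have a3 : (EI.map (fun e => digAt C.W ZI e.p)).sum / 2 ^ P.sh + (EE.map (fun e => digAt C.W ZE e.p)).sum / 2 ^ P.sh ≤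
          ((EI.map (fun e => digAt C.W ZI e.p)).sum + (EE.map (fun e => digAt C.W ZE e.p)).sum) / 2 ^ P.sh :=
        Nat.div_add_div_le_add_div
      have a4 : ((EI.map (fun e => digAt C.W ZI e.p)).sum + (EE.map (fun e => digAt C.W ZE e.p)).sum) / 2 ^ P.sh ≤
          2 ^ (P.fc * C.d) / 2 ^ P.sh := Nat.div_le_div_right (by omega)
      have a5 : 2 ^ (P.fc * C.d) / 2 ^ P.sh = 2 ^ (P.fc * C.d - P.sh) :=
        Nat.pow_div hshfc (by norm_num)
      have a6 : (EI.map valI).sum = (EI.map (fun e => digAt C.W ZI e.p / 2 ^ P.sh)).sum := rfl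
      have a7 : (EE.map valE).sum = (EE.map (fun e => digAt C.W ZE e.p / 2 ^ P.sh)).sum := rfl
      rw [a6, a7]
      omega
    have hdv1 : dv ≤ 2 ^ (P.fc * C.d - P.sh) := by
      have h1 : dv ≤ 2 ^ fd1 := Nat.sub_le _ _
      refine h1.trans (Nat.pow_le_pow_right (by norm_num) ?_)
      have := hG2.fc1
      have h3 : C.f * C.d ≤ P.fc * C.d := Nat.mul_le_mul_right _ this
      omega
    rw [hlC, totP_append, totP_append]
    have e4 : 2 ^ (P.fc * C.d - P.sh + 1) = 2 ^ (P.fc * C.d - P.sh) + 2 ^ (P.fc * C.d - P.sh) := by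
      rw [pow_succ]
      ring
    rw [e4, Nat.mul_comm P.Cm, add_mul]
    have t3 : totP (EI.flatMap (fun e => contribC e (valI e))) + totP (EE.flatMap (fun e => contribC e (valE e))) ≤
        2 ^ (P.fc * C.d - P.sh) * P.Cm := by
      have t1' : totP (EI.flatMap (fun e => contribC e (valI e))) ≤ (EI.map valI).sum * P.Cm := t1
      have t2' : totP (EE.flatMap (fun e => contribC e (valE e))) ≤ (EE.map valE).sum * P.Cm := t2
      have := Nat.mul_le_mul_right P.Cm sV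
      rw [add_mul] at this
      omega
    have t4 : totP (contribV2 C.J dv v vc) ≤ 2 ^ (P.fc * C.d - P.sh) * P.Cm :=
      t0.trans (Nat.mul_le_mul_right _ hdv1)
    exact add_le_add t4 t3
  have hdig : ∀ q, dig C.wa (encP C.wa lC) q = coefP lC q := by
    intro q
    rw [digAt_dig]
    exact digit_encP C.wa lC hnooverflow q
  have hcoefC : ∀ j, coefP lC (j + 1) = coefP l (j + 1) := by
    intro j
    rw [hlC, hl, coefP_append, coefP_append, coefP_append, coefP_append]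
    rw [coefP_slotsC, coefP_slotsC]
    rfl
  have hchk : ∀ j, j < C.J + 1 → dig C.fq Q' j * (6 * 2 ^ (fd1 + C.fS - C.f)) ≤ coefP l (j + 1) := by
    intro j hj
    have h1 := chkCh_all hG2.Lq0 hchk0 (j := j) (lt_of_lt_of_le hj hG2.ncJ)
    rw [hdig, hcoefC] at h1
    exact h1
  set MbI := (EI.map (fun e => valI e * e.m * e.mu)).sum with hMbI
  set MbE := (EE.map (fun e => valE e * e.m * e.mu)).sum with hMbE
  have hMbR : ((MbI : ℝ) + MbE) / (3 * Pw) ≤ U := by
    rw [div_le_iff₀ (by positivity)]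
    have : ((MbI + MbE : ℕ) : ℝ) ≤ (U : ℝ) * 3 * 2 ^ C.fp := by exact_mod_cast hmassU
    rw [hPdef]
    push_cast at this
    linarith
  have hUD : (U : ℝ) ≤ D1 := by
    rw [hD1]
    exact_mod_cast hone
  have hdvR : (dv : ℝ) = D1 - U := by
    rw [hdv, Nat.cast_sub hone]
    push_cast
    rfl
  set XI := evS LI (phi2 C F) with hXI
  set XE := evS LE (phi2 C F) with hXE
  set Fr := F (vecE (rhoOf C) rayG) with hFr
  set PhiV := (v.c1 : ℝ) * F (lat (rhoOf C) (gJ C v.j1)) + (v.c2 : ℝ) * F (lat (rhoOf C) (gJ C v.j2)) +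
    (v.c3 : ℝ) * F (lat (rhoOf C) (gJ C v.j3)) + (vc : ℝ) * Fr with hPhiV
  have hvt : c ≤ PhiV / K := F_vtx2 hF hC hD hG2.vtx
  have hmain : ∑ ξ, F (pmap (lamOf C) (xk y (C.d - 1) ξ)) ≤ evS l (phi2 C F) / (K * D1) := by
    have h3 : ∑ ξ, F (pmap (lamOf C) (xk y (C.d - 1) ξ)) - c ≤
        ((XI + XE) / K - c * (((MbI : ℝ) + MbE) / (3 * Pw))) / D1 := by
      refine hm.trans ?_
      rw [hDeq, div_le_div_iff₀ (by positivity) hD1p]
      have a1 := sum_low lowI
      have a2 := sum_low lowE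
      have a3 := add_le_add h2I h2E
      have a4 : ((EI.map (fun e => (e.m : ℝ) * (digAt C.W ZI e.p : ℝ) *
          (F (pmap (lamOf C) (lat (rhoOf C) (gOf C.Wd (C.d * C.o) e.p))) -
            M3 (lat (rhoOf C) (gOf C.Wd (C.d * C.o) e.p)) * c))).sum +
          (EE.map (fun e => (e.m : ℝ) * (digAt C.W ZE e.p : ℝ) *
          (F (pmap (lamOf C) (vecE (rhoOf C) (gOf C.Wd (C.d * C.o) e.p, {0}))) -
            M3 (vecE (rhoOf C) (gOf C.Wd (C.d * C.o) e.p, {0})) * c))).sum) ≤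
          Sc * ((XI + XE) / K - c * (((MbI : ℝ) + MbE) / (3 * Pw))) := by
        have a5 := mul_le_mul_of_nonneg_left a3 hScp.le
        refine (add_le_add a1 a2).trans ((le_of_eq (mul_add _ _ _).symm).trans (a5.trans (le_of_eq ?_)))
        ring
      calc _ ≤ (Sc * ((XI + XE) / K - c * (((MbI : ℝ) + MbE) / (3 * Pw)))) * D1 :=
            mul_le_mul_of_nonneg_right a4 hD1p.le
        _ = _ := by ring
    have h4 : -(c * (((MbI : ℝ) + MbE) / (3 * Pw))) ≤ -(c * U) := by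
      have := mul_le_mul_of_nonpos_left hMbR hc0
      linarith
    have h5 : ((XI + XE) / K - c * (((MbI : ℝ) + MbE) / (3 * Pw))) / D1 ≤ ((XI + XE) / K - c * U) / D1 := by
      apply div_le_div_of_nonneg_right _ hD1p.le
      linarith
    have h6 : c + ((XI + XE) / K - c * U) / D1 = c * ((dv : ℝ) / D1) + (XI + XE) / (K * D1) := by
      rw [hdvR]
      field_simp
      ring
    have h7 : c * ((dv : ℝ) / D1) ≤ PhiV / K * ((dv : ℝ) / D1) :=
      mul_le_mul_of_nonneg_right hvt (by rw [hdvR]; apply div_nonneg <;> linarith)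
    have e5 : evS l (phi2 C F) = (dv : ℝ) * PhiV + (XI + XE) := by
      rw [hl, evS_append, evS_append]
      simp only [contribV2, evS_cons, evS_nil, phi2_succ, phiE_lt F vj1, phiE_lt F vj2, phiE_lt F vj3, phiE_J,
        ← hFr, hPhiV]
      push_cast
      ring
    rw [e5]
    have h8 : ((dv : ℝ) * PhiV + (XI + XE)) / (K * D1) = PhiV / K * ((dv : ℝ) / D1) + (XI + XE) / (K * D1) := by
      field_simp
    rw [h8]
    linarith
  refine hmain.trans ?_
  -- the sum over classes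
  have hpos : ∀ p ∈ l, p.1 < C.J + 2 := by
    intro p hp
    rw [hl, List.mem_append, List.mem_append] at hp
    rcases hp with hp | hp | hp
    · simp only [contribV2, List.mem_cons, List.not_mem_nil, or_false] at hp
      rcases hp with rfl | rfl | rfl | rfl <;> simp only <;> omega
    · exact pos_slots2 hjI _ p hp
    · exact pos_slots2 hjE _ p hp
  rw [evS_eq_sum l _ hpos, Finset.sum_range_succ', phi2_zero, mul_zero, add_zero, LsumE_phi hD Q' hF]
  simp only [phi2_succ]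
  have hS : (6 * 2 ^ (fd1 + C.fS - C.f) : ℝ) / (K * D1) = 6 / 2 ^ C.f := by
    have e7 : (2 : ℝ) ^ (fd1 + C.fS - C.f) * 2 ^ C.f = K * D1 := by
      rw [← pow_add, Nat.sub_add_cancel hG2.f1, pow_add, hKdef, hD1]
      ring
    rw [← e7]
    field_simp
  have hsum : ∑ j ∈ Finset.range (C.J + 1), (coefP l (j + 1) : ℝ) * phiE C F j ≤
      (6 * 2 ^ (fd1 + C.fS - C.f) : ℝ) *
        ∑ j ∈ Finset.range (C.J + 1), (dig C.fq Q' j : ℝ) * phiE C F j := by
    rw [Finset.mul_sum]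
    apply Finset.sum_le_sum
    intro j hj
    have hj' := Finset.mem_range.mp hj
    have hn : phiE C F j ≤ 0 := by
      simp only [phiE]
      split_ifs
      · exact hF.nonpos (lat_nn hr _)
      · exact hF.nonpos (vecE_nn hr _)
      · exact le_rfl
    have h1 : ((dig C.fq Q' j : ℝ) * (6 * 2 ^ (fd1 + C.fS - C.f))) ≤ (coefP l (j + 1) : ℝ) := by
      exact_mod_cast hchk j hj'
    have := mul_le_mul_of_nonpos_right h1 hn
    calc _ ≤ _ := this
      _ = _ := by ring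
  calc (∑ j ∈ Finset.range (C.J + 1), (coefP l (j + 1) : ℝ) * phiE C F j) / (K * D1)
      ≤ ((6 * 2 ^ (fd1 + C.fS - C.f) : ℝ) *
        ∑ j ∈ Finset.range (C.J + 1), (dig C.fq Q' j : ℝ) * phiE C F j) / (K * D1) :=
        div_le_div_of_nonneg_right hsum (by positivity)
    _ = (6 * 2 ^ (fd1 + C.fS - C.f) : ℝ) / (K * D1) *
        ∑ j ∈ Finset.range (C.J + 1), (dig C.fq Q' j : ℝ) * phiE C F j := by ring
    _ = _ := by
      rw [hS]
      ring

/-- One level on the tree. -/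
theorem invE_step3 {C : LatCfg} {P : Par3} {TI TE : Tab3} {v : Ent} {vc Q U Q' k n : ℕ}
    (hd : C.d = k + 2) (hG2 : Good3 C P TI TE v vc)
    (hL : lvlOK3 C P TI TE v vc Q U Q' = true) (hI : InvE C k n Q) :
    InvE C k (n + 1) Q' := by
  intro lam h0 h1 F hF
  have hC := hG2.cfg
  obtain ⟨hb0, hb1⟩ := lam_bounds hC
  have hl0 : -1 / 2 ≤ lam := by linarith
  have hl1 : lam ≤ 1 := by linarith
  have hy := yn_fam' (d := k + 2) hl0 hl1 n
  have hk : C.d - 1 = k + 1 := by omega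
  have e1 : ∑ ξ, F (yn (k + 2) lam (n + 1) ξ) =
      ∑ ξ', F (pmap lam (xk (yn (k + 2) lam n) (k + 1) ξ')) := by
    simp only [yn_eq_pmap (n + 1), xn_succ]
    exact Equiv.sum_comp (splitEquiv (k + 2) n) (fun ξ' => F (pmap lam (xk (yn (k + 2) lam n) (k + 1) ξ')))
  rw [e1]
  have hsound : ∀ m, C.d - 1 = m → ∑ ξ', F (pmap (lamOf C) (xk (yn (k + 2) lam n) m ξ')) ≤
      LsumE (lawE C Q') (fun γ => F (vecE (rhoOf C) γ)) / 2 ^ C.f := by
    intro m hm
    subst hm
    exact lvl_sound3 hG2 hL hy (hI lam h0 h1) hF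
  have h2 := hsound (k + 1) hk
  refine le_trans ?_ h2
  have hmu : lam = (lam / lamOf C) * lamOf C := by
    rw [div_mul_cancel₀ _ hb1.ne]
  have hmu0 : 0 ≤ lam / lamOf C := div_nonneg_of_nonpos h1 hb1.le
  have hmu1 : lam / lamOf C ≤ 1 := by
    rw [div_le_one_of_neg hb1]
    exact h0
  have := chan_mono (x := fun ξ' => xk (yn (k + 2) lam n) (k + 1) ξ')
    (fun ξ' => xk_nn hy.nn _ ξ') (fun i => xk_coord hy i (k + 1)) hF.add hF.smul hb0 (by linarith) hmu0 hmu1
  rw [← hmu] at this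
  exact this


/-- A table as one block. -/
def oneBlk (E : List Ent) : List Blk :=
  [Blk.mk 0 ((E.map (fun e => e.p)).sum + 1) [Seg.mk 0 ((E.map (fun e => e.p)).sum + 1) E]]

lemma flatT_oneBlk (E : List Ent) : flatT (oneBlk E) = E := by
  simp [flatT, oneBlk]

lemma rangeOK_oneBlk (E : List Ent) : rangeOK (oneBlk E) = true := by
  simp only [rangeOK, oneBlk, List.all_cons, List.all_nil, Bool.and_true, Bool.and_eq_true, Nat.ble_eq,
    Nat.add_eq, List.all_eq_true, Nat.blt_eq]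
  refine ⟨by omega, by omega, ?_⟩
  intro e he
  refine ⟨by omega, ?_⟩
  have := List.single_le_sum (l := E.map (fun e => e.p)) (by simp) e.p (List.mem_map.mpr ⟨e, he, rfl⟩)
  omega

/-- The moments of the messages at the level after the last child law. -/
theorem final_bound3 {C : LatCfg} {P : Par3} {TI TE : Tab3} {v : Ent} {vc Q fw Yn Mn k n : ℕ}
    (hd : C.d = k + 2) (h1 : cfgOKE C = true) (hP : parOK3 C P = true)
    (hT : tableOK3 C P.Cm TI TE v vc = true) (hFin : finalOK3 C P TI TE Q fw Yn Mn = true)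
    (hI : InvE C k n Q) {lam : ℝ} (h0 : lamOf C ≤ lam) (h1' : lam ≤ 0) :
    ∑ ξ, GG p2T (xn (k + 2) lam (n + 1) ξ) ≤ (Yn : ℝ) / 2 ^ fw ∧
      ∑ ξ, GG (fun c => p2T c ^ 2) (xn (k + 2) lam (n + 1) ξ) ≤ (Mn : ℝ) / 2 ^ fw := by
  have hG := good3 h1 hP hT
  have hTE : tableOKE C (oneBlk (sortedE TI)) (oneBlk (sortedE TE)) vc = true := by
    simp only [tableOKE, Bool.and_eq_true]
    refine ⟨h1, ?_, rangeOK_oneBlk _, ?_, rangeOK_oneBlk _, ?_⟩
    · have hv := hG.vtx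
      unfold vtxOK2 at hv
      simp only [Bool.and_eq_true, Nat.ble_eq, Nat.blt_eq, shl_eq, one_mul, Nat.add_eq,
        Nat.mul_eq, Nat.sub_eq] at hv
      obtain ⟨-, -, -, -, i1, -, -⟩ := hv
      simp only [Nat.ble_eq, shl_eq, one_mul, Nat.add_eq, Nat.mul_eq]
      have hp : 0 < 2 ^ C.fp := by positivity
      have h5 : C.ld * vc * 2 ^ C.fp ≤ 2 ^ C.fS * (C.ld + C.ln) * 2 ^ C.fp := by
        calc C.ld * vc * 2 ^ C.fp = C.ld * (vc * 2 ^ C.fp) := by ring
          _ ≤ C.ld * ((tgSum C v).2.1 + vc * 2 ^ C.fp) := Nat.mul_le_mul_left _ (by omega)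
          _ ≤ 2 ^ (C.fS + C.fp) * (C.ld + C.ln) := i1
          _ = _ := by rw [pow_add]; ring
      exact Nat.le_of_mul_le_mul_right h5 hp
    · rw [flatT_oneBlk]
      simp only [tableOK3, Bool.and_eq_true] at hT
      exact hT.2.2.2.1
    · rw [flatT_oneBlk]
      simp only [tableOK3, Bool.and_eq_true] at hT
      exact hT.2.2.2.2.2.1
  refine final_boundE hd hTE ?_ hI h0 h1'
  have hAllEnc := allEnc3_encI (C := C) (P := P) hG.rows hG.perm Q
  have hsh0 : (0 : ℕ) ≤ C.W := Nat.zero_le _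
  have hs : ∀ (Z : ℕ) (g : Ent → ℕ) (T : Tab3), rangeOK3 T = true →
      gTab3 C.W 0 (Nat.sub (Nat.shiftLeft 1 C.W) 1) Z g T =
        gBlks C.W (Nat.sub (Nat.shiftLeft 1 C.W) 1) Z g (oneBlk (sortedE T)) := by
    intro Z g T hT
    rw [gBlks_eq _ _ _ _ (rangeOK_oneBlk _), flatT_oneBlk]
    have h2 := gTab3_eq hsh0 Z g hT
    simp only [Nat.sub_zero, pow_zero, Nat.div_one] at h2
    have h3 : gTab3 C.W 0 (Nat.sub (Nat.shiftLeft 1 C.W) 1) Z g T =
        ((tabEnts T).map (fun e => digAt C.W Z e.p * g e)).sum := h2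
    rw [h3]
    exact ((tabEnts_perm T).map _).sum_eq.symm
  have htot : Nat.ble (Nat.mul 6 (totCh C P.Lq Q P.nc)) (Nat.shiftLeft 1 (Nat.succ C.f)) = true →
      Nat.ble (Nat.mul 6 (totE C Q)) (Nat.shiftLeft 1 (Nat.succ C.f)) = true := by
    intro h
    simp only [Nat.ble_eq, Nat.mul_eq] at h ⊢
    have e1 : totE C Q ≤ totCh C P.Lq Q P.nc := by
      rw [← totCh_eq]
      exact totQ_mono C Q hG.ncJ
    have e2 : 6 * totE C Q ≤ 6 * totCh C P.Lq Q P.nc := Nat.mul_le_mul_left _ e1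
    exact e2.trans h
  unfold finalOK3 at hFin
  unfold finalOKE
  simp only [hAllEnc, encS2_encI, hs _ _ _ hG.rI, hs _ _ _ hG.rE, Bool.and_eq_true] at hFin ⊢
  exact ⟨htot hFin.1, hFin.2⟩

end Vale.Agent.Lib.P154Anti
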