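import Vale.Agent.Lib.P154Anti.LatSemE

/-!
One level of the lattice computation with rays.
-/

namespace Vale.Agent.Lib.P154Anti

open Vale.Agent.Lib.P154

/-- Consequences of the check of an entry with zero first coordinate. -/
structure EntGoodE (C : LatCfg) (e : Ent) : Prop where
  sum3 : eA C e + eB C e + eC C e = 3 * C.d * C.o
  bw : eB C e < C.Wd
  cb : eC C e ≤ eB C e
  m : e.m = if eC C e < eB C e then 6 else 3
  mu : pw C.wp C.PU (eB C e + (C.E0 - C.d * C.o)) + pw C.wp C.PU (eC C e + (C.E0 - C.d * C.o)) ≤ e.mu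
  j1 : e.j1 < C.J
  j2 : e.j2 < C.J
  j3 : e.j3 < C.J
  i0 : 3 * C.ld * (tgSum C e).1 ≤ 2 ^ C.fS * ((C.ld + C.ln) *
      (pw C.wp C.PL (eB C e + (C.E0 - C.d * C.o)) + pw C.wp C.PL (eC C e + (C.E0 - C.d * C.o))))
  i1 : 3 * C.ld * (tgSum C e).2.1 ≤ 2 ^ C.fS * ((C.ld + C.ln) * pw C.wp C.PL (eC C e + (C.E0 - C.d * C.o)) +
    (C.ld - 2 * C.ln) * pw C.wp C.PL (eB C e + (C.E0 - C.d * C.o)))
  i2 : 3 * C.ld * (tgSum C e).2.2 ≤ 2 ^ C.fS * ((C.ld + C.ln) * pw C.wp C.PL (eB C e + (C.E0 - C.d * C.o)) +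
    (C.ld - 2 * C.ln) * pw C.wp C.PL (eC C e + (C.E0 - C.d * C.o)))

lemma entOKE_good {C : LatCfg} {e : Ent} (h : entOKE C e = true) : EntGoodE C e := by
  unfold entOKE at h
  simp only [Bool.and_eq_true, Nat.ble_eq, Nat.blt_eq, Nat.beq_eq, shl_eq, one_mul, Nat.add_eq,
    Nat.mul_eq, Nat.sub_eq] at h
  obtain ⟨h1, h2, h3, h4, h5, h6, h7, h8, h9, h10, h11⟩ := h
  have e3 : eA C e + eB C e + eC C e = 3 * C.d * C.o := by
    have : eC C e = 3 * C.d * C.o - (eA C e + eB C e) := rfl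
    have h1' : eA C e + eB C e ≤ 3 * C.d * C.o := h1
    omega
  exact ⟨e3, h2, h3, h4, h5, h6, h7, h8, h9, h10, h11⟩

lemma incrOKE_sound (C : LatCfg) : ∀ (E : List Ent) (lo : ℕ), incrOKE C lo E = true →
    (∀ e ∈ E, lo ≤ e.p ∧ entOKE C e = true) ∧ E.Pairwise (fun e e' => e.p < e'.p)
  | [], _, _ => ⟨by simp, List.Pairwise.nil⟩
  | e :: E, lo, h => by
    simp only [incrOKE, Bool.and_eq_true, Nat.ble_eq] at h
    obtain ⟨h1, h2, h3⟩ := h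
    obtain ⟨ih1, ih2⟩ := incrOKE_sound C E _ h3
    refine ⟨?_, ?_⟩
    · intro x hx
      rcases List.mem_cons.mp hx with rfl | hx
      · exact ⟨h1, h2⟩
      · have := (ih1 x hx).1
        exact ⟨by have : e.p.succ ≤ x.p := this; omega, (ih1 x hx).2⟩
    · rw [List.pairwise_cons]
      refine ⟨?_, ih2⟩
      intro x hx
      have : e.p.succ ≤ x.p := (ih1 x hx).1
      omega

/-- Consequences of the check of the tables. -/
structure TableGoodE (C : LatCfg) (TI TE : List Blk) (vc : ℕ) : Prop where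
  cfg : CfgGood C
  wide : (C.f + 1) * C.d < C.W
  oR : C.o ≤ C.R
  dst : DstGood C C.J
  vc : C.ld * vc ≤ 2 ^ C.fS * (C.ld + C.ln)
  rngI : rangeOK TI = true
  pwI : (flatT TI).Pairwise (fun e e' => e.p < e'.p)
  entI : ∀ e ∈ flatT TI, EntGood C e
  rngE : rangeOK TE = true
  pwE : (flatT TE).Pairwise (fun e e' => e.p < e'.p)
  entE : ∀ e ∈ flatT TE, EntGoodE C e

lemma tableOKE_good {C : LatCfg} {TI TE : List Blk} {vc : ℕ} (h : tableOKE C TI TE vc = true) :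
    TableGoodE C TI TE vc := by
  simp only [tableOKE, cfgOKE, Bool.and_eq_true, Nat.ble_eq, Nat.blt_eq, shl_eq, one_mul, Nat.mul_eq,
    Nat.add_eq] at h
  obtain ⟨⟨h1, h2, h3⟩, h4, h5, h6, h7, h8⟩ := h
  have hC := cfgOK_good h1
  obtain ⟨i1, i2⟩ := incrOK_sound C _ _ h6
  obtain ⟨j1, j2⟩ := incrOKE_sound C _ _ h8
  exact ⟨hC, h2, h3, dstOK_good C _ hC.dst, h4, h5, i2, fun e he => entOK_good (i1 e he).2, h7, j2,
    fun e he => entOKE_good (j1 e he).2⟩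

/-! ### Vectors with zero first coordinate -/

lemma vecE_zero_0 (ρ : ℝ) (g : ℤ × ℤ) : vecE ρ (g, {0}) 0 = 0 := by
  simp [vecE]

lemma vecE_zero_1 (ρ : ℝ) (g : ℤ × ℤ) : vecE ρ (g, {0}) 1 = 1 / 3 * ρ ^ ee g 1 := by
  simp [vecE]

lemma vecE_zero_2 (ρ : ℝ) (g : ℤ × ℤ) : vecE ρ (g, {0}) 2 = 1 / 3 * ρ ^ ee g 2 := by
  simp [vecE]

lemma M3_vecE (ρ : ℝ) (g : ℤ × ℤ) : M3 (vecE ρ (g, {0})) = (ρ ^ ee g 1 + ρ ^ ee g 2) / 3 := by
  simp only [M3, vecE_zero_0, vecE_zero_1, vecE_zero_2]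
  ring

lemma pmap_vecE_coord {C : LatCfg} (hC : CfgGood C) (g : ℤ × ℤ) :
    pmap (lamOf C) (vecE (rhoOf C) (g, {0})) 0 =
      ((C.ld + C.ln) * (rhoOf C ^ ee g 1 + rhoOf C ^ ee g 2)) / (9 * C.ld) ∧
    pmap (lamOf C) (vecE (rhoOf C) (g, {0})) 1 =
      ((C.ld + C.ln) * rhoOf C ^ ee g 2 + (C.ld - 2 * C.ln) * rhoOf C ^ ee g 1) / (9 * C.ld) ∧
    pmap (lamOf C) (vecE (rhoOf C) (g, {0})) 2 =
      ((C.ld + C.ln) * rhoOf C ^ ee g 1 + (C.ld - 2 * C.ln) * rhoOf C ^ ee g 2) / (9 * C.ld) := by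
  have hld := ld_pos hC
  simp only [pmap, M3_vecE, vecE_zero_0, vecE_zero_1, vecE_zero_2, lamOf]
  refine ⟨?_, ?_, ?_⟩ <;> field_simp <;> ring

/-- An entry of the table of rays as an inequality for a sublinear functional. -/
lemma F_entryE {F : W3 → ℝ} (hF : SubC F) {C : LatCfg} (hC : CfgGood C) (hD : DstGood C C.J) {e : Ent}
    (he : EntGoodE C e) :
    F (pmap (lamOf C) (vecE (rhoOf C) (gOf C.Wd (C.d * C.o) e.p, {0}))) ≤
      ((e.c1 : ℝ) * F (lat (rhoOf C) (gJ C e.j1)) + (e.c2 : ℝ) * F (lat (rhoOf C) (gJ C e.j2)) +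
        (e.c3 : ℝ) * F (lat (rhoOf C) (gJ C e.j3))) / 2 ^ C.fS := by
  have hr := rho_pos hC
  have hld := ld_pos hC
  have hK : (0 : ℝ) < 2 ^ C.fS := by positivity
  have hP : (0 : ℝ) < 2 ^ C.fp := by positivity
  have hln : (0 : ℝ) ≤ C.ln := by positivity
  have hl2 : (2 : ℝ) * C.ln ≤ C.ld := by exact_mod_cast hC.l2
  have ec : ((C.ld - 2 * C.ln : ℕ) : ℝ) = (C.ld : ℝ) - 2 * C.ln := by
    rw [Nat.cast_sub hC.l2]
    push_cast
    ring
  have hs : (eA C e : ℤ) + eB C e + eC C e = 3 * ((C.d * C.o : ℕ) : ℤ) := by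
    have := he.sum3
    have e2 : 3 * C.d * C.o = 3 * (C.d * C.o) := by ring
    rw [e2] at this
    exact_mod_cast this
  set g := gOf C.Wd (C.d * C.o) e.p with hg
  have e1 : ee g 1 = (eB C e : ℤ) - ((C.d * C.o : ℕ) : ℤ) := rfl
  have e2 : ee g 2 = (eC C e : ℤ) - ((C.d * C.o : ℕ) : ℤ) := by
    show -((eA C e : ℤ) - ((C.d * C.o : ℕ) : ℤ)) - ((eB C e : ℤ) - ((C.d * C.o : ℕ) : ℤ)) = _
    linarith
  have lt_b : eB C e < C.Wd := he.bw
  have lt_c : eC C e < C.Wd := by have := he.cb; omega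
  obtain ⟨lb, ub⟩ := pow_bounds hC lt_b
  obtain ⟨lc, uc⟩ := pow_bounds hC lt_c
  rw [← e1] at lb ub
  rw [← e2] at lc uc
  obtain ⟨t10, t11, t12⟩ := upTg_bound hC hD he.j1 e.s1
  obtain ⟨t20, t21, t22⟩ := upTg_bound hC hD he.j2 e.s2
  obtain ⟨t30, t31, t32⟩ := upTg_bound hC hD he.j3 e.s3
  have hc1 : (0 : ℝ) ≤ e.c1 := by positivity
  have hc2 : (0 : ℝ) ≤ e.c2 := by positivity
  have hc3 : (0 : ℝ) ≤ e.c3 := by positivity
  have i0 : (3 * (C.ld : ℝ)) * (((tgSum C e).1 : ℕ) : ℝ) ≤ 2 ^ C.fS * (((C.ld : ℝ) + C.ln) *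
      ((pw C.wp C.PL (eB C e + (C.E0 - C.d * C.o)) : ℝ) + pw C.wp C.PL (eC C e + (C.E0 - C.d * C.o))) +
      ((C.ld : ℝ) - 2 * C.ln) * 0) := by
    have := he.i0
    rw [mul_zero, add_zero]
    exact_mod_cast this
  have i1 : (3 * (C.ld : ℝ)) * (((tgSum C e).2.1 : ℕ) : ℝ) ≤ 2 ^ C.fS * (((C.ld : ℝ) + C.ln) *
      (0 + (pw C.wp C.PL (eC C e + (C.E0 - C.d * C.o)) : ℝ)) +
      ((C.ld : ℝ) - 2 * C.ln) * pw C.wp C.PL (eB C e + (C.E0 - C.d * C.o))) := by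
    have := he.i1
    rw [zero_add, ← ec]
    exact_mod_cast this
  have i2 : (3 * (C.ld : ℝ)) * (((tgSum C e).2.2 : ℕ) : ℝ) ≤ 2 ^ C.fS * (((C.ld : ℝ) + C.ln) *
      (0 + (pw C.wp C.PL (eB C e + (C.E0 - C.d * C.o)) : ℝ)) +
      ((C.ld : ℝ) - 2 * C.ln) * pw C.wp C.PL (eC C e + (C.E0 - C.d * C.o))) := by
    have := he.i2
    rw [zero_add, ← ec]
    exact_mod_cast this
  have v0 : (((tgSum C e).1 : ℕ) : ℝ) = (e.c1 : ℝ) * ((upTg C e.j1 e.s1).1 : ℕ) +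
      ((e.c2 : ℝ) * ((upTg C e.j2 e.s2).1 : ℕ) + (e.c3 : ℝ) * ((upTg C e.j3 e.s3).1 : ℕ)) := by
    show ((Nat.add (Nat.mul e.c1 _) (Nat.add (Nat.mul e.c2 _) (Nat.mul e.c3 _)) : ℕ) : ℝ) = _
    simp only [Nat.add_eq, Nat.mul_eq]
    push_cast
    ring
  have v1 : (((tgSum C e).2.1 : ℕ) : ℝ) = (e.c1 : ℝ) * ((upTg C e.j1 e.s1).2.1 : ℕ) +
      ((e.c2 : ℝ) * ((upTg C e.j2 e.s2).2.1 : ℕ) + (e.c3 : ℝ) * ((upTg C e.j3 e.s3).2.1 : ℕ)) := by
    show ((Nat.add (Nat.mul e.c1 _) (Nat.add (Nat.mul e.c2 _) (Nat.mul e.c3 _)) : ℕ) : ℝ) = _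
    simp only [Nat.add_eq, Nat.mul_eq]
    push_cast
    ring
  have v2 : (((tgSum C e).2.2 : ℕ) : ℝ) = (e.c1 : ℝ) * ((upTg C e.j1 e.s1).2.2 : ℕ) +
      ((e.c2 : ℝ) * ((upTg C e.j2 e.s2).2.2 : ℕ) + (e.c3 : ℝ) * ((upTg C e.j3 e.s3).2.2 : ℕ)) := by
    show ((Nat.add (Nat.mul e.c1 _) (Nat.add (Nat.mul e.c2 _) (Nat.mul e.c3 _)) : ℕ) : ℝ) = _
    simp only [Nat.add_eq, Nat.mul_eq]
    push_cast
    ring
  rw [v0] at i0
  rw [v1] at i1
  rw [v2] at i2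
  have l0 : (0 : ℝ) ≤ 2 ^ C.fp * 0 := by simp
  have r0 := entry_real (A1 := 0) hln hl2 hP hK.le hc1 hc2 hc3 i0 t10 t20 t30 l0 lb lc
  have r1 := entry_real (A2 := 0) hln hl2 hP hK.le hc1 hc2 hc3 i1 t11 t21 t31 lb l0 lc
  have r2 := entry_real (A2 := 0) hln hl2 hP hK.le hc1 hc2 hc3 i2 t12 t22 t32 lc l0 lb
  obtain ⟨p0, p1, p2⟩ := pmap_vecE_coord hC g
  have key := F_le_of_coord hF (v := pmap (lamOf C) (vecE (rhoOf C) (g, {0})))
    (x1 := lat (rhoOf C) (act (perm3 e.s1) (gJ C e.j1)))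
    (x2 := lat (rhoOf C) (act (perm3 e.s2) (gJ C e.j2)))
    (x3 := lat (rhoOf C) (act (perm3 e.s3) (gJ C e.j3)))
    (t1 := (e.c1 : ℝ) / 2 ^ C.fS) (t2 := (e.c2 : ℝ) / 2 ^ C.fS) (t3 := (e.c3 : ℝ) / 2 ^ C.fS)
    (by positivity) (by positivity) (by positivity) (lat_nn hr _) (lat_nn hr _) (lat_nn hr _) ?_
  · rw [F_lat_act hF, F_lat_act hF, F_lat_act hF] at key
    calc _ ≤ _ := key
      _ = _ := by ring
  · have aux : ∀ (i : Fin 3) (T : ℝ), 3 * (C.ld : ℝ) * ((e.c1 : ℝ) * rhoOf C ^ ee (act (perm3 e.s1) (gJ C e.j1)) i +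
        (e.c2 : ℝ) * rhoOf C ^ ee (act (perm3 e.s2) (gJ C e.j2)) i +
        (e.c3 : ℝ) * rhoOf C ^ ee (act (perm3 e.s3) (gJ C e.j3)) i) ≤ 2 ^ C.fS * T →
        (e.c1 : ℝ) / 2 ^ C.fS * lat (rhoOf C) (act (perm3 e.s1) (gJ C e.j1)) i +
        (e.c2 : ℝ) / 2 ^ C.fS * lat (rhoOf C) (act (perm3 e.s2) (gJ C e.j2)) i +
        (e.c3 : ℝ) / 2 ^ C.fS * lat (rhoOf C) (act (perm3 e.s3) (gJ C e.j3)) i ≤ T / (9 * C.ld) := by
      intro i T hT
      rw [le_div_iff₀ (by positivity)]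
      simp only [lat]
      have e4 : ((e.c1 : ℝ) / 2 ^ C.fS * (1 / 3 * rhoOf C ^ ee (act (perm3 e.s1) (gJ C e.j1)) i) +
          (e.c2 : ℝ) / 2 ^ C.fS * (1 / 3 * rhoOf C ^ ee (act (perm3 e.s2) (gJ C e.j2)) i) +
          (e.c3 : ℝ) / 2 ^ C.fS * (1 / 3 * rhoOf C ^ ee (act (perm3 e.s3) (gJ C e.j3)) i)) * (9 * C.ld) =
          (3 * C.ld * ((e.c1 : ℝ) * rhoOf C ^ ee (act (perm3 e.s1) (gJ C e.j1)) i +
            (e.c2 : ℝ) * rhoOf C ^ ee (act (perm3 e.s2) (gJ C e.j2)) i +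
            (e.c3 : ℝ) * rhoOf C ^ ee (act (perm3 e.s3) (gJ C e.j3)) i)) / 2 ^ C.fS := by
        field_simp
        ring
      rw [e4, div_le_iff₀ hK]
      linarith
    intro i
    rcases (show i = 0 ∨ i = 1 ∨ i = 2 by fin_cases i <;> simp) with rfl | rfl | rfl
    · rw [p0]
      refine aux 0 _ (r0.trans (le_of_eq ?_))
      ring
    · rw [p1]
      refine aux 1 _ (r1.trans (le_of_eq ?_))
      ring
    · rw [p2]
      refine aux 2 _ (r2.trans (le_of_eq ?_))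
      ring

/-- The extreme ray and the class of rays. -/
lemma F_rayE {F : W3 → ℝ} (hF : SubC F) {C : LatCfg} (hC : CfgGood C) {vc : ℕ}
    (hvc : C.ld * vc ≤ 2 ^ C.fS * (C.ld + C.ln)) :
    F (pmap (lamOf C) del0) ≤ (vc : ℝ) / 2 ^ C.fS * F (vecE (rhoOf C) rayG) := by
  have hr := rho_pos hC
  have hld := ld_pos hC
  have hK : (0 : ℝ) < 2 ^ C.fS := by positivity
  have hl2 : (2 : ℝ) * C.ln ≤ C.ld := by exact_mod_cast hC.l2
  have hvc' : (C.ld : ℝ) * vc ≤ 2 ^ C.fS * ((C.ld : ℝ) + C.ln) := by exact_mod_cast hvc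
  have n0 : NN (vecE (rhoOf C) rayG) := vecE_nn hr _
  have key := F_le_of_coord hF (v := pmap (lamOf C) del0)
    (x1 := vecE (rhoOf C) rayG) (x2 := vecE (rhoOf C) rayG) (x3 := vecE (rhoOf C) rayG)
    (t1 := (vc : ℝ) / 2 ^ C.fS) (t2 := 0) (t3 := 0)
    (by positivity) le_rfl le_rfl n0 n0 n0 ?_
  · calc _ ≤ _ := key
      _ = _ := by ring
  · have hM : M3 del0 = 1 := by simp [M3, del0]
    have p0 : pmap (lamOf C) del0 0 = ((C.ld : ℝ) - 2 * C.ln) / (3 * C.ld) := by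
      simp only [pmap, hM, lamOf, del0, if_true]
      field_simp
      ring
    have p1 : pmap (lamOf C) del0 1 = ((C.ld : ℝ) + C.ln) / (3 * C.ld) := by
      simp only [pmap, hM, lamOf, del0]
      simp
      field_simp
    have p2 : pmap (lamOf C) del0 2 = ((C.ld : ℝ) + C.ln) / (3 * C.ld) := by
      simp only [pmap, hM, lamOf, del0]
      simp
      field_simp
    have y0 : vecE (rhoOf C) rayG 0 = 0 := vecE_zero_0 _ _
    have y1 : vecE (rhoOf C) rayG 1 = 1 / 3 := by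
      have := vecE_zero_1 (rhoOf C) (0, 0)
      simpa [rayG, ee] using this
    have y2 : vecE (rhoOf C) rayG 2 = 1 / 3 := by
      have := vecE_zero_2 (rhoOf C) (0, 0)
      simpa [rayG, ee] using this
    have aux : (vc : ℝ) / 2 ^ C.fS * (1 / 3) ≤ ((C.ld : ℝ) + C.ln) / (3 * C.ld) := by
      rw [le_div_iff₀ (by positivity)]
      have : (vc : ℝ) / 2 ^ C.fS * (1 / 3) * (3 * C.ld) = (C.ld * vc : ℝ) / 2 ^ C.fS := by
        field_simp
      rw [this, div_le_iff₀ hK]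
      linarith
    intro i
    rcases (show i = 0 ∨ i = 1 ∨ i = 2 by fin_cases i <;> simp) with rfl | rfl | rfl
    · rw [p0, y0]
      simp only [mul_zero, zero_mul, add_zero]
      apply div_nonneg <;> linarith
    · rw [p1, y1]
      simpa using aux
    · rw [p2, y2]
      simpa using aux

lemma M3_latE_le {C : LatCfg} (hC : CfgGood C) {e : Ent} (he : EntGoodE C e) :
    M3 (vecE (rhoOf C) (gOf C.Wd (C.d * C.o) e.p, {0})) ≤ (e.mu : ℝ) / (3 * 2 ^ C.fp) := by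
  have hs : (eA C e : ℤ) + eB C e + eC C e = 3 * ((C.d * C.o : ℕ) : ℤ) := by
    have := he.sum3
    have e2 : 3 * C.d * C.o = 3 * (C.d * C.o) := by ring
    rw [e2] at this
    exact_mod_cast this
  set g := gOf C.Wd (C.d * C.o) e.p with hg
  have e1 : ee g 1 = (eB C e : ℤ) - ((C.d * C.o : ℕ) : ℤ) := rfl
  have e2 : ee g 2 = (eC C e : ℤ) - ((C.d * C.o : ℕ) : ℤ) := by
    show -((eA C e : ℤ) - ((C.d * C.o : ℕ) : ℤ)) - ((eB C e : ℤ) - ((C.d * C.o : ℕ) : ℤ)) = _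
    linarith
  have lt_b : eB C e < C.Wd := he.bw
  have lt_c : eC C e < C.Wd := by have := he.cb; omega
  obtain ⟨lb, ub⟩ := pow_bounds hC lt_b
  obtain ⟨lc, uc⟩ := pow_bounds hC lt_c
  rw [← e1] at ub
  rw [← e2] at uc
  have hmu : ((pw C.wp C.PU (eB C e + (C.E0 - C.d * C.o)) : ℕ) : ℝ) +
      pw C.wp C.PU (eC C e + (C.E0 - C.d * C.o)) ≤ e.mu := by
    exact_mod_cast he.mu
  have hP : (0 : ℝ) < 2 ^ C.fp := by positivity
  rw [le_div_iff₀ (by positivity), M3_vecE]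
  nlinarith

lemma mul_eq_mulX {C : LatCfg} {e : Ent} (he : EntGoodE C e) :
    e.m = mulX (gOf C.Wd (C.d * C.o) e.p) := by
  have hs : (eA C e : ℤ) + eB C e + eC C e = 3 * ((C.d * C.o : ℕ) : ℤ) := by
    have := he.sum3
    have e2 : 3 * C.d * C.o = 3 * (C.d * C.o) := by ring
    rw [e2] at this
    exact_mod_cast this
  have ez : -((eA C e : ℤ) - ((C.d * C.o : ℕ) : ℤ)) - ((eB C e : ℤ) - ((C.d * C.o : ℕ) : ℤ)) =
      (eC C e : ℤ) - ((C.d * C.o : ℕ) : ℤ) := by linarith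
  rw [he.m]
  show _ = mulB ((eB C e : ℤ) - ((C.d * C.o : ℕ) : ℤ))
    (-((eA C e : ℤ) - ((C.d * C.o : ℕ) : ℤ)) - ((eB C e : ℤ) - ((C.d * C.o : ℕ) : ℤ)))
  rw [ez]
  unfold mulB
  have hcb := he.cb
  by_cases h : eC C e < eB C e
  · have h' : (eC C e : ℤ) - ((C.d * C.o : ℕ) : ℤ) < (eB C e : ℤ) - ((C.d * C.o : ℕ) : ℤ) := by omega
    simp [h, h']
  · have h2 : eC C e = eB C e := by omega
    simp [h2]

/-! ### The merged law -/

/-- The tensor of the interior part of the product law. -/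
def ZIof (C : LatCfg) (Q : ℕ) : ℕ := Nat.pow (encI C Q) C.d

/-- The tensor of the messages with zero first coordinate. -/
def ZEof (C : LatCfg) (Q : ℕ) : ℕ := Nat.sub (Nat.pow (encS C Q) C.d) (ZIof C Q)

section merged

variable {C : LatCfg} (hC : CfgGood C) (hW : (C.f + 1) * C.d < C.W) {Q : ℕ}
  (htot : 6 * totE C Q ≤ 2 ^ (C.f + 1))

include hC in
lemma ZI_eq : ZIof C Q = encP C.W (selE ∅ C.Wd (rawPowE (rawE C Q) (C.d - 1))) := by
  have hd : C.d - 1 + 1 = C.d := by have := hC.d2; omega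
  rw [encP_sel_pow, hd, ← encI_eq]
  rfl

include hC in
lemma ZE_eq : ZEof C Q = encP C.W (selX C.Wd (rawPowE (rawE C Q) (C.d - 1))) := by
  have hd : C.d - 1 + 1 = C.d := by have := hC.d2; omega
  have e1 : Nat.pow (encS C Q) C.d = encP C.W (selE {0} C.Wd (rawPowE (rawE C Q) (C.d - 1))) := by
    rw [encP_sel_pow, hd, ← encS_eq]
    rfl
  rw [ZEof, e1, encP_split, ZI_eq hC]
  exact Nat.add_sub_cancel_left _ _

include hC hW htot in
lemma tot_small : totP (selE {0} C.Wd (rawPowE (rawE C Q) (C.d - 1))) < 2 ^ C.W := by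
  have hd : C.d - 1 + 1 = C.d := by have := hC.d2; omega
  rw [totP_eq_encP, encP_sel_pow, hd, ← totP_eq_encP, totP_sel_rawE]
  have h1 : 6 * totQ C Q C.J + 2 * dig C.fq Q C.J ≤ 2 ^ (C.f + 1) := by
    have e : totE C Q = dig C.fq Q C.J + totQ C Q C.J := rfl
    rw [e] at htot
    omega
  calc (6 * totQ C Q C.J + 2 * dig C.fq Q C.J) ^ C.d ≤ (2 ^ (C.f + 1)) ^ C.d := Nat.pow_le_pow_left h1 _
    _ = 2 ^ ((C.f + 1) * C.d) := by rw [pow_mul]
    _ < 2 ^ C.W := Nat.pow_lt_pow_right (by norm_num) hW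

include hC hW htot in
lemma digit_I (p : ℕ) :
    digAt C.W (ZIof C Q) p = coefP (selE ∅ C.Wd (rawPowE (rawE C Q) (C.d - 1))) p := by
  rw [ZI_eq hC]
  apply digit_encP
  intro q
  refine lt_of_le_of_lt (coefP_le_tot _ q) (lt_of_le_of_lt ?_ (tot_small hC hW htot))
  rw [totP_eq_encP, totP_eq_encP, encP_split]
  omega

include hC hW htot in
lemma digit_X (p : ℕ) :
    digAt C.W (ZEof C Q) p = coefP (selX C.Wd (rawPowE (rawE C Q) (C.d - 1))) p := by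
  rw [ZE_eq hC]
  apply digit_encP
  intro q
  refine lt_of_le_of_lt (coefP_le_tot _ q) (lt_of_le_of_lt ?_ (tot_small hC hW htot))
  rw [totP_eq_encP, totP_eq_encP, encP_split]
  omega

end merged

/-- The bound for the merged messages of `d` children. -/
theorem merged_boundE {C : LatCfg} (hC : CfgGood C) (hW : (C.f + 1) * C.d < C.W) (hoR : C.o ≤ C.R)
    (hD : DstGood C C.J) {EI EE : List Ent}
    (hI : EI.Pairwise (fun e e' => e.p < e'.p)) (hIg : ∀ e ∈ EI, EntGood C e)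
    (hX : EE.Pairwise (fun e e' => e.p < e'.p)) (hXg : ∀ e ∈ EE, EntGoodE C e) {Q : ℕ}
    (htot : 6 * totE C Q ≤ 2 ^ (C.f + 1)) {Ω : Type} [Fintype Ω] {y : Ω → W3} (hy : Fam y)
    (hDom : DomE (rhoOf C) y (lawE C Q) (2 ^ C.f)) {G : W3 → ℝ} (hG : SubC G) :
    ∑ ξ, G (xk y (C.d - 1) ξ) ≤
      ((EI.map (fun e => (e.m : ℝ) * (digAt C.W (ZIof C Q) e.p : ℝ) *
          G (lat (rhoOf C) (gOf C.Wd (C.d * C.o) e.p)))).sum +
        (EE.map (fun e => (e.m : ℝ) * (digAt C.W (ZEof C Q) e.p : ℝ) *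
          G (vecE (rhoOf C) (gOf C.Wd (C.d * C.o) e.p, {0})))).sum) / 2 ^ (C.f * C.d) := by
  have hr := rho_pos hC
  have hd : C.d - 1 + 1 = C.d := by have := hC.d2; omega
  have hsym : SymE (lawE C Q) := symE_lawE C Q hD
  have h1 := DomE.xk hr (s := 2 ^ C.f) (by positivity) hy hsym hDom (C.d - 1) G hG
  have e0 : ((2 : ℝ) ^ C.f) ^ (C.d - 1 + 1) = 2 ^ (C.f * C.d) := by rw [hd, ← pow_mul]
  rw [e0] at h1
  refine h1.trans ?_
  apply div_le_div_of_nonneg_right _ (by positivity)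
  have hinv : ∀ (σ : Equiv.Perm (Fin 3)) γ, G (vecE (rhoOf C) (actE σ γ)) = G (vecE (rhoOf C) γ) := by
    intro σ γ
    rw [vecE_act, hG.inv]
  have hnn : ∀ γ, G (vecE (rhoOf C) γ) ≤ 0 := fun γ => hG.nonpos (vecE_nn hr γ)
  refine (LsumE_mulE (hsym.pow (C.d - 1)) hinv hnn).trans ?_
  have e2 : LpowE (lawE C Q) (C.d - 1) = ofRawE (C.d * C.o) (rawPowE (rawE C Q) (C.d - 1)) := by
    simp only [lawE]
    rw [ofRawE_pow, hd]
  rw [e2]
  have hl : ∀ p ∈ rawPowE (rawE C Q) (C.d - 1), p.1.1.1 < C.Wd := by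
    intro p hp
    have := (BdE.pow (BdE_lawE C Q hD hoR) (C.d - 1)) p hp
    rw [hd] at this
    have h2 := hC.Wd
    omega
  have := read_allE (Wd := C.Wd) (t := C.d * C.o) hl
    (f := fun γ => G (vecE (rhoOf C) γ)) hnn hI (fun e he => mul_eq_mulR (hIg e he)) hX
    (fun e he => mul_eq_mulX (hXg e he))
  refine this.trans (le_of_eq ?_)
  congr 1
  · apply congrArg
    apply List.map_congr_left
    intro e _
    rw [digit_I hC hW htot, vecE_empty]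
  · apply congrArg
    apply List.map_congr_left
    intro e _
    rw [digit_X hC hW htot]

end Vale.Agent.Lib.P154Anti
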