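import Vale.Agent.Lib.P154Anti.LatTree

/-!
# More children give more information

The quantity `a_n` on the `d`-ary tree is at most the one on the `(d + 1)`-ary tree, for three colours and for every
admissible eigenvalue.  The proof compares the families of messages for sublinear functionals.
-/

namespace Vale.Agent.Lib.P154Anti

open Vale.Agent.Lib.P154

/-- Sublinear functionals on the cone of messages, invariant under the colours. -/
structure SL (F : W3 → ℝ) : Prop where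
  add : ∀ x y, NN x → NN y → F (x + y) ≤ F x + F y
  smul : ∀ (t : ℝ) (x : W3), 0 ≤ t → NN x → F (t • x) = t * F x
  inv : ∀ (σ : Equiv.Perm (Fin 3)) (x : W3), F (x ∘ σ) = F x

lemma nn_zero : NN (0 : W3) := fun _ => le_rfl

lemma SL.zero {F : W3 → ℝ} (h : SL F) : F 0 = 0 := by
  have := h.smul 0 0 le_rfl nn_zero
  simpa using this

/-- Subadditivity over a finite sum. -/
lemma SL.sum_le {F : W3 → ℝ} (h : SL F) {Ω : Type} (s : Finset Ω) (v : Ω → W3) (hv : ∀ ω, NN (v ω)) :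
    F (∑ ω ∈ s, v ω) ≤ ∑ ω ∈ s, F (v ω) := by
  classical
  induction s using Finset.induction_on with
  | empty => simp [h.zero]
  | insert a s ha ih =>
    rw [Finset.sum_insert ha, Finset.sum_insert ha]
    have hn : NN (∑ ω ∈ s, v ω) := by
      intro i
      rw [Finset.sum_apply]
      exact Finset.sum_nonneg fun ω _ => hv ω i
    have := h.add _ _ (hv a) hn
    linarith

variable {Ω : Type} [Fintype Ω]

/-- Merging with one more child can only increase a sublinear functional. -/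
lemma le_sum_mrg {F : W3 → ℝ} (h : SL F) {y : Ω → W3} (hy : Fam y) {x : W3} (hx : NN x) :
    F x ≤ ∑ ω, F (mrg x (y ω)) := by
  have e : ∑ ω, mrg x (y ω) = x := by
    funext i
    rw [Finset.sum_apply]
    simp only [mrg]
    rw [← Finset.mul_sum, ← Finset.mul_sum, hy.coord i]
    ring
  have := h.sum_le Finset.univ (fun ω => mrg x (y ω)) (fun ω => mrg_nn hx (hy.nn ω))
  rwa [e] at this

lemma sum_xk_le_succ {F : W3 → ℝ} (h : SL F) {y : Ω → W3} (hy : Fam y) (K : ℕ) :
    ∑ ξ, F (xk y K ξ) ≤ ∑ ξ, F (xk y (K + 1) ξ) := by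
  rw [sum_cons]
  simp only [xk_succ]
  exact Finset.sum_le_sum fun ξ _ => le_sum_mrg h hy (xk_nn hy.nn K ξ)

lemma mrg_comp (x y : W3) (σ : Equiv.Perm (Fin 3)) : mrg x y ∘ σ = mrg (x ∘ σ) (y ∘ σ) := by
  funext i
  simp [mrg]

/-- The merged messages are a symmetric family. -/
lemma sum_xk_comp {y : Ω → W3} (hy : Fam y) (σ : Equiv.Perm (Fin 3)) :
    ∀ (K : ℕ) (H : W3 → ℝ), ∑ ξ, H (xk y K ξ ∘ σ) = ∑ ξ, H (xk y K ξ)
  | 0, H => by
    rw [sum_fin_one, sum_fin_one]
    simp only [xk_zero]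
    exact hy.sym σ H
  | K + 1, H => by
    rw [sum_cons, sum_cons]
    simp only [xk_succ, mrg_comp]
    have e : ∀ ξ : Fin (K + 1) → Ω, ∑ ω, H (mrg (xk y K ξ ∘ σ) (y ω ∘ σ)) =
        ∑ ω, H (mrg (xk y K ξ ∘ σ) (y ω)) := fun ξ =>
      hy.sym σ (fun v => H (mrg (xk y K ξ ∘ σ) v))
    simp only [e]
    exact sum_xk_comp hy σ K (fun a => ∑ ω, H (mrg a (y ω)))

/-- Merging with a family stays in the class, in the first slot. -/
lemma SL.merge_left {F : W3 → ℝ} (h : SL F) {y : Ω → W3} (hy : Fam y) :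
    SL (fun x => ∑ ω, F (mrg x (y ω))) where
  add := by
    intro x x' hx hx'
    rw [← Finset.sum_add_distrib]
    apply Finset.sum_le_sum
    intro ω _
    rw [mrg_add_left]
    exact h.add _ _ (mrg_nn hx (hy.nn ω)) (mrg_nn hx' (hy.nn ω))
  smul := by
    intro t x ht hx
    rw [Finset.mul_sum]
    apply Finset.sum_congr rfl
    intro ω _
    rw [mrg_smul_left]
    exact h.smul _ _ ht (mrg_nn hx (hy.nn ω))
  inv := by
    intro σ x
    simp only [mrg_comp_left, h.inv]
    exact hy.sym σ⁻¹ (fun v => F (mrg x v))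

/-- Merging with the merged messages of a family stays in the class, in the second slot. -/
lemma SL.merge_right {F : W3 → ℝ} (h : SL F) {y : Ω → W3} (hy : Fam y) (K : ℕ) :
    SL (fun v => ∑ ξ, F (mrg (xk y K ξ) v)) where
  add := by
    intro x x' hx hx'
    rw [← Finset.sum_add_distrib]
    apply Finset.sum_le_sum
    intro ξ _
    rw [mrg_add_right]
    exact h.add _ _ (mrg_nn (xk_nn hy.nn K ξ) hx) (mrg_nn (xk_nn hy.nn K ξ) hx')
  smul := by
    intro t x ht hx
    rw [Finset.mul_sum]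
    apply Finset.sum_congr rfl
    intro ξ _
    rw [mrg_smul_right]
    exact h.smul _ _ ht (mrg_nn (xk_nn hy.nn K ξ) hx)
  inv := by
    intro σ x
    simp only [mrg_comp_right, h.inv]
    exact sum_xk_comp hy σ⁻¹ K (fun a => F (mrg a x))

/-- Domination of families passes to the merges of `K + 1` messages. -/
lemma sum_xk_le_of_dom {Ω' : Type} [Fintype Ω'] {y : Ω → W3} {y' : Ω' → W3} (hy : Fam y) (hy' : Fam y')
    (hdom : ∀ F, SL F → ∑ ω, F (y ω) ≤ ∑ ω', F (y' ω')) :
    ∀ (K : ℕ) (F : W3 → ℝ), SL F → ∑ ξ, F (xk y K ξ) ≤ ∑ ξ', F (xk y' K ξ')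
  | 0, F, hF => by
    rw [sum_fin_one, sum_fin_one]
    simp only [xk_zero]
    exact hdom F hF
  | K + 1, F, hF => by
    rw [sum_cons, sum_cons]
    simp only [xk_succ]
    have h1 := sum_xk_le_of_dom hy hy' hdom K _ (hF.merge_left hy)
    have h2 := hdom _ (hF.merge_right hy' K)
    have e : ∑ ξ' : Fin (K + 1) → Ω', ∑ ω, F (mrg (xk y' K ξ') (y ω)) =
        ∑ ω, ∑ ξ' : Fin (K + 1) → Ω', F (mrg (xk y' K ξ') (y ω)) := Finset.sum_comm
    have e' : ∑ ξ' : Fin (K + 1) → Ω', ∑ ω', F (mrg (xk y' K ξ') (y' ω')) =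
        ∑ ω', ∑ ξ' : Fin (K + 1) → Ω', F (mrg (xk y' K ξ') (y' ω')) := Finset.sum_comm
    calc _ ≤ _ := h1
      _ = _ := e
      _ ≤ _ := h2
      _ = _ := e'.symm

lemma SL.pmap {F : W3 → ℝ} (h : SL F) {lam : ℝ} (h0 : -1 / 2 ≤ lam) (h1 : lam ≤ 1) :
    SL (fun x => F (pmap lam x)) where
  add := by
    intro x y hx hy
    rw [pmap_add]
    exact h.add _ _ (pmap_nn h0 h1 hx) (pmap_nn h0 h1 hy)
  smul := by
    intro t x ht hx
    have e : Vale.Agent.Lib.P154Anti.pmap lam (t • x) = t • Vale.Agent.Lib.P154Anti.pmap lam x := by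
      funext i
      simp only [Vale.Agent.Lib.P154Anti.pmap, M3_smul, Pi.smul_apply, smul_eq_mul]
      ring
    rw [e]
    exact h.smul _ _ ht (pmap_nn h0 h1 hx)
  inv := by
    intro σ x
    have e : Vale.Agent.Lib.P154Anti.pmap lam (x ∘ σ) = Vale.Agent.Lib.P154Anti.pmap lam x ∘ σ := by
      funext i
      simp only [Vale.Agent.Lib.P154Anti.pmap, M3_comp, Function.comp_apply]
    rw [e]
    exact h.inv σ _

variable {lam : ℝ}

lemma xn_zero (d : ℕ) (ξ : (Fin 0 → Fin d) → Fin 3) :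
    xn d lam 0 ξ = fun i => (1 / 3) * (if ξ Fin.elim0 = i then 1 else 0) := rfl

/-- The families of messages are ordered, along the number of children. -/
theorem sum_xn_le (k : ℕ) (hl0 : -1 / 2 ≤ lam) (hl1 : lam ≤ 1) :
    ∀ (n : ℕ) (F : W3 → ℝ), SL F →
      ∑ ξ, F (xn (k + 2) lam n ξ) ≤ ∑ ξ, F (xn (k + 3) lam n ξ)
  | 0, F, _ => by
    refine le_of_eq ?_
    rw [← Equiv.sum_comp (Equiv.funUnique (Fin 0 → Fin (k + 2)) (Fin 3)).symm,
      ← Equiv.sum_comp (Equiv.funUnique (Fin 0 → Fin (k + 3)) (Fin 3)).symm]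
    apply Finset.sum_congr rfl
    intro τ _
    rfl
  | n + 1, F, hF => by
    have e1 : ∑ ξ, F (xn (k + 2) lam (n + 1) ξ) = ∑ f, F (xk (yn (k + 2) lam n) (k + 1) f) := by
      simp only [xn_succ]
      exact Equiv.sum_comp (splitEquiv (k + 2) n) (fun f => F (xk (yn (k + 2) lam n) (k + 1) f))
    have e2 : ∑ ξ, F (xn (k + 3) lam (n + 1) ξ) = ∑ f, F (xk (yn (k + 3) lam n) (k + 2) f) := by
      simp only [xn_succ]
      exact Equiv.sum_comp (splitEquiv ((k + 1) + 2) n) (fun f => F (xk (yn ((k + 1) + 2) lam n) (k + 1 + 1) f))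
    rw [e1, e2]
    have hy := yn_fam' (d := k + 2) hl0 hl1 n
    have hy' := yn_fam' (d := k + 3) hl0 hl1 n
    refine (sum_xk_le_of_dom hy hy' (fun G hG => ?_) (k + 1) F hF).trans (sum_xk_le_succ hF hy' (k + 1))
    simp only [yn_eq_pmap]
    exact sum_xn_le k hl0 hl1 n _ (hG.pmap hl0 hl1)

/-- The total variation distance of a message from the uniform one, homogeneous. -/
noncomputable def tvF (x : W3) : ℝ :=
  (1 / 2) * (|x 0 - M3 x / 3| + |x 1 - M3 x / 3| + |x 2 - M3 x / 3|)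

lemma tvF_SL : SL tvF where
  add := by
    intro x y _ _
    simp only [tvF, M3_add, Pi.add_apply]
    have h0 := abs_add_le (x 0 - M3 x / 3) (y 0 - M3 y / 3)
    have h1 := abs_add_le (x 1 - M3 x / 3) (y 1 - M3 y / 3)
    have h2 := abs_add_le (x 2 - M3 x / 3) (y 2 - M3 y / 3)
    have e0 : x 0 + y 0 - (M3 x + M3 y) / 3 = (x 0 - M3 x / 3) + (y 0 - M3 y / 3) := by ring
    have e1 : x 1 + y 1 - (M3 x + M3 y) / 3 = (x 1 - M3 x / 3) + (y 1 - M3 y / 3) := by ring
    have e2 : x 2 + y 2 - (M3 x + M3 y) / 3 = (x 2 - M3 x / 3) + (y 2 - M3 y / 3) := by ring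
    rw [e0, e1, e2]
    linarith
  smul := by
    intro t x ht _
    simp only [tvF, M3_smul, Pi.smul_apply, smul_eq_mul]
    have e : ∀ a : ℝ, t * a - t * M3 x / 3 = t * (a - M3 x / 3) := fun a => by ring
    rw [e, e, e, abs_mul, abs_mul, abs_mul, abs_of_nonneg ht]
    ring
  inv := by
    intro σ x
    simp only [tvF, M3_comp, Function.comp_apply]
    have hs := Equiv.sum_comp σ (fun i => |x i - M3 x / 3|)
    simp only [Fin.sum_univ_three] at hs
    rw [hs]

lemma tvF_eq {x : W3} (hx : NN x) :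
    M3 x * ((1 / 2) * (|(cen x).x| + |(cen x).y| + |(cen x).z|)) = tvF x := by
  rcases (M3_nonneg hx).eq_or_lt with h | h
  · have z := M3_zero hx h.symm
    simp only [tvF, ← h, z 0, z 1, z 2]
    simp
  · have e : ∀ a : ℝ, M3 x * |a / M3 x - 1 / 3| = |a - M3 x / 3| := by
      intro a
      rw [← abs_of_pos h, ← abs_mul, abs_of_pos h]
      congr 1
      field_simp
    simp only [cen, tvF]
    have e0 := e (x 0)
    have e1 := e (x 1)
    have e2 := e (x 2)
    rw [← e0, ← e1, ← e2]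
    ring

/-- **Monotonicity in the number of children.** -/
theorem reconDist_mono (k : ℕ) (hl0 : -1 / 2 ≤ lam) (hl1 : lam ≤ 1) (n : ℕ) :
    reconDist 3 (k + 2) lam n ≤ reconDist 3 (k + 3) lam n := by
  rw [reconDist_eq, reconDist_eq]
  simp only [tvF_eq (xn_nn' hl0 hl1 n _)]
  exact sum_xn_le k hl0 hl1 n tvF tvF_SL

lemma reconDist_nonneg_any {d : ℕ} (hl0 : -1 / 2 ≤ lam) (hl1 : lam ≤ 1) (n : ℕ) :
    0 ≤ reconDist 3 d lam n := by
  rw [reconDist_eq]
  apply Finset.sum_nonneg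
  intro ξ _
  exact mul_nonneg (M3_nonneg (xn_nn' hl0 hl1 n ξ)) (by positivity)

/-- Nonreconstruction on a tree passes to trees with fewer children. -/
theorem tendsto_of_succ (k : ℕ) (hl0 : -1 / 2 ≤ lam) (hl1 : lam ≤ 1)
    (h : Filter.Tendsto (reconDist 3 (k + 3) lam) Filter.atTop (nhds 0)) :
    Filter.Tendsto (reconDist 3 (k + 2) lam) Filter.atTop (nhds 0) :=
  squeeze_zero (fun n => reconDist_nonneg_any hl0 hl1 n) (fun n => reconDist_mono k hl0 hl1 n) h

end Vale.Agent.Lib.P154Anti
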